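import Vale.Agent.P282.Defs

/-! Jacobians and dual derivations. -/

open scoped ENNReal WithZero
open WithZero Filter

noncomputable section

namespace Vale.Agent.P282

set_option linter.unusedSectionVars false

variable {K : Type} [Field K] [Algebra ℂ K] {n : ℕ}

theorem a_sum (D : Fin n → Derivation ℂ K K) (x : K) : (∑ i, D i) x = ∑ i, D i x :=
  map_sum (⟨⟨fun d : Derivation ℂ K K => d x, rfl⟩, fun _ _ => rfl⟩ : Derivation ℂ K K →+ K) D _

theorem a_alg (A : Subalgebra ℂ K) (δ : Derivation ℂ K K) (h : ∀ a ∈ A, δ a = 0) (x : K)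
    (hx : IsAlgebraic A x) : δ x = 0 := by
  have : CharZero K := charZero_of_injective_algebraMap (algebraMap ℂ K).injective
  let e : Derivation A K K :=
    { toFun := δ
      map_add' := map_add δ
      map_smul' := fun a z => by
        change δ ((a : K) * z) = (a : K) * δ z
        rw [δ.leibniz, h a a.2, smul_zero, add_zero, smul_eq_mul]
      map_one_eq_zero' := δ.map_one_eq_zero
      leibniz' := δ.leibniz }
  obtain ⟨p, hp, hp0⟩ := hx
  induction hm : p.natDegree using Nat.strong_induction_on generalizing p with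
  | _ m ih =>
    have h0 : p.natDegree ≠ 0 := fun h0 => by
      rw [Polynomial.eq_C_of_natDegree_eq_zero h0] at hp hp0
      rw [Polynomial.aeval_C] at hp0
      exact hp (by rw [show p.coeff 0 = 0 from Subtype.ext hp0, map_zero])
    have h1 := e.map_aeval p x
    rw [hp0, map_zero, smul_eq_mul] at h1
    rcases mul_eq_zero.1 h1.symm with h2 | h2
    · exact ih _ (hm ▸ Polynomial.natDegree_derivative_lt h0) _
        (fun h3 => h0 (Polynomial.derivative_eq_zero.1 h3)) h2 rfl
    · exact h2

/-- If `jac D y = 0` some nontrivial combination `∑ c i • D i` (`Matrix.exists_vecMul_eq_zero_iff`)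
kills every `y j`, hence `Algebra.adjoin ℂ (range y)` (`Algebra.adjoin_induction`), hence every
algebraic `x`: take a nonzero polynomial `p` of least degree killing `x`; then
`0 = δ (aeval x p) = aeval x p.derivative * δ x` (all coefficients are killed), and
`p.derivative ≠ 0` has smaller degree (characteristic zero, `natDegree p ≠ 0`). -/
theorem jac_ne (D : Fin n → Derivation ℂ K K) (hD : LinearIndependent K D) (y : Fin n → K)
    (h : ∀ x : K, IsAlgebraic (Algebra.adjoin ℂ (Set.range y)) x) : jac D y ≠ 0 := by
  classical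
  intro h0
  obtain ⟨c, hc, hc0⟩ := Matrix.exists_vecMul_eq_zero_iff.2 h0
  set δ : Derivation ℂ K K := ∑ i, c i • D i with hδ
  have h1 : ∀ j, δ (y j) = 0 := fun j => by
    have := congrFun hc0 j
    simpa [hδ, Matrix.vecMul, dotProduct, a_sum] using this
  have h2 : ∀ a ∈ Algebra.adjoin ℂ (Set.range y), δ a = 0 := fun a ha => by
    induction ha using Algebra.adjoin_induction with
    | mem x hx =>
      obtain ⟨j, rfl⟩ := hx
      exact h1 j
    | algebraMap r => exact δ.map_algebraMap r
    | add x z _ _ hx hz => rw [map_add, hx, hz, add_zero]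
    | mul x z _ _ hx hz => rw [δ.leibniz, hx, hz, smul_zero, smul_zero, add_zero]
  have h3 : δ = 0 := Derivation.ext fun x => a_alg _ δ h2 x (h x)
  exact hc (funext fun i => Fintype.linearIndependent_iff.1 hD c h3 i)

/-- `d i = ∑ k, M⁻¹ i k • D k` with `M = Matrix.of fun i j => D i (t j)`. -/
theorem exists_dual (D : Fin n → Derivation ℂ K K) (t : Fin n → K) (h : jac D t ≠ 0) :
    ∃ d : Fin n → Derivation ℂ K K, (∀ i j, d i (t j) = if i = j then 1 else 0) ∧
      ∀ f, jac D f = jac D t * jac d f := by
  classical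
  set M : Matrix (Fin n) (Fin n) K := Matrix.of fun i j => D i (t j) with hM
  have hu : IsUnit M.det := isUnit_iff_ne_zero.2 h
  have h1 : ∀ f : Fin n → K, (Matrix.of fun i j => (∑ k, M⁻¹ i k • D k) (f j)) =
      M⁻¹ * Matrix.of fun i j => D i (f j) := fun f => by
    ext i j
    simp [Matrix.mul_apply, a_sum]
  refine ⟨fun i => ∑ k, M⁻¹ i k • D k, fun i j => ?_, fun f => ?_⟩
  · have := congrFun (congrFun (h1 t) i) j
    rw [← hM, Matrix.nonsing_inv_mul M hu, Matrix.one_apply] at this
    exact this
  · rw [jac, jac, jac, h1, ← hM, ← Matrix.det_mul, Matrix.mul_nonsing_inv_cancel_left M _ hu]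

/-- The matrix is the identity with column `i` replaced (`Matrix.cramer`, `det_updateCol`). -/
theorem jac_update (d : Fin n → Derivation ℂ K K) (t : Fin n → K)
    (h : ∀ i j, d i (t j) = if i = j then 1 else 0) (i : Fin n) (u : K) :
    jac d (Function.update t i u) = d i u := by
  classical
  have h1 : (Matrix.of fun a b => d a (Function.update t i u b)) =
      (1 : Matrix (Fin n) (Fin n) K).updateCol i fun a => d a u := by
    ext a b
    rw [Matrix.of_apply, Matrix.updateCol_apply]
    split_ifs with hb
    · rw [hb, Function.update_self]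
    · rw [Function.update_of_ne hb, h, Matrix.one_apply]
  rw [jac, h1, ← Matrix.cramer_apply, Matrix.cramer_one]
  rfl

/-- Chain rule (`MvPolynomial.induction_on`). -/
theorem dual_aeval (d : Fin n → Derivation ℂ K K) (t : Fin n → K)
    (h : ∀ i j, d i (t j) = if i = j then 1 else 0) (i : Fin n) (P : MvPolynomial (Fin n) ℂ) :
    d i (MvPolynomial.aeval t P) = MvPolynomial.aeval t (MvPolynomial.pderiv i P) := by
  classical
  induction P using MvPolynomial.induction_on with
  | C a => simp
  | add p q hp hq => simp only [map_add, hp, hq]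
  | mul_X p j hp =>
    simp only [map_mul, Derivation.leibniz, MvPolynomial.aeval_X, hp, h, smul_eq_mul, map_add,
      MvPolynomial.pderiv_X, Pi.single_apply]
    by_cases e : i = j
    · simp [e]
    · simp [e, Ne.symm e]

/-- Leibniz formula `Matrix.det_apply`, `Valuation.map_sum_le`. -/
theorem val_jac_le (d : Fin n → Derivation ℂ K K) (f : Fin n → K) (v : Valuation K ℤᵐ⁰)
    (c : Fin n → ℤᵐ⁰) (h : ∀ i j, v (d i (f j)) ≤ c i) : v (jac d f) ≤ ∏ i, c i := by
  classical
  rw [jac, Matrix.det_apply]
  refine v.map_sum_le fun σ _ => ?_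
  have h1 : v (∏ j, (Matrix.of fun i j => d i (f j)) (σ j) j) ≤ ∏ i, c i := by
    rw [map_prod, ← Equiv.prod_comp σ c]
    exact Finset.prod_le_prod' fun j _ => h _ _
  rcases Int.units_eq_one_or (Equiv.Perm.sign σ) with e | e <;> rw [e]
  · rwa [one_smul]
  · rwa [Units.neg_smul, one_smul, Valuation.map_neg]

/-- The blow-up chart `t 0 = y 0`, `t i = y i / y 0`: column operations
(`y i = y 0 * t i`, so column `i` of `y` is `y 0 •` column `i` of `t` plus `t i •` column `0`). -/
theorem jac_chart {k : ℕ} (D : Fin (k + 1) → Derivation ℂ K K) (y : Fin (k + 1) → K)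
    (h : y 0 ≠ 0) :
    jac D y = jac D (Fin.cons (y 0) fun i : Fin k => y i.succ / y 0) * y 0 ^ k := by
  classical
  set E : Matrix (Fin (k + 1)) (Fin (k + 1)) K := Matrix.of fun l j =>
    Fin.cases (Fin.cases 1 (fun i => y i.succ / y 0) j)
      (fun l' => Fin.cases 0 (fun i => if l' = i then y 0 else 0) j) l with hE
  have h1 : E.det = y 0 ^ k := by
    have e : E.submatrix (Fin.succAbove 0) Fin.succ = Matrix.diagonal fun _ => y 0 := by
      ext a b
      simp [hE, Matrix.diagonal_apply]
    rw [Matrix.det_succ_column_zero, Fin.sum_univ_succ, e, Matrix.det_diagonal]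
    simp [hE]
  rw [jac, jac, ← h1, ← Matrix.det_mul]
  congr 1
  ext a j
  rw [Matrix.mul_apply, Fin.sum_univ_succ]
  induction j using Fin.cases with
  | zero => simp [hE]
  | succ i =>
    have e : y i.succ = y 0 * (y i.succ / y 0) := by field_simp
    have e2 : D a (y i.succ) = y 0 * D a (y i.succ / y 0) + y i.succ / y 0 * D a (y 0) := by
      conv_lhs => rw [e]
      rw [Derivation.leibniz, smul_eq_mul, smul_eq_mul]
    simp only [hE, Matrix.of_apply, Fin.cons_zero, Fin.cons_succ, Fin.cases_zero, Fin.cases_succ,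
      mul_ite, mul_zero, Finset.sum_ite_eq', Finset.mem_univ, if_true, e2]
    ring

end Vale.Agent.P282
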