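import Vale.Agent.P282.Defs

/-! Logarithmic derivations preserve tamely ramified valuation rings. -/

open scoped ENNReal WithZero
open WithZero Filter

noncomputable section

namespace Vale.Agent.P282

set_option linter.unusedSectionVars false

variable {K : Type} [Field K] [Algebra ℂ K] {n : ℕ}

theorem b_lt {x : ℤᵐ⁰} (h : x < 1) : x ≤ exp (-1) := by
  rcases eq_or_ne x 0 with rfl | h0
  · exact zero_le
  · have := (log_lt_iff_lt_exp h0 (a := 0)).2 h
    exact le_exp_of_log_le (by omega)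

theorem b_nat {v : Valuation K ℤᵐ⁰} (hv : IsNormalized v) {d : ℕ} (hd : d ≠ 0) : v (d : K) = 1 := by
  rw [← map_natCast (algebraMap ℂ K)]
  exact hv.1 _ (Nat.cast_ne_zero.2 hd)

theorem b_mul {v : Valuation K ℤᵐ⁰} {x y : K} {γ : ℤᵐ⁰} (hx : v x ≤ 1) (hy : v y ≤ γ) :
    v (x * y) ≤ γ := by
  rw [map_mul]
  exact (mul_le_mul' hx hy).trans_eq (one_mul γ)

section
variable {V : Type} [CommRing V] [Algebra V K] {v : Valuation K ℤᵐ⁰} {θ : Derivation ℂ K K}
  {γ : ℤᵐ⁰}

theorem b_int (hV : Over V v) {a : K} (ha : IsIntegral V a) : v a ≤ 1 :=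
  (Valuation.integer.integers v).mem_of_integral
    (ha.map_of_comp_eq ((algebraMap V K).codRestrict v.integer hV) (RingHom.id K) rfl)

theorem b_aeval (hV : Over V v) {a : K} (ha : v a ≤ 1) (p : Polynomial V) :
    v (Polynomial.aeval a p) ≤ 1 := by
  induction p using Polynomial.induction_on' with
  | add p q hp hq => rw [map_add]; exact v.map_add_le hp hq
  | monomial m c =>
    rw [Polynomial.aeval_monomial]
    exact b_mul (hV c) (by rw [map_pow]; exact pow_le_one' ha m)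

theorem b_chain (hθ : ∀ a : V, v (θ (algebraMap V K a)) ≤ γ) {a : K} (ha : v a ≤ 1)
    (p : Polynomial V) :
    v (θ (Polynomial.aeval a p) - Polynomial.aeval a (Polynomial.derivative p) * θ a) ≤ γ := by
  induction p using Polynomial.induction_on' with
  | add p q hp hq =>
    rw [map_add, map_add, map_add, map_add, add_mul, add_sub_add_comm]
    exact v.map_add_le hp hq
  | monomial m c =>
    have e : θ (Polynomial.aeval a (Polynomial.monomial m c)) - Polynomial.aeval a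
        (Polynomial.derivative (Polynomial.monomial m c)) * θ a = a ^ m * θ (algebraMap V K c) := by
      rw [Polynomial.derivative_monomial, Polynomial.aeval_monomial, Polynomial.aeval_monomial,
        θ.leibniz, θ.leibniz_pow, map_mul, map_natCast]
      simp only [smul_eq_mul, nsmul_eq_mul]
      ring
    rw [e]
    exact b_mul (by rw [map_pow]; exact pow_le_one' ha m) (hθ c)

theorem b_quot (hloc : ∀ x : K, v x ≤ 1 →
      ∃ a b : K, IsIntegral V a ∧ IsIntegral V b ∧ v b = 1 ∧ x * b = a)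
    (h : ∀ a : K, IsIntegral V a → v (θ a) ≤ γ) (x : K) (hx : v x ≤ 1) : v (θ x) ≤ γ := by
  obtain ⟨a, b, ha, hb, h1, e⟩ := hloc x hx
  have e2 : b * θ x = θ a - x * θ b := by
    rw [← e, θ.leibniz, smul_eq_mul, smul_eq_mul]
    ring
  have h2 := v.map_sub_le (h a ha) (b_mul hx (h b hb))
  rwa [← e2, map_mul, h1, one_mul] at h2

theorem b_ideal (hv : IsNormalized v) {π : K} (hπ0 : π ≠ 0) (hπ : v π < 1) (hθπ : v (θ π) ≤ v π)
    (h1 : 1 ≤ γ) (h : ∀ x : K, v x ≤ 1 → v (θ x) ≤ γ) (z : K) (hz : v z < 1) :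
    v (θ z) ≤ exp (-1) * γ := by
  obtain ⟨u, hu⟩ := hv.2
  have u0 : v u ≠ 0 := hu ▸ exp_ne_zero
  have u1 : u ≠ 0 := fun e => u0 (by rw [e, map_zero])
  have p0 : v π ≠ 0 := (Valuation.ne_zero_iff v).2 hπ0
  have p1 := (log_lt_iff_lt_exp p0 (a := 0)).2 hπ
  obtain ⟨k, hk⟩ : ∃ k : ℕ, log (v π) = (k + 1) • (-1 : ℤ) :=
    ⟨(-log (v π) - 1).toNat, by rw [nsmul_eq_mul]; push_cast; omega⟩
  have p2 : v π = v u ^ (k + 1) := by rw [hu, ← exp_nsmul, ← hk, exp_log p0]
  obtain ⟨c, hc⟩ : ∃ c, π = u ^ (k + 1) * c := ⟨_, (mul_div_cancel₀ π (pow_ne_zero _ u1)).symm⟩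
  have c1 : v c = 1 := by
    rw [hc, map_mul, map_pow] at p2
    exact mul_left_cancel₀ (pow_ne_zero _ u0) (p2.trans (mul_one _).symm)
  have e : u ^ k * (c * ((k + 1 : ℕ) * θ u)) = θ π - u ^ (k + 1) * θ c := by
    rw [hc, θ.leibniz, θ.leibniz_pow, Nat.add_sub_cancel]
    simp only [smul_eq_mul, nsmul_eq_mul]
    ring
  have h2 : v (θ π - u ^ (k + 1) * θ c) ≤ v u ^ k * (v u * γ) := by
    rw [← mul_assoc, ← pow_succ]
    refine v.map_sub_le (hθπ.trans (p2.trans_le (le_mul_of_one_le_right' h1))) ?_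
    rw [map_mul, map_pow]
    exact mul_le_mul_right (h c c1.le) _
  rw [← e, map_mul, map_mul, map_mul, c1, b_nat hv k.succ_ne_zero, one_mul, one_mul, map_pow] at h2
  have h3 : v (θ u) ≤ v u * γ := le_of_mul_le_mul_left h2 (pow_pos (zero_lt_iff.2 u0) k)
  obtain ⟨y, rfl⟩ : ∃ y, z = u * y := ⟨_, (mul_div_cancel₀ z u1).symm⟩
  have y1 : v y ≤ 1 := by
    have := b_lt hz
    rw [map_mul, ← hu] at this
    exact le_of_mul_le_mul_left (this.trans_eq (mul_one _).symm) (zero_lt_iff.2 u0)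
  rw [θ.leibniz, smul_eq_mul, smul_eq_mul, ← hu]
  refine v.map_add_le ?_ (b_mul y1 h3)
  rw [map_mul]
  exact mul_le_mul_right (h y y1) _

theorem b_bdd (hV : Over V v) (hθ : ∀ a : V, v (θ (algebraMap V K a)) ≤ 1) (s : Finset K) :
    ∃ M : ℕ, ∀ a ∈ Submodule.span V (s : Set K), v a ≤ exp (M : ℤ) ∧ v (θ a) ≤ exp (M : ℤ) := by
  obtain ⟨g, hg⟩ := (s.finite_toSet.image fun y => max (v y) (v (θ y))).bddAbove
  have h1 : g ≤ exp ((log g).toNat : ℤ) := le_exp_of_log_le (Int.self_le_toNat _)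
  refine ⟨(log g).toNat, fun a ha => ?_⟩
  induction ha using Submodule.span_induction with
  | mem y hy => exact max_le_iff.1 ((hg ⟨y, hy, rfl⟩).trans h1)
  | zero => simp
  | add x y _ _ hx hy => exact ⟨v.map_add_le hx.1 hy.1, by
      rw [map_add]; exact v.map_add_le hx.2 hy.2⟩
  | smul c x _ hx =>
    rw [Algebra.smul_def, θ.leibniz, smul_eq_mul, smul_eq_mul, mul_comm x]
    exact ⟨b_mul (hV c) hx.1, v.map_add_le (b_mul (hV c) hx.2) (b_mul (hθ c) hx.1)⟩

end

/-- Take a monic `h` over `V` of least degree with `v (aeval a h) < 1` (one exists, `a` is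
integral); its degree `d` is positive and `C d⁻¹ * derivative h` is monic of degree `d - 1`. -/
theorem exists_sep {V : Type} [CommRing V] [Algebra ℂ V] [Algebra V K] [IsScalarTower ℂ V K]
    (v : Valuation K ℤᵐ⁰) (hv : IsNormalized v) (hV : Over V v) (a : K) (ha : IsIntegral V a) :
    ∃ h : Polynomial V, v (Polynomial.aeval a h) < 1 ∧
      v (Polynomial.aeval a (Polynomial.derivative h)) = 1 := by
  classical
  have : Nontrivial V := (algebraMap V K).domain_nontrivial
  have ex : ∃ d, ∃ h : Polynomial V, h.Monic ∧ h.natDegree = d ∧ v (Polynomial.aeval a h) < 1 := by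
    obtain ⟨p, hp, e⟩ := ha
    exact ⟨_, p, hp, rfl, by rw [Polynomial.aeval_def, e, map_zero]; exact zero_lt_one⟩
  obtain ⟨h, hm, hd, hl⟩ := Nat.find_spec ex
  refine ⟨h, hl, (b_aeval hV (b_int hV ha) _).eq_of_not_lt fun k => ?_⟩
  have d0 : h.natDegree ≠ 0 := fun e => by
    rw [hm.natDegree_eq_zero.1 e, map_one, map_one] at hl
    exact lt_irrefl _ hl
  obtain ⟨d, hd'⟩ := Nat.exists_eq_succ_of_ne_zero d0
  have n0 : ((d : ℂ) + 1) ≠ 0 := Nat.cast_add_one_ne_zero d
  have le : (Polynomial.C (algebraMap ℂ V ((d : ℂ) + 1)⁻¹) * Polynomial.derivative h).natDegree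
      ≤ d := (Polynomial.natDegree_C_mul_le _ _).trans
        ((Polynomial.natDegree_derivative_le h).trans (by omega))
  have m : (Polynomial.C (algebraMap ℂ V ((d : ℂ) + 1)⁻¹) * Polynomial.derivative h).Monic := by
    refine Polynomial.monic_of_natDegree_le_of_coeff_eq_one d le ?_
    have c1 : h.coeff (d + 1) = 1 := by
      rw [← Nat.succ_eq_add_one, ← hd']
      exact hm.coeff_natDegree
    rw [Polynomial.coeff_C_mul, Polynomial.coeff_derivative, c1, one_mul,
      ← map_natCast (algebraMap ℂ V), ← map_one (algebraMap ℂ V), ← map_add, ← map_mul,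
      inv_mul_cancel₀ n0]
  have h2 := Nat.find_min' ex ⟨_, m, rfl, by
    rw [map_mul, Polynomial.aeval_C, map_mul, ← IsScalarTower.algebraMap_apply,
      hv.1 _ (inv_ne_zero n0), one_mul]
    exact k⟩
  omega

/-- Let `exp M` bound `v (θ x)` on the valuation ring (it is bounded: `hfin`, `hloc` and the
quotient rule), with `M ≥ 0` least. Write `π = u ^ e * c` with `v u = exp (-1)`, `v c = 1`,
`e > 0`. From `θ π / π = e * θ u / u + θ c / c` get `v (θ u) ≤ exp (M - 1)`, hence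
`v (θ z) ≤ exp (M - 1)` whenever `v z < 1` (`z = u * z'`). For `a` integral use `exists_sep`:
`θ (aeval a h) = (sum of θ (coeff) * a ^ i) + aeval a h' * θ a`, so
`v (θ a) ≤ max 1 (exp (M - 1))`; the quotient rule gives the same bound on the valuation ring,
so `M = 0`. The second part repeats the last two steps with `M = 0` and strict bounds. -/
theorem log_der {V : Type} [CommRing V] [Algebra ℂ V] [Algebra V K] [IsScalarTower ℂ V K]
    (v : Valuation K ℤᵐ⁰) (hv : IsNormalized v) (hV : Over V v)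
    (hloc : ∀ x : K, v x ≤ 1 → ∃ a b : K, IsIntegral V a ∧ IsIntegral V b ∧ v b = 1 ∧ x * b = a)
    (hfin : ∃ s : Finset K, ∀ a : K, IsIntegral V a → a ∈ Submodule.span V (s : Set K))
    (θ : Derivation ℂ K K) (hθ : ∀ a : V, v (θ (algebraMap V K a)) ≤ 1)
    (π : K) (hπ0 : π ≠ 0) (hπ : v π < 1) (hθπ : v (θ π) ≤ v π) :
    (∀ x : K, v x ≤ 1 → v (θ x) ≤ 1) ∧
      ((∀ a : V, v (θ (algebraMap V K a)) < 1) → ∀ x : K, v x ≤ 1 → v (θ x) < 1) := by
  have step : ∀ γ : ℤᵐ⁰, (∀ a : V, v (θ (algebraMap V K a)) ≤ γ) →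
      (∀ z : K, v z < 1 → v (θ z) ≤ γ) → ∀ x : K, v x ≤ 1 → v (θ x) ≤ γ := fun γ h1 h2 =>
    b_quot hloc fun a ha => by
      obtain ⟨h, k1, k2⟩ := exists_sep v hv hV a ha
      have k3 := v.map_sub_le (h2 _ k1) (b_chain h1 (b_int hV ha) h)
      rwa [sub_sub_cancel, map_mul, k2, one_mul] at k3
  have one : ∀ M : ℕ, (1 : ℤᵐ⁰) ≤ exp (M : ℤ) := fun M => by
    rw [← exp_zero, exp_le_exp]
    omega
  have desc : ∀ M : ℕ, (∀ x : K, v x ≤ 1 → v (θ x) ≤ exp (M : ℤ)) →
      ∀ x : K, v x ≤ 1 → v (θ x) ≤ 1 := fun M => by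
    induction M with
    | zero => exact id
    | succ M ih =>
      refine fun h => ih (step _ (fun a => (hθ a).trans (one M)) fun z hz => ?_)
      refine (b_ideal hv hπ0 hπ hθπ (one _) h z hz).trans_eq ?_
      rw [← exp_add]
      congr 1
      push_cast
      ring
  obtain ⟨s, hs⟩ := hfin
  obtain ⟨M, hM⟩ := b_bdd hV hθ s
  have h1 := desc M (b_quot hloc fun a ha => (hM a (hs a ha)).2)
  refine ⟨h1, fun h x hx => (step (exp (-1)) (fun a => b_lt (h a)) (fun z hz => ?_) x hx).trans_lt ?_⟩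
  · exact (b_ideal hv hπ0 hπ hθπ le_rfl h1 z hz).trans_eq (mul_one _)
  · rw [← exp_zero, exp_lt_exp]
    omega

end Vale.Agent.P282
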