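import Vale.Agent.P282.Defs

/-! The trace form modulo a prime. -/

open scoped ENNReal WithZero
open WithZero Filter

noncomputable section

namespace Vale.Agent.P282

set_option linter.unusedSectionVars false

variable {K : Type} [Field K] [Algebra ℂ K] {n : ℕ}

/-- In a finite commutative algebra over a field of characteristic zero the kernel of the trace
form is nilpotent: `span {a ^ N}` stabilises (Artinian), so `a ^ N = a ^ (2 N) * b` and
`ε = a ^ N * b` is idempotent with `a ^ N * ε = a ^ N`; the trace of multiplication by `ε` is the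
dimension of its range (`LinearMap.IsProj.trace`), so `ε = 0`. -/
theorem nil_of_trace {F B : Type} [Field F] [CharZero F] [CommRing B] [Algebra F B]
    [Module.Finite F B] (a : B) (h : ∀ t, Algebra.trace F B (a * t) = 0) : IsNilpotent a := by
  have : IsArtinianRing B := IsArtinianRing.of_finite F B
  obtain ⟨m, y, hy⟩ := IsArtinian.exists_pow_succ_smul_dvd a (1 : B)
  simp only [smul_eq_mul, mul_one, Nat.succ_eq_add_one] at hy
  have h1 : ∀ k, a ^ (m + k) * y ^ k = a ^ m := by
    intro k
    induction k with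
    | zero => simp
    | succ k ih =>
      calc a ^ (m + (k + 1)) * y ^ (k + 1) = (a ^ (m + 1) * y) * (a ^ k * y ^ k) := by ring
        _ = a ^ (m + k) * y ^ k := by rw [hy]; ring
        _ = a ^ m := ih
  have h2 : IsIdempotentElem (a ^ (m + 1) * y ^ (m + 1)) := by
    unfold IsIdempotentElem
    calc a ^ (m + 1) * y ^ (m + 1) * (a ^ (m + 1) * y ^ (m + 1))
        = (a ^ (m + (m + 1)) * y ^ (m + 1)) * (a * y ^ (m + 1)) := by ring
      _ = a ^ (m + 1) * y ^ (m + 1) := by rw [h1]; ring
  have h3 : Algebra.lmul F B (a ^ (m + 1) * y ^ (m + 1)) = 0 := by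
    refine LinearMap.IsIdempotentElem.eq_zero_of_trace_eq_zero (h2.map (Algebra.lmul F B)) ?_
    have h4 := h (a ^ m * y ^ (m + 1))
    rw [← mul_assoc, ← pow_succ'] at h4
    exact h4
  have h4 : a ^ (m + 1) * y ^ (m + 1) = 0 := by
    simpa using LinearMap.congr_fun h3 1
  refine ⟨m, ?_⟩
  rw [← h1 (m + 1), pow_add, mul_assoc, h4, mul_zero]

open TensorProduct in
theorem c_bc {S R : Type} (F : Type) [CommRing S] [CommRing R] [Algebra S R] [CommRing F]
    [Algebra S F] [Module.Free S R] [Module.Finite S R] (a : R) :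
    Algebra.trace F (F ⊗[S] R) (1 ⊗ₜ a) = algebraMap S F (Algebra.trace S R a) := by
  rw [Algebra.trace_apply, Algebra.trace_apply, ← LinearMap.trace_baseChange]
  congr 1
  ext x
  simp

/-- Base change to `F = q.ResidueField`, `q = p.comap _`, `B = F ⊗[S] R`
(`LinearMap.trace_baseChange` or `Algebra.trace_eq_matrix_trace` with the base changed basis);
`1 ⊗ a` is nilpotent, and `B` maps to the field `p.ResidueField`. -/
theorem mem_of_trace {S R : Type} [CommRing S] [Algebra ℂ S] [CommRing R] [Algebra S R]
    [Module.Free S R] [Module.Finite S R] (p : Ideal R) [p.IsPrime] (a : R)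
    (h : ∀ t, Algebra.trace S R (a * t) ∈ p.comap (algebraMap S R)) : a ∈ p := by
  let F := p.ResidueField
  have : CharZero F := ((algebraMap S F).comp (algebraMap ℂ S)).charZero_iff
    (RingHom.injective _) |>.1 inferInstance
  have h1 : IsNilpotent ((1 : F) ⊗ₜ[S] a) := by
    refine nil_of_trace (F := F) _ fun t => ?_
    induction t using TensorProduct.induction_on with
    | zero => simp
    | add x y hx hy => rw [mul_add, map_add, hx, hy, add_zero]
    | tmul f t =>
      have e : ((1 : F) ⊗ₜ[S] a) * (f ⊗ₜ[S] t) = f • ((1 : F) ⊗ₜ[S] (a * t)) := by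
        simp [TensorProduct.smul_tmul']
      rw [e, map_smul, c_bc, IsScalarTower.algebraMap_apply S R F,
        (Ideal.algebraMap_residueField_eq_zero (I := p)).2 (Ideal.mem_comap.1 (h t)), smul_zero]
  have h2 := h1.map (Algebra.TensorProduct.lift (AlgHom.id F F) (IsScalarTower.toAlgHom S R F)
    fun _ _ => Commute.all _ _)
  simp only [Algebra.TensorProduct.lift_tmul, map_one, one_mul, IsScalarTower.coe_toAlgHom'] at h2
  exact Ideal.algebraMap_residueField_eq_zero.1 h2.eq_zero

/-- The matrix of multiplication by `a` is nilpotent modulo `q`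
(`Matrix.isNilpotent_trace_of_isNilpotent`). -/
theorem trace_mem {S R : Type} [CommRing S] [CommRing R] [Algebra S R]
    [Module.Free S R] [Module.Finite S R] (q : Ideal S) [q.IsPrime] (a : R) (k : ℕ)
    (h : a ^ k ∈ q.map (algebraMap S R)) : Algebra.trace S R a ∈ q := by
  have h1 : q.map (algebraMap S R) ≤
      RingHom.ker (Algebra.TensorProduct.includeRight (R := S) (A := S ⧸ q) (B := R)) := by
    rw [Ideal.map_le_iff_le_comap]
    intro s hs
    rw [Ideal.mem_comap, RingHom.mem_ker, AlgHom.commutes,
      Algebra.TensorProduct.algebraMap_apply, Ideal.Quotient.algebraMap_eq,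
      Ideal.Quotient.eq_zero_iff_mem.2 hs, TensorProduct.zero_tmul]
  have h2 : IsNilpotent ((1 : S ⧸ q) ⊗ₜ[S] a) := by
    refine ⟨k, ?_⟩
    have h3 := RingHom.mem_ker.1 (h1 h)
    rw [map_pow] at h3
    exact h3
  have h3 := (Algebra.isNilpotent_trace_of_isNilpotent (R := S ⧸ q) h2).eq_zero
  rw [c_bc] at h3
  exact Ideal.Quotient.eq_zero_iff_mem.1 h3

end Vale.Agent.P282
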