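import Vale.Agent.P282.Defs

/-! A normal noetherian domain is the intersection of its prime divisors. -/

open scoped ENNReal WithZero
open WithZero Filter

noncomputable section

namespace Vale.Agent.P282

set_option linter.unusedSectionVars false

variable {K : Type} [Field K] [Algebra ℂ K] {n : ℕ}

theorem d_unit {O : Type} [CommRing O] [Algebra O K] {v : Valuation K ℤᵐ⁰} (h : Over O v) {a : O}
    (ha : IsUnit a) : v (algebraMap O K a) = 1 := by
  obtain ⟨b, hb⟩ := ha.exists_right_inv
  refine eq_one_of_one_le_mul_left (h a) (h b) ?_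
  rw [← map_mul, ← map_mul, hb, map_one, map_one]

/-- The adic valuation of a height one prime of a Dedekind domain containing the constants
(`valuation_exists_uniformizer`, `valuation_le_one`, `exists_primeCompl_mul_eq_of_integer`;
nonzero constants are units). -/
theorem primeDiv_adic (W : Type) [CommRing W] [IsDedekindDomain W] [Algebra ℂ W] [Algebra W K]
    [IsScalarTower ℂ W K] [IsFractionRing W K] (P : IsDedekindDomain.HeightOneSpectrum W) :
    PrimeDiv W (P.valuation K) := by
  have ho : Over W (P.valuation K) := fun a => P.valuation_le_one a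
  refine ⟨⟨fun c hc => ?_, P.valuation_exists_uniformizer K⟩, ho, fun x hx => ?_⟩
  · rw [IsScalarTower.algebraMap_apply ℂ W K]
    exact d_unit ho ((Ne.isUnit hc).map _)
  · obtain ⟨a, b, h⟩ := P.exists_primeCompl_mul_eq_of_integer x hx
    exact ⟨a, b, P.valuation_eq_one_iff_notMem.2 b.2, h⟩

/-- A prime divisor of a localization is a prime divisor of the ring. -/
theorem PrimeDiv.of_loc {R : Type} (O : Type) [CommRing R] [CommRing O] (M : Submonoid R)
    [Algebra R O] [IsLocalization M O] [Algebra R K] [Algebra O K] [IsScalarTower R O K]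
    {v : Valuation K ℤᵐ⁰} (h : PrimeDiv O v) : PrimeDiv R v := by
  have e := IsScalarTower.algebraMap_apply R O K
  refine ⟨h.1, fun a => e a ▸ h.2.1 _, fun x hx => ?_⟩
  obtain ⟨a, b, h1, h2⟩ := h.2.2 x hx
  obtain ⟨⟨a', s⟩, ha⟩ := IsLocalization.surj M a
  obtain ⟨⟨b', t⟩, hb⟩ := IsLocalization.surj M b
  refine ⟨a' * t, b' * s, ?_, ?_⟩
  · rw [e, map_mul, ← hb, map_mul, map_mul, map_mul, map_mul, h1,
      d_unit h.2.1 (IsLocalization.map_units O s), d_unit h.2.1 (IsLocalization.map_units O t),
      one_mul, one_mul]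
  · simp only [e, map_mul, ← ha, ← hb, ← h2]
    ring

theorem d_loc {O : Type} [CommRing O] [IsDomain O] [IsNoetherianRing O] [Algebra O K]
    [IsFractionRing O K] (p : Ideal O) [p.IsPrime] (W : Type) [CommRing W] [IsDomain W]
    [Algebra O W] [IsLocalization.AtPrime W p] [Algebra W K] [IsScalarTower O W K] [Algebra ℂ W]
    [IsScalarTower ℂ W K] {u s : O} (hu : u ∈ p) (h0 : u ≠ 0) (hs : s ∉ p)
    (h : ∀ w ∈ p, ∃ s', w * s = u * s') :
    ∃ v, PrimeDiv O v ∧ v (algebraMap O K u) < 1 ∧ v (algebraMap O K s) = 1 := by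
  have := IsLocalization.AtPrime.isLocalRing W p
  have := IsLocalization.isNoetherianRing p.primeCompl W inferInstance
  have := IsFractionRing.isFractionRing_of_isDomain_of_isLocalization p.primeCompl W K
  have e := IsScalarTower.algebraMap_apply O W K
  have us := IsLocalization.map_units W (⟨s, hs⟩ : p.primeCompl)
  have hu' := (IsLocalization.AtPrime.to_map_mem_maximal_iff W p u).2 hu
  have hp : (IsLocalRing.maximalIdeal W).IsPrincipal := by
    refine ⟨algebraMap O W u, le_antisymm ?_ ((Ideal.span_singleton_le_iff_mem _).2 hu')⟩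
    rw [← IsLocalization.AtPrime.map_eq_maximalIdeal p W, Ideal.map_le_iff_le_comap]
    intro w hw
    obtain ⟨s', h1⟩ := h w hw
    refine Ideal.mem_comap.2 ((Ideal.mul_unit_mem_iff_mem _ us).1 ?_)
    rw [← map_mul, h1, map_mul]
    exact Ideal.mul_mem_right _ _ (Ideal.mem_span_singleton_self _)
  have : IsDedekindDomain W :=
    ((tfae_of_isNoetherianRing_of_isLocalRing_of_isDomain W).out 4 2).1 hp
  have hb : IsLocalRing.maximalIdeal W ≠ ⊥ := fun hb => by
    rw [hb, Ideal.mem_bot] at hu'
    exact h0 (IsFractionRing.injective O K (by rw [e, hu', map_zero, map_zero]))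
  have h1 := primeDiv_adic (K := K) W ⟨_, inferInstance, hb⟩
  refine ⟨_, h1.of_loc W p.primeCompl, ?_, ?_⟩
  · rw [e]
    exact (IsDedekindDomain.HeightOneSpectrum.valuation_lt_one_iff_mem _ _).2 hu'
  · rw [e]
    exact d_unit h1.2.1 us

/-- Among the proper ideals `I y = {r | r * y ∈ O}`, `y = c * x ∉ O`, take a maximal one `p`; it
is prime. If `y * p ⊆ p` then `y` is integral (`isIntegral_of_smul_mem_submodule`), impossible. So
`y * u = s ∉ p` for some `u ∈ p`, and `p` becomes principal, generated by `u`, in the localization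
at `p` (use `Localization.subalgebra.ofField K p.primeCompl _` or `Localization.AtPrime p`), which
is then a discrete valuation ring (`IsDiscreteValuationRing.TFAE`); apply `primeDiv_adic` to its
maximal ideal, and `v y = v s / v u > 1`, `v y ≤ v x`. -/
theorem exists_primeDiv (O : Type) [CommRing O] [IsDomain O] [IsNoetherianRing O]
    [IsIntegrallyClosed O] [Algebra ℂ O] [Algebra O K] [IsScalarTower ℂ O K] [IsFractionRing O K]
    (x : K) (hx : x ∉ (algebraMap O K).range) : ∃ v, PrimeDiv O v ∧ 1 < v x := by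
  let I : K → Ideal O := fun y => (1 : Submodule O K).comap (LinearMap.toSpanSingleton O K y)
  have hI : ∀ y r, r ∈ I y ↔ ∃ s, algebraMap O K s = algebraMap O K r * y := fun y r => by
    simp only [I, Submodule.mem_comap, LinearMap.toSpanSingleton_apply, Submodule.mem_one,
      Algebra.smul_def]
  obtain ⟨_, ⟨c, hc, rfl⟩, hm⟩ := set_has_maximal_iff_noetherian.2 (inferInstance : IsNoetherian O O)
    {J | ∃ c : O, c ∉ I x ∧ J = I (algebraMap O K c * x)}
    ⟨_, 1, fun h => hx (by simpa [hI] using h), rfl⟩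
  have h1 : (1 : O) ∉ I (algebraMap O K c * x) := by simpa [hI] using hc
  have hp : (I (algebraMap O K c * x)).IsPrime := by
    refine ⟨(Ideal.ne_top_iff_one _).2 h1, fun {a b} hab => or_iff_not_imp_right.2 fun hb => ?_⟩
    have le : I (algebraMap O K c * x) ≤ I (algebraMap O K (b * c) * x) := fun r hr => by
      have := Ideal.mul_mem_right b _ hr
      simpa only [hI, map_mul, mul_assoc] using this
    rw [le.eq_of_not_lt (hm _ ⟨b * c, by simpa only [hI, map_mul, mul_assoc] using hb, rfl⟩)]
    simpa only [hI, map_mul, mul_assoc] using hab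
  generalize hy : algebraMap O K c * x = y at h1 hp
  have inj := IsFractionRing.injective O K
  obtain ⟨u, hu, s, hs, hs'⟩ : ∃ u ∈ I y, ∃ s, algebraMap O K s = algebraMap O K u * y ∧
      s ∉ I y := by
    by_contra hn
    push Not at hn
    obtain ⟨⟨a, b⟩, hab⟩ := IsLocalization.surj (nonZeroDivisors O) y
    have hb : (b : O) ∈ I y := (hI _ _).2 ⟨a, by rw [← hab, mul_comm]⟩
    have hi := isIntegral_of_smul_mem_submodule (Submodule.map (Algebra.linearMap O K) (I y))
      ((Submodule.ne_bot_iff _).2 ⟨_, Submodule.mem_map_of_mem hb,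
        IsFractionRing.to_map_ne_zero_of_mem_nonZeroDivisors b.2⟩)
      ((IsNoetherian.noetherian _).map _) y (by
        rintro _ ⟨r, hr, rfl⟩
        obtain ⟨s, hs⟩ := (hI _ _).1 hr
        exact ⟨s, hn r hr s hs, hs.trans (mul_comm _ _)⟩)
    obtain ⟨z, hz⟩ := IsIntegrallyClosed.isIntegral_iff.1 hi
    exact h1 ((hI _ _).2 ⟨z, by rw [hz, map_one, one_mul]⟩)
  have h0 : u ≠ 0 := fun h => hs' (by
    rw [inj (hs.trans (by rw [h, map_zero, zero_mul]) : _ = algebraMap O K 0)]
    exact zero_mem _)
  obtain ⟨v, v1, v2, v3⟩ := d_loc (K := K) (I y)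
    (Localization.subalgebra.ofField K (I y).primeCompl (I y).primeCompl_le_nonZeroDivisors)
    hu h0 hs' fun w hw => by
      obtain ⟨s', h⟩ := (hI _ _).1 hw
      exact ⟨s', inj (by rw [map_mul, map_mul, hs, h, mul_left_comm])⟩
  refine ⟨v, v1, lt_of_not_ge fun h => ?_⟩
  rw [hs, ← hy, map_mul, map_mul] at v3
  exact (mul_lt_one_of_lt_of_le v2 (mul_le_one' (v1.2.1 c) h)).ne v3

end Vale.Agent.P282
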