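import Vale.Agent.P282.Defs

/-! Traces in the fraction field. -/

open scoped ENNReal WithZero
open WithZero Filter

noncomputable section

namespace Vale.Agent.P282

set_option linter.unusedSectionVars false

variable {K : Type} [Field K] [Algebra ℂ K] {n : ℕ}

variable {S R : Type} (L : Type) [CommRing S] [IsDomain S] [CommRing R] [IsDomain R] [Algebra S R]
  [Module.Free S R] [Module.Finite S R] [Algebra R K] [IsFractionRing R K] [Field L] [Algebra S L]
  [IsFractionRing S L] [Algebra L K] [Algebra S K] [IsScalarTower S L K] [IsScalarTower S R K]

/-- `R` is integral over `S` and `S → R` is injective (free and nontrivial); every nonzero element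
of `R` divides a nonzero element of `S`. -/
theorem isLoc : IsLocalization (Algebra.algebraMapSubmonoid R (nonZeroDivisors S)) K :=
  inferInstance

include S R in
/-- `Module.Basis.localizationLocalization`. -/
theorem findim : FiniteDimensional L K := by
  have := isLoc (K := K) (S := S) (R := R)
  exact ((Module.Free.chooseBasis S R).localizationLocalization L (nonZeroDivisors S)
    K).finiteDimensional_of_finite

/-- `Algebra.trace_localization`. -/
theorem trace_alg (a : R) :
    Algebra.trace L K (algebraMap R K a) = algebraMap S L (Algebra.trace S R a) := by
  have := isLoc (K := K) (S := S) (R := R)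
  exact Algebra.trace_localization S (nonZeroDivisors S) a

/-- The dual basis (`LinearMap.BilinForm.dualBasis`, `traceForm_nondegenerate`; `L` has
characteristic zero) of the localized basis. -/
theorem exists_dualz {ι : Type} [Fintype ι] (b : Module.Basis ι S R) :
    ∃ z : ι → K, ∀ i (a : R),
      Algebra.trace L K (z i * algebraMap R K a) = algebraMap S L (b.repr a i) := by
  classical
  have := isLoc (K := K) (S := S) (R := R)
  have := findim (K := K) (S := S) (R := R) L
  have : CharZero K := (RingHom.charZero_iff (algebraMap ℂ K).injective).1 inferInstance
  have : CharZero L := (RingHom.charZero_iff (algebraMap L K).injective).2 inferInstance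
  refine ⟨(b.localizationLocalization L (nonZeroDivisors S) K).traceDual, fun i a => ?_⟩
  rw [← b.localizationLocalization_repr_algebraMap L (nonZeroDivisors S) K a i, mul_comm]
  have h := (b.localizationLocalization L (nonZeroDivisors S) K).traceDual.traceDual_repr_apply
    (algebraMap R K a) i
  rw [Module.Basis.traceDual_traceDual] at h
  exact h.symm

end Vale.Agent.P282
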