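import Vale.Agent.P282.C
import Vale.Agent.P282.D
import Vale.Agent.P282.G0

/-! The extensions of a discrete valuation. -/

open scoped ENNReal WithZero
open WithZero Filter

noncomputable section

namespace Vale.Agent.P282

set_option linter.unusedSectionVars false

variable {K : Type} [Field K] [Algebra ℂ K] {n : ℕ}

/-- `W = integralClosure V K` is Dedekind (`IsIntegralClosure.isDedekindDomain`), finite
(`IsIntegralClosure.finite`) and free over `V`, with fraction field `K`; `E` is the set of the
`P.valuation K` (`primeDiv_adic`). Every nonzero prime of `W` lies over the maximal ideal, so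
there are finitely many (`Ideal.finite_factors`). If `v x < 1` for all of them, `x` comes from
`W` (`mem_integers_of_valuation_le_one`) and lies in the radical of the extended maximal ideal;
`trace_mem`, `trace_alg`. -/
theorem family_abs {V L : Type} [CommRing V] [IsDomain V] [IsDiscreteValuationRing V]
    [Algebra ℂ V] [Field L] [Algebra V L] [IsFractionRing V L] [Algebra L K] [Algebra V K]
    [IsScalarTower V L K] [IsScalarTower ℂ V K] [FiniteDimensional L K] :
    ∃ E : Set (Valuation K ℤᵐ⁰), E.Finite ∧
      (∀ v ∈ E, IsNormalized v ∧ Over V v ∧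
        (∀ a ∈ IsLocalRing.maximalIdeal V, v (algebraMap V K a) < 1) ∧
        ∀ x : K, v x ≤ 1 → ∃ a b : K, IsIntegral V a ∧ IsIntegral V b ∧ v b = 1 ∧ x * b = a) ∧
      (∃ s : Finset K, ∀ a : K, IsIntegral V a → a ∈ Submodule.span V (s : Set K)) ∧
      ∀ x : K, (∀ v ∈ E, v x < 1) →
        ∃ a ∈ IsLocalRing.maximalIdeal V, Algebra.trace L K x = algebraMap V L a := by
  have inj : Function.Injective (algebraMap V K) := by
    rw [IsScalarTower.algebraMap_eq V L K]
    exact (algebraMap L K).injective.comp (IsFractionRing.injective V L)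
  have : CharZero K := charZero_of_injective_algebraMap (algebraMap ℂ K).injective
  have : CharZero L := (algebraMap L K).charZero
  have : Module.IsTorsionFree V K := by
    rw [Module.isTorsionFree_iff_algebraMap_injective]
    exact inj
  have := IsIntegralClosure.isDedekindDomain V L K (integralClosure V K)
  have := IsIntegralClosure.finite V L K (integralClosure V K)
  have := IsIntegralClosure.module_free V L K (integralClosure V K)
  have := IsIntegralClosure.isFractionRing_of_finite_extension V L K (integralClosure V K)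
  have hm : ∀ P : IsDedekindDomain.HeightOneSpectrum (integralClosure V K),
      (IsLocalRing.maximalIdeal V).map (algebraMap V (integralClosure V K)) ≤ P.asIdeal := fun P =>
    Ideal.map_le_iff_le_comap.2 (IsLocalRing.eq_maximalIdeal
      (@Ideal.isMaximal_comap_of_isIntegral_of_isMaximal V _ _ _ _ _ _ P.isMaximal)).ge
  have h0 : (IsLocalRing.maximalIdeal V).map (algebraMap V (integralClosure V K)) ≠ ⊥ := fun h =>
    IsDiscreteValuationRing.not_a_field V ((Ideal.map_eq_bot_iff_of_injective
      fun a b e => inj (congrArg Subtype.val e)).1 h)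
  refine ⟨Set.range fun P : IsDedekindDomain.HeightOneSpectrum (integralClosure V K) =>
    P.valuation K, ?_, ?_, ?_, fun x hx => ?_⟩
  · rw [← Set.image_univ]
    exact ((Ideal.finite_factors h0).subset fun P _ => Ideal.dvd_iff_le.2 (hm P)).image _
  · rintro _ ⟨P, rfl⟩
    obtain ⟨h1, h2, h3⟩ := primeDiv_adic (K := K) (integralClosure V K) P
    refine ⟨h1, fun a => h2 (algebraMap V _ a), fun a ha => ?_, fun x hx => ?_⟩
    · exact (P.valuation_lt_one_iff_mem (K := K) (algebraMap V _ a)).2
        (hm P (Ideal.mem_map_of_mem _ ha))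
    · obtain ⟨a, b, h4, h5⟩ := h3 x hx
      exact ⟨a, b, a.2, b.2, h4, h5⟩
  · obtain ⟨s, hs⟩ := (Module.Finite.fg_top (R := V) (M := integralClosure V K)).map
      (integralClosure V K).val.toLinearMap
    exact ⟨s, fun a ha => hs ▸ ⟨⟨a, ha⟩, trivial, rfl⟩⟩
  · obtain ⟨a, rfl⟩ := IsDedekindDomain.HeightOneSpectrum.mem_integers_of_valuation_le_one
      (R := integralClosure V K) K x fun P => (hx _ ⟨P, rfl⟩).le
    obtain ⟨k, hk⟩ : a ∈ ((IsLocalRing.maximalIdeal V).map
        (algebraMap V (integralClosure V K))).radical := by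
      rw [Ideal.radical_eq_sInf]
      refine Submodule.mem_sInf.2 fun J hJ => ?_
      let P : IsDedekindDomain.HeightOneSpectrum (integralClosure V K) :=
        ⟨J, hJ.2, fun e => h0 (le_bot_iff.1 (hJ.1.trans e.le))⟩
      exact (P.valuation_lt_one_iff_mem (K := K) a).1 (hx _ ⟨P, rfl⟩)
    exact ⟨_, trace_mem _ a k hk, trace_alg L a⟩

end Vale.Agent.P282
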