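import Vale.Agent.P282.Defs

/-! The local ring of the exceptional divisor. -/

open scoped ENNReal WithZero
open WithZero Filter

noncomputable section

namespace Vale.Agent.P282

set_option linter.unusedSectionVars false

variable {K : Type} [Field K] [Algebra ℂ K] {n : ℕ}

variable {k : ℕ} {L : Type} [Field L] [Algebra ℂ L] [Algebra (MvPolynomial (Fin (k + 1)) ℂ) L]
  [IsScalarTower ℂ (MvPolynomial (Fin (k + 1)) ℂ) L]
  [IsFractionRing (MvPolynomial (Fin (k + 1)) ℂ) L]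

/-- The substitution of the chart. -/
def f2_sig (k : ℕ) : MvPolynomial (Fin (k + 1)) ℂ →ₐ[ℂ] MvPolynomial (Fin (k + 1)) ℂ :=
  MvPolynomial.aeval (Fin.cons (MvPolynomial.X 0) fun i : Fin k =>
    MvPolynomial.X 0 * MvPolynomial.X i.succ)

theorem f2_y0 (y : Fin (k + 1) → L)
    (hy : ∀ i, y i = algebraMap (MvPolynomial (Fin (k + 1)) ℂ) L (MvPolynomial.X i)) :
    y 0 ≠ 0 := by
  rw [hy 0]
  exact (map_ne_zero_iff _ (IsFractionRing.injective _ _)).2 (MvPolynomial.X_ne_zero 0)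

theorem f2_comp (y t : Fin (k + 1) → L)
    (hy : ∀ i, y i = algebraMap (MvPolynomial (Fin (k + 1)) ℂ) L (MvPolynomial.X i))
    (ht : t = Fin.cons (y 0) fun i : Fin k => y i.succ / y 0) (P : MvPolynomial (Fin (k + 1)) ℂ) :
    MvPolynomial.aeval t (f2_sig k P) = algebraMap (MvPolynomial (Fin (k + 1)) ℂ) L P := by
  have h0 := f2_y0 y hy
  have : (MvPolynomial.aeval t).comp (f2_sig k) =
      IsScalarTower.toAlgHom ℂ (MvPolynomial (Fin (k + 1)) ℂ) L := by
    refine MvPolynomial.algHom_ext fun i => ?_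
    refine Fin.cases ?_ (fun j => ?_) i
    · simp [f2_sig, ht, ← hy]
    · simp [f2_sig, ht, ← hy, mul_div_cancel₀ _ h0]
  exact DFunLike.congr_fun this P

/-- Let `σ` send `X 0` to `X 0` and `X i.succ` to `X 0 * X i.succ`. Then `aeval t ∘ σ` is the
structure map, so `σ` is injective, `algebraMap ∘ σ` lifts to `ψ : L →+* L`
(`IsFractionRing.lift`), and `ψ ∘ aeval t` is the structure map. -/
theorem chart_inj (y t : Fin (k + 1) → L)
    (hy : ∀ i, y i = algebraMap (MvPolynomial (Fin (k + 1)) ℂ) L (MvPolynomial.X i))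
    (ht : t = Fin.cons (y 0) fun i : Fin k => y i.succ / y 0) :
    Function.Injective (MvPolynomial.aeval t : MvPolynomial (Fin (k + 1)) ℂ →ₐ[ℂ] L) := by
  have h0 := f2_y0 y hy
  have hi := IsFractionRing.injective (MvPolynomial (Fin (k + 1)) ℂ) L
  have h1 : Function.Injective (f2_sig k) := fun P Q h => hi (by
    rw [← f2_comp y t hy ht, ← f2_comp y t hy ht, h])
  have h2 : Function.Injective ((algebraMap (MvPolynomial (Fin (k + 1)) ℂ) L).comp
      (f2_sig k).toRingHom) := hi.comp h1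
  set ψ : L →+* L := IsFractionRing.lift h2 with hψ
  have h3 : ∀ P, ψ (algebraMap (MvPolynomial (Fin (k + 1)) ℂ) L P) =
      algebraMap (MvPolynomial (Fin (k + 1)) ℂ) L (f2_sig k P) := fun P =>
    IsFractionRing.lift_algebraMap h2 P
  have y0 : ψ (y 0) = y 0 := by rw [hy, h3]; simp [f2_sig]
  have y1 : ∀ i : Fin k, ψ (y i.succ) = y 0 * y i.succ := fun i => by
    rw [hy, h3, hy 0]; simp [f2_sig]
  have h4 : ψ.comp (MvPolynomial.aeval t : MvPolynomial (Fin (k + 1)) ℂ →ₐ[ℂ] L).toRingHom =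
      algebraMap (MvPolynomial (Fin (k + 1)) ℂ) L := by
    refine MvPolynomial.ringHom_ext (fun c => ?_) fun i => ?_
    · have : algebraMap ℂ L c = algebraMap (MvPolynomial (Fin (k + 1)) ℂ) L (MvPolynomial.C c) :=
        IsScalarTower.algebraMap_apply ℂ (MvPolynomial (Fin (k + 1)) ℂ) L c
      simp only [AlgHom.toRingHom_eq_coe, RingHom.coe_comp, RingHom.coe_coe, Function.comp_apply,
        MvPolynomial.algHom_C]
      rw [this, h3, MvPolynomial.algHom_C]
      rfl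
    · refine Fin.cases ?_ (fun j => ?_) i
      · simp [ht, ← hy, y0]
      · simp [ht, ← hy, y0, y1, mul_div_cancel_left₀ _ h0]
  intro P Q h
  refine hi ?_
  rw [← h4]
  exact congrArg ψ h

/-- The localization at the first variable, inside `L`. -/
def f2_V (t : Fin (k + 1) → L) : Subalgebra ℂ L where
  carrier := {x | ∃ P Q : MvPolynomial (Fin (k + 1)) ℂ, ¬ MvPolynomial.X 0 ∣ Q ∧
    x * MvPolynomial.aeval t Q = MvPolynomial.aeval t P}
  mul_mem' := by
    rintro a b ⟨P, Q, h, e⟩ ⟨P', Q', h', e'⟩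
    refine ⟨P * P', Q * Q', fun k => (MvPolynomial.X_prime.dvd_or_dvd k).elim h h', ?_⟩
    rw [map_mul, map_mul, ← e, ← e']
    ring
  add_mem' := by
    rintro a b ⟨P, Q, h, e⟩ ⟨P', Q', h', e'⟩
    refine ⟨P * Q' + P' * Q, Q * Q', fun k => (MvPolynomial.X_prime.dvd_or_dvd k).elim h h', ?_⟩
    rw [map_add, map_mul, map_mul, map_mul, ← e, ← e']
    ring
  algebraMap_mem' c := ⟨MvPolynomial.C c, 1, MvPolynomial.X_prime.not_dvd_one, by simp⟩

/-- `V` is the set of `x` with `x * aeval t Q = aeval t P`, `¬ X 0 ∣ Q` (`MvPolynomial.X_prime`).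
Every nonzero element is `y 0 ^ m` times a unit (`WfDvdMonoid.max_power_factor`), use
`IsDiscreteValuationRing.ofHasUnitMulPowIrreducibleFactorization` and
`IsDiscreteValuationRing.irreducible_iff_uniformizer`. `L` is the fraction field since
`y i.succ = y 0 * t i.succ ∈ V`. For the last part, `X 0 ∣ rename Fin.succ P` forces `P = 0`
(evaluate `X 0` at `0`). -/
theorem exists_chart (y t : Fin (k + 1) → L)
    (hy : ∀ i, y i = algebraMap (MvPolynomial (Fin (k + 1)) ℂ) L (MvPolynomial.X i))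
    (ht : t = Fin.cons (y 0) fun i : Fin k => y i.succ / y 0) :
    ∃ (V : Subalgebra ℂ L) (_ : IsDiscreteValuationRing V), IsFractionRing V L ∧ (∀ i, t i ∈ V) ∧
      (∀ a : V, a ∈ IsLocalRing.maximalIdeal V ↔ ∃ b ∈ V, (a : L) = y 0 * b) ∧
      (∀ a ∈ V, ∃ P Q : MvPolynomial (Fin (k + 1)) ℂ, ∃ c ∈ V, MvPolynomial.aeval t Q * c = 1 ∧
        a = MvPolynomial.aeval t P * c) ∧
      ∀ P : MvPolynomial (Fin k) ℂ, P ≠ 0 →
        ∃ c ∈ V, MvPolynomial.aeval (fun i : Fin k => t i.succ) P * c = 1 := by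
  have h0 := f2_y0 y hy
  have hi := chart_inj y t hy ht
  have t0 : MvPolynomial.aeval t (MvPolynomial.X 0 : MvPolynomial (Fin (k + 1)) ℂ) = y 0 := by
    simp [ht]
  have hm : ∀ P : MvPolynomial (Fin (k + 1)) ℂ, MvPolynomial.aeval t P ∈ f2_V t := fun P =>
    ⟨P, 1, MvPolynomial.X_prime.not_dvd_one, by simp⟩
  have hne : ∀ Q : MvPolynomial (Fin (k + 1)) ℂ, ¬ MvPolynomial.X 0 ∣ Q →
      MvPolynomial.aeval t Q ≠ 0 := fun Q h => (map_ne_zero_iff _ hi).2 (by
    rintro rfl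
    exact h (dvd_zero _))
  have hinv : ∀ Q : MvPolynomial (Fin (k + 1)) ℂ, ¬ MvPolynomial.X 0 ∣ Q →
      (MvPolynomial.aeval t Q)⁻¹ ∈ f2_V t := fun Q h =>
    ⟨1, Q, h, by rw [inv_mul_cancel₀ (hne Q h), map_one]⟩
  set p : f2_V t := ⟨y 0, t0 ▸ hm _⟩ with hp
  have pn : ¬ IsUnit p := by
    intro hu
    obtain ⟨⟨b, P, Q, h, e⟩, hb⟩ := hu.exists_right_inv
    have hb' : y 0 * b = 1 := congrArg Subtype.val hb
    refine h ⟨P, hi ?_⟩
    rw [map_mul, t0, ← e, ← mul_assoc, hb', one_mul]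
  have hf : ∀ {x : f2_V t}, x ≠ 0 → ∃ m : ℕ, Associated (p ^ m) x := by
    rintro ⟨x, P, Q, h, e⟩ hx
    have hx' : x ≠ 0 := fun k => hx (Subtype.ext k)
    have hP : P ≠ 0 := by
      rintro rfl
      exact mul_ne_zero hx' (hne Q h) (by simpa using e)
    obtain ⟨m, P', h', rfl⟩ := WfDvdMonoid.max_power_factor hP
      (MvPolynomial.X_prime (i := (0 : Fin (k + 1)))).irreducible
    have a1 := hne Q h
    have a2 := hne P' h'
    refine ⟨m, ⟨⟨_, mul_mem (hm P') (hinv Q h)⟩, ⟨_, mul_mem (hm Q) (hinv P' h')⟩,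
      Subtype.ext ?_, Subtype.ext ?_⟩, Subtype.ext ?_⟩
    · change _ * _ * (_ * _) = (1 : L)
      field_simp
    · change _ * _ * (_ * _) = (1 : L)
      field_simp
    · change y 0 ^ m * (_ * _) = x
      rw [map_mul, map_pow, t0] at e
      rw [← mul_assoc, ← e, mul_inv_cancel_right₀ a1]
  have p0 : p ≠ 0 := fun k => h0 (congrArg Subtype.val k)
  have hirr : Irreducible p := by
    refine ⟨pn, fun a b hab => ?_⟩
    obtain ⟨m, ha⟩ := hf (left_ne_zero_of_mul (hab ▸ p0 : a * b ≠ 0))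
    obtain ⟨l, hb⟩ := hf (right_ne_zero_of_mul (hab ▸ p0 : a * b ≠ 0))
    rcases m with _ | m
    · exact Or.inl (associated_one_iff_isUnit.1 (by simpa using ha.symm))
    rcases l with _ | l
    · exact Or.inr (associated_one_iff_isUnit.1 (by simpa using hb.symm))
    have d1 : p * p ∣ p * 1 := by
      rw [mul_one]
      conv_rhs => rw [hab]
      exact mul_dvd_mul ((dvd_pow_self p m.succ_ne_zero).trans ha.dvd)
        ((dvd_pow_self p l.succ_ne_zero).trans hb.dvd)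
    exact (pn (isUnit_of_dvd_one ((mul_dvd_mul_iff_left p0).1 d1))).elim
  have hD : IsDiscreteValuationRing (f2_V t) :=
    IsDiscreteValuationRing.ofHasUnitMulPowIrreducibleFactorization ⟨p, hirr, hf⟩
  refine ⟨f2_V t, hD, ?_, fun i => by simpa using hm (MvPolynomial.X i), fun a => ?_, ?_,
    fun P hP => ?_⟩
  · refine IsFractionRing.of_field _ _ fun z => ?_
    obtain ⟨a, b, -, rfl⟩ := IsFractionRing.div_surjective (A := MvPolynomial (Fin (k + 1)) ℂ) z
    refine ⟨⟨_, hm (f2_sig k a)⟩, ⟨_, hm (f2_sig k b)⟩, ?_⟩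
    rw [← f2_comp y t hy ht, ← f2_comp y t hy ht]
    rfl
  · rw [(IsDiscreteValuationRing.irreducible_iff_uniformizer p).1 hirr, Ideal.mem_span_singleton]
    exact ⟨fun ⟨b, hb⟩ => ⟨b.1, b.2, congrArg Subtype.val hb⟩,
      fun ⟨b, hb, e⟩ => ⟨⟨b, hb⟩, Subtype.ext e⟩⟩
  · rintro a ⟨P, Q, h, e⟩
    exact ⟨P, Q, _, hinv Q h, mul_inv_cancel₀ (hne Q h), by
      rw [← e, mul_inv_cancel_right₀ (hne Q h)]⟩
  · have h : ¬ (MvPolynomial.X 0 : MvPolynomial (Fin (k + 1)) ℂ) ∣
        MvPolynomial.rename Fin.succ P := by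
      intro hd
      have := map_dvd (MvPolynomial.aeval (Fin.cons 0 MvPolynomial.X : Fin (k + 1) →
        MvPolynomial (Fin k) ℂ) : MvPolynomial (Fin (k + 1)) ℂ →ₐ[ℂ] MvPolynomial (Fin k) ℂ) hd
      rw [MvPolynomial.aeval_rename, MvPolynomial.aeval_X, Fin.cons_zero, zero_dvd_iff] at this
      refine hP (Eq.trans ?_ this)
      exact (MvPolynomial.aeval_X_left_apply P).symm
    refine ⟨_, hinv _ h, ?_⟩
    have := mul_inv_cancel₀ (hne _ h)
    rwa [MvPolynomial.aeval_rename] at this ⊢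

end Vale.Agent.P282
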