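import Vale.Agent.P282.A
import Vale.Agent.P282.B
import Vale.Agent.P282.F1
import Vale.Agent.P282.F2

/-! The valuations over the exceptional divisor of the blow-up of the origin. -/

open scoped ENNReal WithZero
open WithZero Filter MvPolynomial

noncomputable section

namespace Vale.Agent.P282

set_option linter.unusedSectionVars false

variable {K : Type} [Field K] [Algebra ℂ K] {n : ℕ}

theorem f_aeval_le {ι : Type} {v : Valuation K ℤᵐ⁰} (hv : IsNormalized v) (t : ι → K)
    (ht : ∀ i, v (t i) ≤ 1) (P : MvPolynomial ι ℂ) : v (aeval t P) ≤ 1 := by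
  induction P using MvPolynomial.induction_on with
  | C c =>
    rw [aeval_C]
    by_cases h : c = 0
    · simp [h]
    · exact (hv.1 c h).le
  | add p q hp hq =>
    rw [map_add]
    exact v.map_add_le hp hq
  | mul_X p i hp =>
    rw [map_mul, aeval_X, v.map_mul]
    exact mul_le_one' hp (ht i)

theorem f_aeval_lt {ι : Type} {v : Valuation K ℤᵐ⁰} (hv : IsNormalized v) (t : ι → K)
    (ht : ∀ i, v (t i) < 1) (P : MvPolynomial ι ℂ) :
    v (aeval t P - algebraMap ℂ K (constantCoeff P)) < 1 := by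
  induction P using MvPolynomial.induction_on with
  | C c => simp
  | add p q hp hq =>
    have e : aeval t (p + q) - algebraMap ℂ K (constantCoeff (p + q)) =
        (aeval t p - algebraMap ℂ K (constantCoeff p)) +
          (aeval t q - algebraMap ℂ K (constantCoeff q)) := by
      simp only [map_add]
      ring
    rw [e]
    exact v.map_add_lt hp hq
  | mul_X p i _ =>
    simp only [map_mul, aeval_X, constantCoeff_X, mul_zero, map_zero, sub_zero]
    exact (mul_le_of_le_one_left' (f_aeval_le hv t (fun j => (ht j).le) p)).trans_lt (ht i)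

theorem f_one {v : Valuation K ℤᵐ⁰} {a c : K} (ha : v a ≤ 1) (hc : v c ≤ 1) (h : a * c = 1) :
    v a = 1 := by
  have e : v a * v c = 1 := by rw [← v.map_mul, h, v.map_one]
  by_contra hne
  exact (mul_lt_one_of_lt_of_le (lt_of_le_of_ne ha hne) hc).ne e

theorem f_der {v : Valuation K ℤᵐ⁰} (δ : Derivation ℂ K K) {p q c : K} (hp : v p ≤ 1)
    (hc : v c ≤ 1) (h : q * c = 1) (hδp : v (δ p) ≤ 1) (hδq : v (δ q) ≤ 1) :
    v (δ (p * c)) ≤ 1 := by
  have e : δ c = -(c * c * δ q) := by
    have h1 : δ (q * c) = 0 := by rw [h, Derivation.map_one_eq_zero]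
    rw [Derivation.leibniz, smul_eq_mul, smul_eq_mul] at h1
    linear_combination c * h1 - δ c * h
  rw [Derivation.leibniz, smul_eq_mul, smul_eq_mul, e]
  refine v.map_add_le ?_ ?_
  · rw [v.map_mul, v.map_neg, v.map_mul, v.map_mul]
    exact mul_le_one' hp (mul_le_one' (mul_le_one' hc hc) hδq)
  · rw [v.map_mul]
    exact mul_le_one' hc hδp

theorem f_jac_lt {k : ℕ} (d : Fin (k + 1) → Derivation ℂ K K) (π : K) (f : Fin (k + 1) → K)
    (v : Valuation K ℤᵐ⁰) (h0 : ∀ j, v (π * d 0 (f j)) < 1)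
    (h1 : ∀ (i : Fin k) j, v (d i.succ (f j)) ≤ 1) : v (π * jac d f) < 1 := by
  have e : π * jac d f = jac (Fin.cons (π • d 0) fun i : Fin k => d i.succ) f := by
    unfold jac
    have : (Matrix.of fun i j => (Fin.cons (π • d 0) (fun i : Fin k => d i.succ) :
        Fin (k + 1) → Derivation ℂ K K) i (f j)) =
        (Matrix.of fun i j => d i (f j)).updateRow 0 (π • (Matrix.of fun i j => d i (f j)) 0) := by
      ext i j
      refine Fin.cases ?_ (fun i => ?_) i
      · simp
      · simp
    rw [this, Matrix.det_updateRow_smul, Matrix.updateRow_eq_self]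
  have hs : (Finset.univ.sup fun j => v (π * d 0 (f j))) < 1 :=
    (Finset.sup_lt_iff (by simp)).2 fun j _ => h0 j
  rw [e]
  refine lt_of_le_of_lt (val_jac_le _ f v
    (Fin.cons (Finset.univ.sup fun j => v (π * d 0 (f j))) fun _ => 1) ?_) ?_
  · intro i j
    refine Fin.cases ?_ (fun i => ?_) i
    · simpa using Finset.le_sup (f := fun j => v (π * d 0 (f j))) (Finset.mem_univ j)
    · simpa using h1 i j
  · rw [Fin.prod_univ_succ]
    simpa using hs

theorem exists_family {k : ℕ} (L : Type) [Field L] [Algebra ℂ L]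
    [Algebra (MvPolynomial (Fin (k + 1)) ℂ) L] [IsScalarTower ℂ (MvPolynomial (Fin (k + 1)) ℂ) L]
    [IsFractionRing (MvPolynomial (Fin (k + 1)) ℂ) L] [Algebra L K] [IsScalarTower ℂ L K]
    [FiniteDimensional L K] (y : Fin (k + 1) → K)
    (hy : ∀ i, y i = algebraMap L K (algebraMap (MvPolynomial (Fin (k + 1)) ℂ) L (X i)))
    (D : Fin (k + 1) → Derivation ℂ K K) (hD : jac D y ≠ 0) :
    ∃ E : Set (Valuation K ℤᵐ⁰), E.Finite ∧
      (∀ v ∈ E, IsDivisorial (k + 1) v ∧ (∀ i, v (y i) ≤ v (y 0)) ∧ v (y 0) < 1 ∧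
        ∀ f : Fin (k + 1) → K, (∀ i, v (f i) ≤ 1) → v (jac D f * y 0 ^ (k + 1)) < v (jac D y)) ∧
      ∀ x : K, (∀ v ∈ E, v x < 1) → ∀ P : MvPolynomial (Fin (k + 1)) ℂ,
        Algebra.trace L K x = algebraMap _ L P → constantCoeff P = 0 := by
  obtain ⟨y', hy'⟩ : ∃ y' : Fin (k + 1) → L,
      ∀ i, y' i = algebraMap (MvPolynomial (Fin (k + 1)) ℂ) L (X i) := ⟨_, fun _ => rfl⟩
  obtain ⟨t', ht'⟩ : ∃ t' : Fin (k + 1) → L,
      t' = Fin.cons (y' 0) fun i : Fin k => y' i.succ / y' 0 := ⟨_, rfl⟩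
  obtain ⟨V, hV, hfr, htV, hmax, hPQ, hres⟩ := exists_chart y' t' hy' ht'
  obtain ⟨E, hE, h1, hfin, htr⟩ := family_abs (K := K) (V := V) (L := L)
  have hyy : ∀ i, y i = algebraMap L K (y' i) := fun i => by rw [hy, hy']
  have hy0' : y' 0 ≠ 0 := by
    rw [hy']
    exact (map_ne_zero_iff _ (IsFractionRing.injective _ _)).2 (X_ne_zero _)
  have hy0 : y 0 ≠ 0 := by
    rw [hyy]
    exact (map_ne_zero_iff _ (algebraMap L K).injective).2 hy0'
  obtain ⟨t, ht⟩ : ∃ t : Fin (k + 1) → K, t = Fin.cons (y 0) fun i : Fin k => y i.succ / y 0 :=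
    ⟨_, rfl⟩
  have htt : ∀ i, t i = algebraMap L K (t' i) := by
    intro i
    refine Fin.cases ?_ (fun i => ?_) i
    · simp [ht, ht', hyy]
    · simp [ht, ht', hyy]
  have ht0 : t 0 = y 0 := by simp [ht]
  have ht0' : t' 0 = y' 0 := by simp [ht']
  have hts : ∀ i : Fin k, y i.succ = y 0 * t i.succ := by
    intro i
    simp only [ht, Fin.cons_succ]
    field_simp
  have hts' : ∀ i : Fin k, y' i.succ = y' 0 * t' i.succ := by
    intro i
    simp only [ht', Fin.cons_succ]
    field_simp
  have hae : ∀ {ι : Type} (s : ι → L) (P : MvPolynomial ι ℂ),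
      algebraMap L K (aeval s P) = aeval (fun i => algebraMap L K (s i)) P := by
    intro ι s P
    exact (aeval_algebraMap_apply K s P).symm
  have hch := jac_chart D y hy0
  rw [← ht] at hch
  have hDt : jac D t ≠ 0 := fun h => hD (by rw [hch, h, zero_mul])
  obtain ⟨d, hd, hdj⟩ := exists_dual D t hDt
  refine ⟨E, hE, fun v hv => ?_, fun x hx P hP => ?_⟩
  · obtain ⟨hn, hO, hm, hloc⟩ := h1 v hv
    have hOV : ∀ a ∈ V, v (algebraMap L K a) ≤ 1 := fun a ha => hO ⟨a, ha⟩
    have htv : ∀ i, v (t i) ≤ 1 := fun i => by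
      rw [htt]
      exact hOV _ (htV i)
    have hπ : v (y 0) < 1 := by
      have := hm ⟨t' 0, htV 0⟩ ((hmax _).2 ⟨1, V.one_mem, by simp [ht0']⟩)
      rw [← ht0, htt]
      exact this
    have hdV : ∀ i (a : V), v (d i (algebraMap V K a)) ≤ 1 := by
      intro i a
      obtain ⟨P, Q, c, hc, hQ, ha⟩ := hPQ a a.2
      have e : algebraMap V K a = aeval t P * algebraMap L K c := by
        change algebraMap L K a = _
        rw [ha, map_mul, hae, ← funext htt]
      have eQ : aeval t Q * algebraMap L K c = 1 := by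
        rw [funext htt, ← hae, ← map_mul, hQ, map_one]
      rw [e]
      refine f_der _ (f_aeval_le hn t htv P) (hOV c hc) eQ ?_ ?_ <;>
      · rw [dual_aeval d t hd]
        exact f_aeval_le hn t htv _
    have h0V : ∀ a : V, v ((y 0 • d 0) (algebraMap V K a)) < 1 := by
      intro a
      rw [Derivation.smul_apply, smul_eq_mul, v.map_mul]
      exact mul_lt_one_of_lt_of_le hπ (hdV 0 a)
    have h0 := (log_der v hn hO hloc hfin (y 0 • d 0) (fun a => (h0V a).le) (y 0) hy0 hπ (by
      rw [Derivation.smul_apply, ← ht0, hd]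
      simp)).2 h0V
    have hs : ∀ (i : Fin k) x, v x ≤ 1 → v (d i.succ x) ≤ 1 := fun i =>
      (log_der v hn hO hloc hfin (d i.succ) (hdV _) (y 0) hy0 hπ (by
        rw [← ht0, hd, if_neg (Fin.succ_ne_zero i)]
        simp)).1
    refine ⟨⟨hn, fun i : Fin k => t i.succ, fun P hP => ?_⟩, fun i => ?_, hπ, fun f hf => ?_⟩
    · obtain ⟨c, hc, h⟩ := hres P hP
      refine f_one (f_aeval_le hn _ (fun i => htv _) P) (hOV c hc) ?_
      have := congrArg (algebraMap L K) h
      rw [map_mul, map_one, hae] at this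
      simpa only [← htt] using this
    · refine Fin.cases le_rfl (fun i => ?_) i
      rw [hts, v.map_mul]
      exact mul_le_of_le_one_right' (htv _)
    · have e : jac D f * y 0 ^ (k + 1) = jac D y * (y 0 * jac d f) := by
        rw [hdj f, hch]
        ring
      rw [e, v.map_mul]
      have h2 := f_jac_lt d (y 0) f v (fun j => by simpa using h0 _ (hf j))
        fun i j => hs i _ (hf j)
      have h3 : 0 < v (jac D y) := zero_lt_iff.2 (v.ne_zero_iff.2 hD)
      exact mul_lt_of_lt_one_right h3 h2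
  · obtain ⟨a, ha, hx'⟩ := htr x hx
    by_contra hne
    have hyV : ∀ i, ∃ b ∈ V, y' i = y' 0 * b := fun i =>
      Fin.cases ⟨1, V.one_mem, by simp⟩ (fun i => ⟨_, htV _, hts' i⟩) i
    have key : ∀ Q : MvPolynomial (Fin (k + 1)) ℂ, ∃ b ∈ V,
        algebraMap _ L Q = algebraMap ℂ L (constantCoeff Q) + y' 0 * b := by
      intro Q
      induction Q using MvPolynomial.induction_on with
      | C c =>
        refine ⟨0, V.zero_mem, ?_⟩
        rw [constantCoeff_C, mul_zero, add_zero, ← algebraMap_eq,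
          ← IsScalarTower.algebraMap_apply]
      | add p q hp hq =>
        obtain ⟨b, hb, e⟩ := hp
        obtain ⟨b', hb', e'⟩ := hq
        refine ⟨b + b', V.add_mem hb hb', ?_⟩
        rw [map_add, map_add, map_add, e, e']
        ring
      | mul_X p i hp =>
        obtain ⟨b, hb, e⟩ := hp
        obtain ⟨b', hb', e'⟩ := hyV i
        refine ⟨(algebraMap ℂ L (constantCoeff p) + t' 0 * b) * b',
          V.mul_mem (V.add_mem (V.algebraMap_mem _) (V.mul_mem (htV 0) hb)) hb', ?_⟩
        rw [map_mul, ← hy', e, e', ht0']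
        simp only [map_mul, constantCoeff_X, mul_zero, map_zero, zero_add]
        ring
    obtain ⟨b, hb, e⟩ := key P
    obtain ⟨b', hb', e'⟩ := (hmax a).1 ha
    have hc : algebraMap ℂ V (constantCoeff P) ∈ IsLocalRing.maximalIdeal V := by
      refine (hmax _).2 ⟨b' - b, V.sub_mem hb' hb, ?_⟩
      have e2 : (a : L) = algebraMap ℂ L (constantCoeff P) + y' 0 * b := by
        rw [← e, ← hP, hx']
        rfl
      change algebraMap ℂ L _ = _
      linear_combination e' - e2
    exact hc ((Ne.isUnit hne).map _)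

end Vale.Agent.P282
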