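import Vale.Agent.P282.Defs

/-! Traces in the fraction field, without freeness. -/

open scoped ENNReal WithZero
open WithZero Filter

noncomputable section

namespace Vale.Agent.P282

set_option linter.unusedSectionVars false

variable {K : Type} [Field K] [Algebra ℂ K] {n : ℕ}

variable {S R : Type} (L : Type) [CommRing S] [IsDomain S] [CommRing R] [IsDomain R] [Algebra S R]
  [FaithfulSMul S R] [Module.Finite S R] [Algebra R K] [IsFractionRing R K] [Field L] [Algebra S L]
  [IsFractionRing S L] [Algebra L K] [Algebra S K] [IsScalarTower S L K] [IsScalarTower S R K]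

theorem isLoc' : IsLocalization (Algebra.algebraMapSubmonoid R (nonZeroDivisors S)) K := by
  infer_instance

include S R in
/-- `Module.Finite.of_isLocalization`. -/
theorem findim' : FiniteDimensional L K := by
  have := isLoc' (K := K) (S := S) (R := R)
  exact Module.Finite.of_isLocalization S R (nonZeroDivisors S)

/-- Extend `φ` to an `L`-linear form on `K` (`IsLocalizedModule.isBaseChange`, `IsBaseChange.lift`
for `IsScalarTower.toAlgHom S R K`), then use that the trace form is nondegenerate
(`traceForm_nondegenerate`, `LinearMap.BilinForm.toDual`; `L` has characteristic zero). -/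
theorem exists_z (φ : R →ₗ[S] S) : ∃ z : K, ∀ a : R,
    Algebra.trace L K (z * algebraMap R K a) = algebraMap S L (φ a) := by
  have := isLoc' (K := K) (S := S) (R := R)
  have := findim' (K := K) (S := S) (R := R) L
  have : CharZero K := (RingHom.charZero_iff (algebraMap ℂ K).injective).1 inferInstance
  have : CharZero L := (RingHom.charZero_iff (algebraMap L K).injective).2 inferInstance
  have hb := IsLocalizedModule.isBaseChange (nonZeroDivisors S) L
    (IsScalarTower.toAlgHom S R K).toLinearMap
  refine ⟨((Algebra.traceForm L K).toDual (traceForm_nondegenerate L K)).symm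
    (hb.lift (Algebra.linearMap S L ∘ₗ φ)), fun a => ?_⟩
  rw [← Algebra.traceForm_apply, LinearMap.BilinForm.apply_toDual_symm_apply]
  exact hb.lift_eq (Algebra.linearMap S L ∘ₗ φ) a

/-- `O ⧸ Q` is a quotient of the finite dimensional `R ⧸ 𝔫 R`: the latter is Artinian, so the map
to its localization is onto (`IsArtinianRing.localization_surjective`), or directly: for `s ∉ m`
the chain `span {s ^ j} + Q` stabilises, so `s ^ j * (1 - s * b) ∈ Q` and `s⁻¹ ≡ b`. -/
theorem finite_quot {R O : Type} [CommRing R] [CommRing O] [Algebra ℂ R] [Algebra ℂ O]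
    [Algebra (MvPolynomial (Fin n) ℂ) R] [IsScalarTower ℂ (MvPolynomial (Fin n) ℂ) R]
    [Module.Finite (MvPolynomial (Fin n) ℂ) R] [Algebra R O] [IsScalarTower ℂ R O]
    (M : Submonoid R) [IsLocalization M O] (y : Fin n → O)
    (hy : ∀ i, y i = algebraMap R O (algebraMap (MvPolynomial (Fin n) ℂ) R (MvPolynomial.X i))) :
    Module.Finite ℂ (O ⧸ Ideal.span (Set.range y)) := by
  let I : Ideal R := Ideal.span (Set.range fun i =>
    algebraMap (MvPolynomial (Fin n) ℂ) R (MvPolynomial.X i))
  have hI : Ideal.span (Set.range y) = I.map (algebraMap R O) := by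
    rw [Ideal.map_span, ← Set.range_comp]
    exact congrArg (fun f => Ideal.span (Set.range f)) (funext hy)
  have e : algebraMap (MvPolynomial (Fin n) ℂ) (R ⧸ I) =
      (algebraMap ℂ (R ⧸ I)).comp MvPolynomial.constantCoeff := by
    refine MvPolynomial.ringHom_ext (fun c => ?_) fun i => ?_
    · rw [RingHom.comp_apply, MvPolynomial.constantCoeff_C,
        IsScalarTower.algebraMap_apply ℂ (MvPolynomial (Fin n) ℂ) (R ⧸ I)]
      rfl
    · rw [RingHom.comp_apply, MvPolynomial.constantCoeff_X, map_zero]
      exact Ideal.Quotient.eq_zero_iff_mem.2 (Ideal.subset_span ⟨i, rfl⟩)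
  have h1 : Module.Finite ℂ (R ⧸ I) := RingHom.finite_algebraMap.1
    (RingHom.Finite.of_comp_finite (e ▸ RingHom.finite_algebraMap.2 inferInstance))
  have h2 : IsArtinianRing (R ⧸ I) := IsArtinianRing.of_finite ℂ _
  have h3 := IsArtinianRing.localization_surjective (Algebra.algebraMapSubmonoid (R ⧸ I) M)
    (O ⧸ I.map (algebraMap R O))
  rw [hI]
  exact Module.Finite.of_surjective (Ideal.quotientMapₐ (I.map (algebraMap R O))
    (IsScalarTower.toAlgHom ℂ R O) Ideal.le_comap_map).toLinearMap h3

end Vale.Agent.P282
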