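import Vale.Agent.P282.G
import Vale.Agent.P282.H0

/-! The codifferent and Jacobians along prime divisors, without freeness. -/

open scoped ENNReal WithZero
open WithZero Filter

noncomputable section

namespace Vale.Agent.P282

set_option linter.unusedSectionVars false

variable {K : Type} [Field K] [Algebra ℂ K] {n : ℕ}

/-- As `centre_prin`; going down holds since `S` is integrally closed. -/
theorem centre_prin' {S R : Type} [CommRing S] [IsDomain S] [UniqueFactorizationMonoid S]
    [CommRing R] [IsDomain R] [Algebra S R] [FaithfulSMul S R] [Module.Finite S R] [Algebra R K]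
    [IsFractionRing R K] {v : Valuation K ℤᵐ⁰} (hv : PrimeDiv R v) :
    ∃ π : S, Prime π ∧ ∀ P : S, v (algebraMap R K (algebraMap S R P)) < 1 ↔ π ∣ P := by
  have hp := g_prime hv.2.1
  obtain ⟨u, hu⟩ := hv.1.2
  obtain ⟨a₀, b₀, hb₀, e₀⟩ := hv.2.2 u (hu ▸ g_exp.le)
  have ha₀ : v (algebraMap R K a₀) = exp (-1) := by rw [← e₀, map_mul, hb₀, mul_one, hu]
  have hq : (g_ctr hv.2.1).comap (algebraMap S R) ≠ ⊥ :=
    Ideal.comap_ne_bot_of_integral_mem (x := a₀) (fun h => by
      rw [h, map_zero, map_zero] at ha₀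
      exact exp_ne_zero ha₀.symm) (ha₀.trans_lt g_exp) (Algebra.IsIntegral.isIntegral a₀)
  obtain ⟨π, hπq, hπ⟩ := Ideal.IsPrime.exists_mem_prime_of_ne_bot inferInstance hq
  have hs : (Ideal.span {π}).IsPrime := (Ideal.span_singleton_prime hπ.ne_zero).2 hπ
  obtain ⟨p', hle, hp', hlo⟩ := (g_ctr hv.2.1).exists_ideal_le_liesOver_of_le
    (p := Ideal.span {π}) (q := (g_ctr hv.2.1).under S)
    ((Ideal.span_singleton_le_iff_mem _).2 hπq)
  have hmem : ∀ P : S, algebraMap S R P ∈ p' ↔ π ∣ P := fun P => by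
    rw [← Ideal.mem_span_singleton, hlo.over]
    rfl
  have ha : v (algebraMap R K (algebraMap S R π)) ≠ 0 := (Valuation.ne_zero_iff v).2 fun h =>
    hπ.ne_zero (FaithfulSMul.algebraMap_injective S R ((IsFractionRing.injective R K
      (h.trans (map_zero _).symm)).trans (map_zero _).symm))
  refine ⟨π, hπ, fun P => ⟨fun h => (hmem P).1 ?_, fun h => hle ((hmem P).2 h)⟩⟩
  obtain ⟨N, hN⟩ := exists_pow_lt₀ h (Units.mk0 _ ha)
  obtain ⟨a, b, hb, e⟩ := hv.2.2 (algebraMap R K (algebraMap S R P) ^ N /
      algebraMap R K (algebraMap S R π)) (by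
    rw [map_div₀, map_pow]
    exact div_le_one_of_le₀ hN.le zero_le)
  have e1 : algebraMap S R P ^ N * b = a * algebraMap S R π := IsFractionRing.injective R K (by
    rw [map_mul, map_mul, map_pow, ← e, div_mul_eq_mul_div,
      div_mul_cancel₀ _ ((Valuation.ne_zero_iff v).1 ha)])
  have e2 : algebraMap S R P ^ N * b ∈ p' := e1 ▸ p'.mul_mem_left a ((hmem π).2 dvd_rfl)
  rcases hp'.mem_or_mem e2 with k | k
  · exact hp'.mem_of_pow_mem N k
  · exact absurd hb (ne_of_lt (hle k))

/-- Apply `tame` to `S' = Localization.subalgebra.ofField L (span {π}).primeCompl _`, a discrete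
valuation ring (`IsDiscreteValuationRing.TFAE`: noetherian, local, principal maximal ideal), and
`R' = integralClosure S' K`, finite (`IsIntegralClosure.finite`) and free over `S'`. Every
`a' ∈ R'` satisfies `s * a' ∈ R` for some `s ∈ S` with `¬ π ∣ s`
(`IsIntegral.exists_multiple_integral_of_isLocalization`, `R` integrally closed), and `v s = 1`. -/
theorem tame' {S R : Type} (L : Type) [CommRing S] [IsDomain S] [IsNoetherianRing S] [Algebra ℂ S]
    [CommRing R] [IsDomain R] [IsIntegrallyClosed R] [Algebra S R] [FaithfulSMul S R]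
    [Module.Finite S R] [Algebra R K] [IsFractionRing R K] [Field L] [Algebra S L]
    [IsFractionRing S L] [Algebra L K] [Algebra S K] [IsScalarTower S L K] [IsScalarTower S R K]
    {v : Valuation K ℤᵐ⁰} (hv : PrimeDiv R v) (π : S) (hπ : Prime π)
    (hc : ∀ P : S, v (algebraMap S K P) < 1 ↔ π ∣ P) (z : K)
    (hz : ∀ a : R, ∃ P : S, Algebra.trace L K (z * algebraMap R K a) = algebraMap S L P) :
    v (z * algebraMap S K π) < 1 := by
  have hp : (Ideal.span {π}).IsPrime := (Ideal.span_singleton_prime hπ.ne_zero).2 hπ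
  let S' := Localization.subalgebra.ofField L (Ideal.span {π}).primeCompl
    (Ideal.primeCompl_le_nonZeroDivisors _)
  have hl : IsLocalization.AtPrime S' (Ideal.span {π}) :=
    Localization.subalgebra.isLocalization_ofField L _ _
  have : IsLocalRing S' := IsLocalization.AtPrime.isLocalRing S' (Ideal.span {π})
  have : IsNoetherianRing S' :=
    IsLocalization.isNoetherianRing (Ideal.span {π}).primeCompl S' inferInstance
  have hm : (IsLocalRing.maximalIdeal S').IsPrincipal := by
    rw [← IsLocalization.AtPrime.map_eq_maximalIdeal (Ideal.span {π}) S', Ideal.map_span,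
      Set.image_singleton]
    exact ⟨_, rfl⟩
  have : IsPrincipalIdealRing S' :=
    ((tfae_of_isNoetherianRing_of_isLocalRing_of_isDomain S').out 4 0).1 hm
  have := findim' (K := K) (S := S) (R := R) L
  have : CharZero K := (RingHom.charZero_iff (algebraMap ℂ K).injective).1 inferInstance
  have : CharZero L := (RingHom.charZero_iff (algebraMap L K).injective).2 inferInstance
  have hS : ∀ x : S, algebraMap S' K (algebraMap S S' x) = algebraMap S K x := fun x =>
    (IsScalarTower.algebraMap_apply S L K x).symm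
  have : IsScalarTower S S' K := IsScalarTower.of_algebraMap_eq fun x => (hS x).symm
  have : Module.IsTorsionFree S' K := Module.isTorsionFree_iff_algebraMap_injective.2
    fun x y h => Subtype.ext ((algebraMap L K).injective h)
  let R' := integralClosure S' K
  have : Module.Finite S' R' := IsIntegralClosure.finite S' L K R'
  have : Module.Free S' R' := IsIntegralClosure.module_free S' L K R'
  have : IsFractionRing R' K := IsIntegralClosure.isFractionRing_of_finite_extension S' L K R'
  let _ : Algebra ℂ S' := ((algebraMap S S').comp (algebraMap ℂ S)).toAlgebra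
  have ho : ∀ P, v (algebraMap S K P) ≤ 1 := fun P => by
    rw [IsScalarTower.algebraMap_apply S R K]
    exact hv.2.1 _
  have key : ∀ a' : R', ∃ s : S, ¬π ∣ s ∧ ∃ a : R, algebraMap R K a = algebraMap S K s * a' := by
    intro a'
    obtain ⟨m, hm⟩ := IsIntegral.exists_multiple_integral_of_isLocalization
      (Ideal.span {π}).primeCompl (a' : K) a'.2
    obtain ⟨a, ha⟩ := IsIntegrallyClosed.isIntegral_iff.1 (hm.tower_top (A := R))
    refine ⟨m, fun h => m.2 (Ideal.mem_span_singleton.2 h), a, ?_⟩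
    rw [ha, Submonoid.smul_def, Algebra.smul_def]
  have hin : ∀ a : R, IsIntegral S' (algebraMap R K a) := fun a =>
    ((Algebra.IsIntegral.isIntegral (R := S) a).algebraMap (B := K)).tower_top
  have hv' : PrimeDiv R' v := by
    refine ⟨hv.1, fun a' => ?_, fun x hx => ?_⟩
    · obtain ⟨s, hs, a, ha⟩ := key a'
      have h1 := hv.2.1 a
      rwa [ha, map_mul, le_antisymm (ho s) (not_lt.1 fun k => hs ((hc s).1 k)), one_mul] at h1
    · obtain ⟨a, b, hb, e⟩ := hv.2.2 x hx
      exact ⟨⟨_, hin a⟩, ⟨_, hin b⟩, hb, e⟩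
  rw [← hS]
  refine tame (R := R') L hv' (algebraMap S S' π) (fun h => hπ.ne_zero ?_) ?_ z fun a' => ?_
  · exact IsFractionRing.injective S L ((congrArg Subtype.val h).trans (map_zero _).symm)
  · rw [hS]
    exact (hc π).2 dvd_rfl
  · obtain ⟨s, hs, a, ha⟩ := key a'
    obtain ⟨P, hP⟩ := hz a
    have hs0 : algebraMap S L s ≠ 0 := fun h => hs (by
      rw [IsFractionRing.injective S L (h.trans (map_zero _).symm)]
      exact dvd_zero π)
    refine ⟨⟨algebraMap S L P * (algebraMap S L s)⁻¹, P, s,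
      fun h => hs (Ideal.mem_span_singleton.1 h), rfl⟩, ?_⟩
    have e : z * algebraMap R K a = algebraMap S L s • (z * algebraMap R' K a') := by
      rw [ha, Algebra.smul_def, ← IsScalarTower.algebraMap_apply, mul_left_comm]
      rfl
    rw [e, map_smul, smul_eq_mul] at hP
    change _ = algebraMap S L P * (algebraMap S L s)⁻¹
    rw [← hP, mul_comm (algebraMap S L s), mul_inv_cancel_right₀ hs0]

/-- The proof of `codiff_le` with `centre_prin'` and `tame'`. -/
theorem codiff_le' {R : Type} (L : Type) [CommRing R] [IsDomain R] [IsIntegrallyClosed R]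
    [Algebra (MvPolynomial (Fin n) ℂ) R] [FaithfulSMul (MvPolynomial (Fin n) ℂ) R]
    [Module.Finite (MvPolynomial (Fin n) ℂ) R] [Algebra R K] [IsFractionRing R K] [Field L]
    [Algebra (MvPolynomial (Fin n) ℂ) L] [IsFractionRing (MvPolynomial (Fin n) ℂ) L] [Algebra L K]
    [Algebra (MvPolynomial (Fin n) ℂ) K] [IsScalarTower ℂ (MvPolynomial (Fin n) ℂ) K]
    [IsScalarTower (MvPolynomial (Fin n) ℂ) L K] [IsScalarTower (MvPolynomial (Fin n) ℂ) R K]
    (y : Fin n → K) (hy : ∀ i, y i = algebraMap (MvPolynomial (Fin n) ℂ) K (MvPolynomial.X i))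
    (D : Fin n → Derivation ℂ K K) (hD : jac D y ≠ 0) (z : K)
    (hz : ∀ a : R, ∃ P : MvPolynomial (Fin n) ℂ,
      Algebra.trace L K (z * algebraMap R K a) = algebraMap _ L P)
    {v : Valuation K ℤᵐ⁰} (hv : PrimeDiv R v) :
    ∃ f : Fin n → K, (∀ i, v (f i) ≤ 1) ∧ jac D f ≠ 0 ∧ v (z * jac D y) ≤ v (jac D f) := by
  obtain ⟨π, hπ, hc⟩ := centre_prin' (S := MvPolynomial (Fin n) ℂ) hv
  simp only [← IsScalarTower.algebraMap_apply] at hc
  obtain ⟨i, hi⟩ := exists_pderiv hπ
  obtain ⟨d, hd, hj⟩ := exists_dual D y hD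
  have ha : ∀ P, MvPolynomial.aeval y P = algebraMap (MvPolynomial (Fin n) ℂ) K P := fun P =>
    AlgHom.congr_fun (MvPolynomial.algHom_ext (g := IsScalarTower.toAlgHom ℂ _ K) fun j =>
      (MvPolynomial.aeval_X y j).trans (hy j)) P
  have ho : ∀ P, v (algebraMap (MvPolynomial (Fin n) ℂ) K P) ≤ 1 := fun P => by
    rw [IsScalarTower.algebraMap_apply _ R K]
    exact hv.2.1 _
  have h0 : algebraMap (MvPolynomial (Fin n) ℂ) K π ≠ 0 := by
    rw [IsScalarTower.algebraMap_apply _ L K, map_ne_zero, map_ne_zero_iff _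
      (IsFractionRing.injective (MvPolynomial (Fin n) ℂ) L)]
    exact hπ.ne_zero
  obtain ⟨f₀, hf, hf'⟩ := exists_der hv.1 (d i) _ h0 (ho π) (by
    rw [← ha, dual_aeval d y hd, ha]
    exact le_antisymm (ho _) (not_lt.1 fun k => hi ((hc _).1 k)))
  have h1 := (g_le (tame' L hv π hπ hc z hz)).trans hf'
  rw [map_mul, map_mul] at h1
  have h2 := le_of_mul_le_mul_right h1 (zero_lt_iff.2 ((Valuation.ne_zero_iff v).2 h0))
  have h3 : d i f₀ ≠ 0 := left_ne_zero_of_mul ((Valuation.ne_zero_iff v).1 (exp_pos.trans_le hf').ne')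
  refine ⟨Function.update y i f₀, fun j => ?_, ?_, ?_⟩
  · rcases eq_or_ne j i with rfl | k
    · rwa [Function.update_self]
    · rw [Function.update_of_ne k, hy]
      exact ho _
  · rw [hj, jac_update d y hd]
    exact mul_ne_zero hD h3
  · rw [hj (Function.update y i f₀), jac_update d y hd, map_mul, map_mul, mul_comm]
    exact mul_le_mul_right h2 _

end Vale.Agent.P282
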