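import Vale.Agent.P282.E
import Vale.Agent.P282.F
import Vale.Agent.P282.H

/-! The bound for a finite Noether normalization. -/

open scoped ENNReal WithZero
open WithZero Filter MvPolynomial

noncomputable section

namespace Vale.Agent.P282

set_option linter.unusedSectionVars false

variable {K : Type} [Field K] [Algebra ℂ K] {n : ℕ}

theorem val_eq_exp (v : Valuation K ℤᵐ⁰) {x : K} (hx : x ≠ 0) : v x = exp (-ord v x) := by
  rw [ord, neg_neg, exp_log (v.ne_zero_iff.2 hx)]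

theorem ord_mul (v : Valuation K ℤᵐ⁰) {x y : K} (hx : x ≠ 0) (hy : y ≠ 0) :
    ord v (x * y) = ord v x + ord v y := by
  unfold ord
  rw [v.map_mul, log_mul (v.ne_zero_iff.2 hx) (v.ne_zero_iff.2 hy)]
  ring

theorem ord_pow (v : Valuation K ℤᵐ⁰) (x : K) (j : ℕ) : ord v (x ^ j) = j * ord v x := by
  unfold ord
  rw [v.map_pow, log_pow]
  simp

theorem ord_le_iff (v : Valuation K ℤᵐ⁰) {x y : K} (hx : x ≠ 0) (hy : y ≠ 0) :
    ord v x ≤ ord v y ↔ v y ≤ v x := by
  rw [val_eq_exp v hx, val_eq_exp v hy, exp_le_exp, neg_le_neg_iff]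

theorem ord_lt_iff (v : Valuation K ℤᵐ⁰) {x y : K} (hx : x ≠ 0) (hy : y ≠ 0) :
    ord v x < ord v y ↔ v y < v x := by
  rw [← not_le, ← not_le, ord_le_iff v hy hx]

theorem le_ord_iff (v : Valuation K ℤᵐ⁰) {x : K} (hx : x ≠ 0) (t : ℤ) :
    t ≤ ord v x ↔ v x ≤ exp (-t) := by
  rw [val_eq_exp v hx, exp_le_exp, neg_le_neg_iff]

theorem core_int {S : Type} [CommRing S] [Algebra S K] {v : Valuation K ℤᵐ⁰} (hv : Over S v)
    {a : K} (ha : IsIntegral S a) : v a ≤ 1 := by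
  let _ : Algebra S v.valuationSubring :=
    ((algebraMap S K).codRestrict v.valuationSubring hv).toAlgebra
  have _ : IsScalarTower S v.valuationSubring K := IsScalarTower.of_algebraMap_eq fun _ => rfl
  obtain ⟨b, rfl⟩ := IsIntegrallyClosed.algebraMap_eq_of_integral
    (ha.tower_top (A := v.valuationSubring))
  exact b.2

theorem core_red {O : Type} [CommRing O] [Algebra O K] {v : Valuation K ℤᵐ⁰} (hv : Over O v)
    {I Q : Ideal O} {j c : ℕ} (h : I ^ (j + 1) = Q * I ^ j) (hQ : Q ≤ vIdeal O v c) :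
    I ≤ vIdeal O v c := by
  have key : ∀ i, I ^ (j + i) ≤ Q ^ i * I ^ j := by
    intro i
    induction i with
    | zero => simp
    | succ i ih =>
      calc I ^ (j + (i + 1)) = I ^ (j + i) * I := by rw [← add_assoc, pow_succ]
        _ ≤ Q ^ i * I ^ j * I := Ideal.mul_mono_left ih
        _ = Q ^ (i + 1) * I ^ j := by rw [mul_assoc, ← pow_succ, h, pow_succ, mul_assoc]
  intro a ha
  rw [mem_vIdeal O hv]
  by_cases h0 : algebraMap O K a = 0
  · simp [h0]
  rw [← le_ord_iff v h0]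
  have h1 : ∀ i : ℕ, ((c * i : ℕ) : ℤ) ≤ (j + i : ℕ) * ord v (algebraMap O K a) := by
    intro i
    have h7 : a ^ (j + i) ∈ Q ^ i :=
      ((key i).trans Ideal.mul_le_left) (Ideal.pow_mem_pow ha (j + i))
    have := pow_le_vIdeal O hv hQ i h7
    rw [mem_vIdeal O hv, map_pow, ← le_ord_iff v (pow_ne_zero _ h0), ord_pow] at this
    exact this
  have h2 := h1 (c * j + 1)
  have h3 : 0 ≤ ord v (algebraMap O K a) := (le_ord_iff v h0 0).2 (by simpa using hv a)
  push_cast at h2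
  by_contra hlt
  have h4 : ord v (algebraMap O K a) ≤ c - 1 := by omega
  have h5 : (0 : ℤ) ≤ j := Nat.cast_nonneg _
  have h6 : (0 : ℤ) ≤ c := Nat.cast_nonneg _
  nlinarith [mul_le_mul_of_nonneg_left h4 (show (0 : ℤ) ≤ j + (c * j + 1) by positivity)]

theorem core_small {v : Valuation K ℤᵐ⁰} {s : K} (hs : v s < 1) (z : K) :
    ∀ᶠ N : ℕ in atTop, v (s ^ N * z) < 1 := by
  by_cases h0 : s = 0
  · filter_upwards [eventually_gt_atTop 0] with N hN
    simp [h0, hN.ne']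
  by_cases hz : z = 0
  · simp [hz]
  have h1 : 0 < ord v s := by
    have := (ord_lt_iff v one_ne_zero h0).2 (by simpa using hs)
    simpa [ord] using this
  filter_upwards [eventually_gt_atTop (ord v z).natAbs] with N hN
  have h2 : ord v 1 < ord v (s ^ N * z) := by
    rw [ord_mul v (pow_ne_zero _ h0) hz, ord_pow]
    have h3 : ord v 1 = 0 := by simp [ord]
    have h4 : -(N : ℤ) < ord v z := by omega
    nlinarith [Nat.cast_nonneg (α := ℤ) N]
  simpa using (ord_lt_iff v one_ne_zero (mul_ne_zero (pow_ne_zero _ h0) hz)).1 h2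

theorem core_final {A x : ℝ} {c e : ℕ} (hc : 0 < c) (hA : A ≤ x * c) {w : ℝ≥0∞}
    (hw : w ≤ (e : ℝ≥0∞) / (c : ℝ≥0∞) ^ n) :
    ENNReal.ofReal A ^ n * w ≤ e * ENNReal.ofReal x ^ n := by
  have h1 : ENNReal.ofReal A ≤ ENNReal.ofReal x * c := by
    rw [← ENNReal.ofReal_natCast, ← ENNReal.ofReal_mul' (Nat.cast_nonneg _)]
    exact ENNReal.ofReal_le_ofReal hA
  have h2 : (c : ℝ≥0∞) ^ n ≠ 0 := pow_ne_zero _ (by exact_mod_cast hc.ne')
  have h3 : (c : ℝ≥0∞) ^ n ≠ ⊤ := ENNReal.pow_ne_top (ENNReal.natCast_ne_top c)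
  calc ENNReal.ofReal A ^ n * w ≤ (ENNReal.ofReal x * c) ^ n * ((e : ℝ≥0∞) / (c : ℝ≥0∞) ^ n) :=
        mul_le_mul' (pow_le_pow_left' h1 n) hw
    _ = e * ENNReal.ofReal x ^ n := by
        rw [mul_pow, mul_assoc, ENNReal.mul_div_cancel h2 h3, mul_comm]

theorem core_cen {R O ι : Type} [Fintype ι] [CommRing R] [CommRing O] [IsLocalRing O]
    (m : Ideal R) [m.IsMaximal] [Algebra R O] [IsLocalization.AtPrime O m] [Algebra R K]
    [Algebra O K] [IsScalarTower R O K] {E : Set (Valuation K ℤᵐ⁰)} (hE : E.Finite)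
    (hR : ∀ v ∈ E, Over R v) {Q : Ideal R} (hmul : ∀ v ∈ E, ∀ a ∈ Q, v (algebraMap R K a) < 1)
    {j : ℕ} (hred : IsLocalRing.maximalIdeal O ^ (j + 1) ≤ Q.map (algebraMap R O)) (z : ι → K) :
    ∃ τ ∈ m.primeCompl, ∀ v ∈ E, ∀ i, ¬Centered O v → v (algebraMap R K τ * z i) < 1 := by
  have hcen : ∀ v ∈ E, (∀ a ∈ m, v (algebraMap R K a) < 1) → Centered O v := by
    intro v hv h
    have h1 : ∀ s ∉ m, v (algebraMap R K s) = 1 := by
      intro s hs
      obtain ⟨t, a, ha, hta⟩ := Ideal.IsMaximal.exists_inv inferInstance hs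
      by_contra hne
      have h2 : v (algebraMap R K (t * s)) < 1 := by
        rw [map_mul, v.map_mul]
        exact (mul_le_of_le_one_left' (hR v hv _)).trans_lt (lt_of_le_of_ne (hR v hv _) hne)
      have h3 := v.map_add_lt h2 (h a ha)
      rw [← map_add, hta] at h3
      simp at h3
    have h2 : ∀ (a : R) (s : m.primeCompl),
        v (algebraMap O K (IsLocalization.mk' O a s)) = v (algebraMap R K a) := by
      intro a s
      have := congrArg (fun t => v (algebraMap O K t)) (IsLocalization.mk'_spec O a s)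
      simp only [map_mul, ← IsScalarTower.algebraMap_apply] at this
      rwa [h1 s s.2, mul_one] at this
    refine ⟨fun o => ?_, fun o ho => ?_⟩
    · obtain ⟨a, s, rfl⟩ := IsLocalization.exists_mk'_eq m.primeCompl o
      rw [h2]
      exact hR v hv a
    · obtain ⟨a, s, rfl⟩ := IsLocalization.exists_mk'_eq m.primeCompl o
      rw [h2]
      refine h a ?_
      by_contra ha
      exact ho ((IsLocalization.AtPrime.isUnit_mk'_iff O m a s).2 ha)
  have hρ : ∀ v ∈ E, ∃ ρ ∈ m.primeCompl, Centered O v ∨ v (algebraMap R K ρ) < 1 := by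
    intro v hv
    by_cases h : ∀ a ∈ m, v (algebraMap R K a) < 1
    · exact ⟨1, one_mem _, Or.inl (hcen v hv h)⟩
    push Not at h
    obtain ⟨a, ha, hva⟩ := h
    have h1 : algebraMap R O (a ^ (j + 1)) ∈ Q.map (algebraMap R O) := by
      rw [map_pow]
      exact hred (Ideal.pow_mem_pow
        ((IsLocalization.AtPrime.to_map_mem_maximal_iff O m a).2 ha) (j + 1))
    rw [IsLocalization.algebraMap_mem_map_algebraMap_iff m.primeCompl] at h1
    obtain ⟨s, hs, h2⟩ := h1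
    refine ⟨s, hs, Or.inr ?_⟩
    have h3 := hmul v hv _ h2
    rw [map_mul, map_pow, v.map_mul, v.map_pow, le_antisymm (hR v hv a) hva] at h3
    simpa using h3
  choose! ρ hρ1 hρ2 using hρ
  obtain ⟨σ, hσ⟩ : ∃ σ : R, σ = ∏ v ∈ hE.toFinset, ρ v := ⟨_, rfl⟩
  have hσ1 : σ ∈ m.primeCompl := hσ ▸ prod_mem fun v hv => hρ1 v (hE.mem_toFinset.1 hv)
  have hσ2 : ∀ v ∈ E, ¬Centered O v → v (algebraMap R K σ) < 1 := by
    intro v hv hn
    obtain ⟨t, ht⟩ := Finset.dvd_prod_of_mem ρ (hE.mem_toFinset.2 hv)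
    rw [hσ, ht, map_mul, v.map_mul]
    exact (mul_le_of_le_one_right' (hR v hv _)).trans_lt ((hρ2 v hv).resolve_left hn)
  have hN : ∀ᶠ N : ℕ in atTop, ∀ v ∈ E, ∀ i, ¬Centered O v →
      v (algebraMap R K σ ^ N * z i) < 1 := by
    refine (eventually_all_finite hE).2 fun v hv => eventually_all.2 fun i => ?_
    by_cases hn : Centered O v
    · simp [hn]
    · exact (core_small (hσ2 v hv hn) (z i)).mono fun N h _ => h
  obtain ⟨N, hN⟩ := hN.exists
  exact ⟨σ ^ N, pow_mem hσ1 N, fun v hv i hn => by simpa only [map_pow] using hN v hv i hn⟩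

theorem core_num {k : ℕ} {O : Type} [CommRing O] [IsLocalRing O] [Algebra O K]
    (y : Fin (k + 1) → O) (Y : Fin (k + 1) → K) (hYy : ∀ i, algebraMap O K (y i) = Y i)
    (hY0 : Y 0 ≠ 0) {j : ℕ} (hred : IsLocalRing.maximalIdeal O ^ (j + 1) =
      Ideal.span (Set.range y) * IsLocalRing.maximalIdeal O ^ j)
    (e : ℕ) (he : Module.length O (O ⧸ Ideal.span (Set.range y)) = e)
    (D : Fin (k + 1) → Derivation ℂ K K) (hJ : jac D Y ≠ 0) {r : ℕ} (hr : r ≠ 0) {g : K}
    (hg0 : g ≠ 0) {z : K} (hzO : (z * jac D Y) ^ r / g ∈ (algebraMap O K).range) {b : O}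
    {p q : ℕ} (hq : 0 < q) (hbp : b ^ q ∈ IsLocalRing.maximalIdeal O ^ p)
    {v : Valuation K ℤᵐ⁰} (hvc : Centered O v) (hdiv : IsDivisorial (k + 1) v)
    (hle : ∀ i, v (Y i) ≤ v (Y 0)) (hlt : v (Y 0) < 1)
    (hjac : ∀ f : Fin (k + 1) → K, (∀ i, v (f i) ≤ 1) →
      v (jac D f * Y 0 ^ (k + 1)) < v (jac D Y)) (hvx : 1 ≤ v (z * algebraMap O K b)) :
    nvol O D r g ≤ e * ENNReal.ofReal ((k + 1 : ℕ) - p / q) ^ (k + 1) := by
  have hx0 : z * algebraMap O K b ≠ 0 := fun h => by simp [h] at hvx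
  have hz0 : z ≠ 0 := left_ne_zero_of_mul hx0
  have hb0 : algebraMap O K b ≠ 0 := right_ne_zero_of_mul hx0
  have hc0 : 0 < ord v (Y 0) := by
    have := (ord_lt_iff v one_ne_zero hY0).2 (by simpa using hlt)
    simpa [ord] using this
  obtain ⟨c, hc⟩ := Int.eq_ofNat_of_zero_le hc0.le
  have hyc : ∀ i, v (algebraMap O K (y i)) ≤ exp (-(c : ℤ)) := fun i => by
    rw [hYy, ← hc, ← val_eq_exp v hY0]
    exact hle i
  have hm : IsLocalRing.maximalIdeal O ≤ vIdeal O v c :=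
    core_red hvc.1 hred (Ideal.span_le.2 (by
      rintro _ ⟨i, rfl⟩
      exact (mem_vIdeal O hvc.1 c _).2 (hyc i)))
  have h1 : ((c * p : ℕ) : ℤ) ≤ q * ord v (algebraMap O K b) := by
    have h3 := pow_le_vIdeal O hvc.1 hm p hbp
    rw [mem_vIdeal O hvc.1, map_pow, ← le_ord_iff v (pow_ne_zero _ hb0), ord_pow] at h3
    exact h3
  have h2 : ord v (z) + ord v (algebraMap O K b) ≤ 0 := by
    rw [← ord_mul v hz0 hb0]
    have := (ord_le_iff v hx0 one_ne_zero).2 (by simpa using hvx)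
    simpa [ord] using this
  have h3 : ord v g ≤ r * (ord v (z) + ord v (jac D Y)) := by
    obtain ⟨o, ho⟩ := hzO
    have h4 := hvc.1 o
    rw [ho, v.map_div, div_le_one₀ (zero_lt_iff.2 (v.ne_zero_iff.2 hg0)),
      ← ord_le_iff v hg0 (pow_ne_zero _ (mul_ne_zero hz0 hJ)), ord_pow, ord_mul v hz0 hJ] at h4
    exact h4
  have h4 : ord v (jac D Y) + 1 - (k + 1 : ℕ) * c ≤ sInf (jset D v) := by
    refine le_csInf ⟨_, Y, fun i => (hle i).trans hlt.le, hJ, rfl⟩ ?_
    rintro _ ⟨f, hf, hf0, rfl⟩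
    have h5 := (ord_lt_iff v hJ (mul_ne_zero hf0 (pow_ne_zero _ hY0))).2 (hjac f hf)
    rw [ord_mul v hf0 (pow_ne_zero _ hY0), ord_pow, hc] at h5
    omega
  have h5 : formOrd D r g v ≤ r * (ord v (z) - 1 + (k + 1 : ℕ) * c) := by
    unfold formOrd
    nlinarith [Nat.cast_nonneg (α := ℤ) r]
  have hA : logDisc D r g v ≤ ((k + 1 : ℕ) - p / q : ℝ) * c := by
    have hr' : (0 : ℝ) < r := by exact_mod_cast Nat.pos_of_ne_zero hr
    have hq' : (0 : ℝ) < q := by exact_mod_cast hq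
    have h6 : (formOrd D r g v : ℝ) / r ≤ ord v (z) - 1 + (k + 1 : ℕ) * c := by
      rw [div_le_iff₀ hr', mul_comm]
      exact_mod_cast h5
    have h7 : (p : ℝ) / q * c ≤ -ord v (z) := by
      rw [div_mul_eq_mul_div, div_le_iff₀ hq']
      have h8 : (p : ℤ) * c ≤ -ord v (z) * q := by
        push_cast at h1
        nlinarith [Nat.cast_nonneg (α := ℤ) q]
      exact_mod_cast h8
    unfold logDisc
    linarith [sub_mul ((k + 1 : ℕ) : ℝ) (p / q) c]
  have hc1 : 0 < c := by omega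
  exact (iInf_le_of_le v (iInf_le_of_le hdiv (iInf_le _ hvc))).trans
    (core_final hc1 hA (vol_le O y e he hvc.1 c hc1 hyc))

theorem core {k : ℕ} {R O ι : Type} (L : Type) [Fintype ι] [CommRing R] [IsDomain R]
    [IsIntegrallyClosed R] [Algebra ℂ R] [Algebra.FiniteType ℂ R]
    [Algebra (MvPolynomial (Fin (k + 1)) ℂ) R] [FaithfulSMul (MvPolynomial (Fin (k + 1)) ℂ) R]
    [Module.Finite (MvPolynomial (Fin (k + 1)) ℂ) R] [Algebra R K] [IsFractionRing R K]
    [IsScalarTower ℂ R K] [Field L] [Algebra ℂ L] [Algebra (MvPolynomial (Fin (k + 1)) ℂ) L]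
    [IsScalarTower ℂ (MvPolynomial (Fin (k + 1)) ℂ) L]
    [IsFractionRing (MvPolynomial (Fin (k + 1)) ℂ) L] [Algebra L K] [IsScalarTower ℂ L K]
    [Algebra (MvPolynomial (Fin (k + 1)) ℂ) K] [IsScalarTower ℂ (MvPolynomial (Fin (k + 1)) ℂ) K]
    [IsScalarTower (MvPolynomial (Fin (k + 1)) ℂ) L K]
    [IsScalarTower (MvPolynomial (Fin (k + 1)) ℂ) R K]
    (m : Ideal R) [m.IsMaximal] [CommRing O] [IsLocalRing O] [IsDomain O] [IsNoetherianRing O]
    [IsIntegrallyClosed O] [Algebra ℂ O] [Algebra R O] [IsLocalization.AtPrime O m] [Algebra O K]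
    [IsScalarTower ℂ O K] [IsFractionRing O K] [IsScalarTower R O K] (y : Fin (k + 1) → O)
    (hy : ∀ i, y i = algebraMap R O (algebraMap (MvPolynomial (Fin (k + 1)) ℂ) R (X i)))
    {j : ℕ} (hred : IsLocalRing.maximalIdeal O ^ (j + 1) =
      Ideal.span (Set.range y) * IsLocalRing.maximalIdeal O ^ j)
    (e : ℕ) (he : Module.length O (O ⧸ Ideal.span (Set.range y)) = e)
    (φ : ι → R →ₗ[MvPolynomial (Fin (k + 1)) ℂ] MvPolynomial (Fin (k + 1)) ℂ)
    (hφ : ∀ a : R, (∀ i, constantCoeff (φ i a) = 0) → algebraMap R O a ∈ Ideal.span (Set.range y))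
    (D : Fin (k + 1) → Derivation ℂ K K) (hD : LinearIndependent K D) (r : ℕ) (g : K)
    (hg : Generates O D r g) (b : O) (hb : b ∉ Ideal.span (Set.range y)) (p q : ℕ) (hq : 0 < q)
    (hbp : b ^ q ∈ IsLocalRing.maximalIdeal O ^ p) :
    nvol O D r g ≤ e * ENNReal.ofReal ((k + 1 : ℕ) - p / q) ^ (k + 1) := by
  obtain ⟨hr, hg0, hgen⟩ := hg
  have _ : FiniteDimensional L K := findim' (S := MvPolynomial (Fin (k + 1)) ℂ) (R := R) L
  obtain ⟨Y, hY⟩ : ∃ Y : Fin (k + 1) → K,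
      ∀ i, Y i = algebraMap (MvPolynomial (Fin (k + 1)) ℂ) K (X i) := ⟨_, fun _ => rfl⟩
  have hYy : ∀ i, algebraMap O K (y i) = Y i := fun i => by
    rw [hy, hY, ← IsScalarTower.algebraMap_apply, ← IsScalarTower.algebraMap_apply]
  have hae : ∀ P : MvPolynomial (Fin (k + 1)) ℂ, algebraMap _ K P = aeval Y P := by
    intro P
    have : IsScalarTower.toAlgHom ℂ (MvPolynomial (Fin (k + 1)) ℂ) K = aeval Y :=
      MvPolynomial.algHom_ext fun i => by simp [hY]
    exact DFunLike.congr_fun this P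
  have hinj : Function.Injective (algebraMap (MvPolynomial (Fin (k + 1)) ℂ) K) := by
    rw [IsScalarTower.algebraMap_eq _ L K]
    exact (algebraMap L K).injective.comp (IsFractionRing.injective _ L)
  have hJ : jac D Y ≠ 0 := by
    refine jac_ne D hD Y fun x => ?_
    have h1 : IsAlgebraic (MvPolynomial (Fin (k + 1)) ℂ) x :=
      (IsFractionRing.isAlgebraic_iff _ L K).2 (Algebra.IsAlgebraic.isAlgebraic x)
    let f : MvPolynomial (Fin (k + 1)) ℂ →+* Algebra.adjoin ℂ (Set.range Y) :=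
      (algebraMap _ K).codRestrict (Algebra.adjoin ℂ (Set.range Y)) fun P => by
        rw [hae, Algebra.adjoin_range_eq_range_aeval]
        exact ⟨P, rfl⟩
    exact h1.ringHom_of_comp_eq f (RingHom.id K)
      (fun a c h => hinj (congrArg Subtype.val h)) (RingHom.ext fun _ => rfl)
  have hY0 : Y 0 ≠ 0 := by
    rw [hY]
    exact (map_ne_zero_iff _ hinj).2 (X_ne_zero _)
  choose z hz using fun i => exists_z (K := K) L (φ i)
  have hzO : ∀ i, (z i * jac D Y) ^ r / g ∈ (algebraMap O K).range := by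
    intro i
    by_contra hn
    obtain ⟨v, hv, h1⟩ := exists_primeDiv O _ hn
    have hv' : PrimeDiv R v := hv.of_loc O m.primeCompl
    obtain ⟨f, hf, hf0, hle⟩ := codiff_le' L Y hY D hJ (z i) (fun a => ⟨_, hz i a⟩) hv'
    have h2 : sInf (jset D v) ≤ ord v (jac D f) := csInf_le (jset_bdd D hv') ⟨f, hf, hf0, rfl⟩
    have h3 := hgen v hv
    unfold formOrd at h3
    have h4 : v (jac D f ^ r) ≤ v g := by
      rw [← ord_le_iff v hg0 (pow_ne_zero _ hf0), ord_pow]
      nlinarith [Nat.cast_nonneg (α := ℤ) r]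
    rw [v.map_div, one_lt_div₀ (zero_lt_iff.2 (v.ne_zero_iff.2 hg0)), v.map_pow] at h1
    rw [v.map_pow] at h4
    exact absurd ((pow_le_pow_left' hle r).trans h4) (not_le.2 h1)
  obtain ⟨E, hE, hE1, hE2⟩ := exists_family L Y (fun i => by
    rw [hY, ← IsScalarTower.algebraMap_apply]) D hJ
  have hR : ∀ v ∈ E, Over R v := by
    intro v hv a
    obtain ⟨h1, h2, h3, -⟩ := hE1 v hv
    refine core_int (S := MvPolynomial (Fin (k + 1)) ℂ) (fun P => ?_)
      (Algebra.IsIntegral.isIntegral a).algebraMap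
    rw [hae]
    exact f_aeval_le h1.1 Y (fun i => (h2 i).trans h3.le) P
  have hmul : ∀ v ∈ E, ∀ a ∈ Ideal.span (Set.range fun i =>
      algebraMap (MvPolynomial (Fin (k + 1)) ℂ) R (X i)), v (algebraMap R K a) < 1 := by
    intro v hv a ha
    obtain ⟨c, rfl⟩ := Ideal.mem_span_range_iff_exists_fun.1 ha
    rw [map_sum]
    refine v.map_sum_lt one_ne_zero fun i _ => ?_
    rw [map_mul, v.map_mul, ← IsScalarTower.algebraMap_apply, ← hY]
    exact (mul_le_of_le_one_left' (hR v hv _)).trans_lt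
      (((hE1 v hv).2.1 i).trans_lt (hE1 v hv).2.2.1)
  have hQ : Ideal.span (Set.range y) = (Ideal.span (Set.range fun i =>
      algebraMap (MvPolynomial (Fin (k + 1)) ℂ) R (X i))).map (algebraMap R O) := by
    rw [Ideal.map_span, ← Set.range_comp, funext hy]
    rfl
  obtain ⟨τ, hτ, hN⟩ := core_cen m hE hR hmul (j := j)
    (by rw [hred, ← hQ]; exact Ideal.mul_le_left) z
  obtain ⟨b₀, s, rfl⟩ := IsLocalization.exists_mk'_eq m.primeCompl b
  have hb1 : algebraMap R O (τ * b₀) ∉ Ideal.span (Set.range y) := by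
    intro h
    rw [map_mul, Ideal.unit_mul_mem_iff_mem _ (IsLocalization.map_units O
      (⟨τ, hτ⟩ : m.primeCompl))] at h
    exact hb (by
      rw [IsLocalization.mk'_eq_mul_mk'_one]
      exact Ideal.mul_mem_right _ _ h)
  obtain ⟨i, hi⟩ : ∃ i, constantCoeff (φ i (τ * b₀)) ≠ 0 := by
    by_contra h
    push Not at h
    exact hb1 (hφ _ h)
  obtain ⟨v, hv, hvx⟩ : ∃ v ∈ E, 1 ≤ v (z i * algebraMap R K (τ * b₀)) := by
    by_contra h
    push Not at h
    exact hi (hE2 _ h _ (hz i _))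
  have hvc : Centered O v := by
    by_contra hn
    have h1 := hN v hv i hn
    have e1 : z i * algebraMap R K (τ * b₀) =
        algebraMap R K τ * z i * algebraMap R K b₀ := by
      rw [map_mul]
      ring
    rw [e1, v.map_mul] at hvx
    exact absurd ((mul_le_of_le_one_right' (hR v hv _)).trans_lt h1) (not_lt.2 hvx)
  obtain ⟨hdiv, hle, hlt, hjac⟩ := hE1 v hv
  refine core_num y Y hYy hY0 hred e he D hJ hr hg0 (hzO i) (b := algebraMap R O (τ * b₀)) hq ?_
    hvc hdiv hle hlt hjac (by rwa [← IsScalarTower.algebraMap_apply])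
  rw [map_mul, ← IsLocalization.mk'_spec O b₀ s, mul_pow, mul_pow]
  exact Ideal.mul_mem_left _ _ (Ideal.mul_mem_right _ _ hbp)

end Vale.Agent.P282
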