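import Mathlib

/-! Divisorial valuations, log discrepancy and normalized volume of a germ. -/

open scoped ENNReal WithZero
open WithZero Filter

noncomputable section

namespace Vale.Agent.P282

variable {K : Type} [Field K] [Algebra ℂ K] {n : ℕ}

/-- The additive value `v(x)` of a multiplicatively written valuation. -/
def ord (v : Valuation K ℤᵐ⁰) (x : K) : ℤ := -WithZero.log (v x)

/-- A discrete valuation of `K`, trivial on constants, with value group `ℤ`. -/
def IsNormalized (v : Valuation K ℤᵐ⁰) : Prop :=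
  (∀ c : ℂ, c ≠ 0 → v (algebraMap ℂ K c) = 1) ∧ ∃ u : K, v u = exp (-1)

/-- The residue field has transcendence degree at least `n - 1`. -/
def IsDivisorial (n : ℕ) (v : Valuation K ℤᵐ⁰) : Prop :=
  IsNormalized v ∧ ∃ t : Fin (n - 1) → K, ∀ P : MvPolynomial (Fin (n - 1)) ℂ, P ≠ 0 →
    v (MvPolynomial.aeval t P) = 1

/-- `df₁ ∧ ⋯ ∧ dfₙ = jac D f • ω`, where `ω` is the `n`-form dual to the basis `D`. -/
def jac (D : Fin n → Derivation ℂ K K) (f : Fin n → K) : K :=
  (Matrix.of fun i j => D i (f j)).det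

/-- The values of the Jacobians of `n` functions regular along `v`. -/
def jset (D : Fin n → Derivation ℂ K K) (v : Valuation K ℤᵐ⁰) : Set ℤ :=
  {k | ∃ f : Fin n → K, (∀ i, v (f i) ≤ 1) ∧ jac D f ≠ 0 ∧ ord v (jac D f) = k}

/-- The order of vanishing along `v` of the pluricanonical form `g • ω ^ r`. -/
def formOrd (D : Fin n → Derivation ℂ K K) (r : ℕ) (g : K) (v : Valuation K ℤᵐ⁰) : ℤ :=
  ord v g - r * sInf (jset D v)

/-- The log discrepancy, when `g • ω ^ r` generates `r K_X`. -/
def logDisc (D : Fin n → Derivation ℂ K K) (r : ℕ) (g : K) (v : Valuation K ℤᵐ⁰) : ℝ :=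
  1 + (formOrd D r g v : ℝ) / r

variable (O : Type) [CommRing O] [Algebra O K]

/-- The valuation ring contains `O`. -/
def Over (v : Valuation K ℤᵐ⁰) : Prop := ∀ a : O, v (algebraMap O K a) ≤ 1

/-- The valuation ring is a localization of `O`: a prime divisor of the germ. -/
def PrimeDiv (v : Valuation K ℤᵐ⁰) : Prop :=
  IsNormalized v ∧ Over O v ∧ ∀ x : K, v x ≤ 1 →
    ∃ a b : O, v (algebraMap O K b) = 1 ∧ x * algebraMap O K b = algebraMap O K a

/-- The form `g • ω ^ r` has no zero and no pole along the prime divisors of the germ. -/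
def Generates (D : Fin n → Derivation ℂ K K) (r : ℕ) (g : K) : Prop :=
  r ≠ 0 ∧ g ≠ 0 ∧ ∀ v, PrimeDiv O v → formOrd D r g v = 0

/-- All log discrepancies over the germ are positive. -/
def IsKlt (D : Fin n → Derivation ℂ K K) (r : ℕ) (g : K) : Prop :=
  Generates O D r g ∧ ∀ v, IsDivisorial n v → Over O v → 0 < logDisc D r g v

/-- The valuation is centered at the closed point. -/
def Centered (v : Valuation K ℤᵐ⁰) : Prop :=
  Over O v ∧ ∀ a : O, ¬IsUnit a → v (algebraMap O K a) < 1

/-- The valuation ideal of elements of value at least `t`. -/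
def vIdeal (v : Valuation K ℤᵐ⁰) (t : ℕ) : Ideal O :=
  Ideal.span {a | v (algebraMap O K a) ≤ exp (-(t : ℤ))}

/-- The volume of a valuation. -/
def vol (n : ℕ) (v : Valuation K ℤᵐ⁰) : ℝ≥0∞ :=
  limsup (fun t : ℕ => (n.factorial : ℝ≥0∞) * (Module.length O (O ⧸ vIdeal O v t) : ℝ≥0∞) /
    (t : ℝ≥0∞) ^ n) atTop

/-- The normalized volume, as an infimum over divisorial valuations. -/
def nvol (D : Fin n → Derivation ℂ K K) (r : ℕ) (g : K) : ℝ≥0∞ :=
  ⨅ (v : Valuation K ℤᵐ⁰) (_ : IsDivisorial n v) (_ : Centered O v),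
    ENNReal.ofReal (logDisc D r g v) ^ n * vol O n v

end Vale.Agent.P282
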