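import Vale.Agent.P282.Defs

/-! Gorenstein local rings of dimension `n`. -/

namespace Vale.Agent.P282

/-- Every system of `n` parameters is a regular sequence and generates an irreducible ideal. -/
def IsGorenstein (O : Type) [CommRing O] [IsLocalRing O] (n : ℕ) : Prop :=
  ∀ y : Fin n → O, (Ideal.span (Set.range y)).radical = IsLocalRing.maximalIdeal O →
    RingTheory.Sequence.IsRegular O (List.ofFn y) ∧ InfIrred (Ideal.span (Set.range y))

end Vale.Agent.P282
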