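import Vale.Agent.P282.Defs

/-! The volume bound. -/

open scoped ENNReal WithZero
open WithZero Filter

noncomputable section

namespace Vale.Agent.P282

set_option linter.unusedSectionVars false

variable {K : Type} [Field K] [Algebra ℂ K] {n : ℕ}

theorem mem_vIdeal (O : Type) [CommRing O] [Algebra O K] {v : Valuation K ℤᵐ⁰} (hv : Over O v)
    (t : ℕ) (a : O) : a ∈ vIdeal O v t ↔ v (algebraMap O K a) ≤ exp (-(t : ℤ)) := by
  refine ⟨fun h => ?_, fun h => Ideal.subset_span h⟩
  induction h using Submodule.span_induction with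
  | mem x hx => exact hx
  | zero => simp
  | add x y _ _ hx hy => exact map_add (algebraMap O K) x y ▸ v.map_add_le hx hy
  | smul r x _ hx =>
    rw [smul_eq_mul, map_mul, map_mul]
    exact (mul_le_mul' (hv r) hx).trans_eq (one_mul _)

theorem pow_le_vIdeal (O : Type) [CommRing O] [Algebra O K] {v : Valuation K ℤᵐ⁰} (hv : Over O v)
    {I : Ideal O} {c : ℕ} (h : I ≤ vIdeal O v c) (j : ℕ) : I ^ j ≤ vIdeal O v (c * j) := by
  induction j with
  | zero => exact fun a _ => (mem_vIdeal O hv _ a).2 (by simpa using hv a)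
  | succ j ih =>
    rw [pow_succ]
    refine Ideal.mul_le.2 fun a ha b hb => (mem_vIdeal O hv _ _).2 ?_
    rw [map_mul, map_mul]
    refine (mul_le_mul' ((mem_vIdeal O hv _ _).1 (ih ha)) ((mem_vIdeal O hv _ _).1 (h hb))).trans_eq ?_
    rw [← exp_add]
    congr 1
    push_cast
    ring

/-- The colength. -/
def e_L {O : Type} [CommRing O] (J : Ideal O) : ℕ∞ := Module.length O (O ⧸ J)

theorem e_anti {O : Type} [CommRing O] {J J' : Ideal O} (h : J ≤ J') : e_L J' ≤ e_L J :=
  Module.length_le_of_surjective (Submodule.factor h) (Submodule.factor_surjective h)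

theorem e_one {O : Type} [CommRing O] {Q J : Ideal O} {x : O} (h : ∀ q ∈ Q, q * x ∈ J) :
    e_L J ≤ e_L Q + e_L (J ⊔ Ideal.span {x}) := by
  let f : (O ⧸ Q) →ₗ[O] O ⧸ J := Submodule.mapQ Q J (LinearMap.toSpanSingleton O O x) h
  let g : (O ⧸ J) →ₗ[O] O ⧸ (J ⊔ Ideal.span {x}) := Submodule.factor le_sup_left
  have e := Module.length_eq_add_of_exact (LinearMap.ker g).subtype g (Submodule.subtype_injective _)
    (Submodule.factor_surjective _) (LinearMap.exact_subtype_ker_map g)
  have h1 : LinearMap.ker g ≤ LinearMap.range f := by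
    intro z hz
    obtain ⟨a, rfl⟩ := Submodule.Quotient.mk_surjective J z
    have h2 : a ∈ J ⊔ Ideal.span {x} := (Submodule.Quotient.mk_eq_zero _).1 hz
    obtain ⟨b, hb, c, hc, rfl⟩ := Submodule.mem_sup.1 h2
    obtain ⟨r, rfl⟩ := Ideal.mem_span_singleton'.1 hc
    refine ⟨Submodule.Quotient.mk r, (Submodule.Quotient.eq _).2 ?_⟩
    simpa using hb
  refine e.trans_le (add_le_add_left ?_ _)
  exact (Module.length_le_of_injective (Submodule.inclusion h1)
    (Submodule.inclusion_injective h1)).trans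
    (Module.length_le_of_surjective f.rangeRestrict f.surjective_rangeRestrict)

theorem e_fin {O ι : Type} [CommRing O] {Q J : Ideal O} (m : ι → O) (s : Finset ι)
    (h : ∀ i, ∀ q ∈ Q, q * m i ∈ J) :
    e_L J ≤ s.card * e_L Q + e_L (J ⊔ Ideal.span (m '' s)) := by
  classical
  induction s using Finset.induction_on with
  | empty => simp
  | insert i s hi ih =>
    have h1 := e_one (Q := Q) (J := J ⊔ Ideal.span (m '' s)) (x := m i)
      fun q hq => Ideal.mem_sup_left (h i q hq)
    rw [Finset.card_insert_of_notMem hi, Finset.coe_insert, Set.image_insert_eq, Ideal.span_insert,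
      sup_comm (Ideal.span {m i}), ← sup_assoc, Nat.cast_succ, add_mul, one_mul, add_assoc]
    exact ih.trans (add_le_add_right h1 _)

theorem e_mem {O : Type} [CommRing O] (y : Fin n → O) (m : Multiset (Fin n)) :
    (m.map y).prod ∈ Ideal.span (Set.range y) ^ m.card := by
  induction m using Multiset.induction_on with
  | empty => simp
  | cons j m ih =>
    rw [Multiset.map_cons, Multiset.prod_cons, Multiset.card_cons, pow_succ']
    exact Ideal.mul_mem_mul (Ideal.subset_span ⟨j, rfl⟩) ih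

theorem e_span {O : Type} [CommRing O] (y : Fin n → O) (i : ℕ) : Ideal.span (Set.range y) ^ i ≤
    Ideal.span (Set.range fun σ : Sym (Fin n) i => (σ.1.map y).prod) := by
  induction i with
  | zero =>
    rw [pow_zero, Ideal.one_eq_top, top_le_iff, Ideal.eq_top_iff_one]
    exact Ideal.subset_span ⟨Sym.nil, rfl⟩
  | succ i ih =>
    rw [pow_succ']
    refine (Ideal.mul_mono_right ih).trans ?_
    rw [Ideal.span_mul_span']
    refine Ideal.span_mono ?_
    rintro _ ⟨_, ⟨j, rfl⟩, _, ⟨σ, rfl⟩, rfl⟩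
    exact ⟨j ::ₛ σ, by simp [Sym.cons]⟩

theorem e_step {O : Type} [CommRing O] (y : Fin n → O) (i : ℕ) :
    e_L (Ideal.span (Set.range y) ^ (i + 1)) ≤ ((n + i - 1).choose i : ℕ) *
      e_L (Ideal.span (Set.range y)) + e_L (Ideal.span (Set.range y) ^ i) := by
  have h := e_fin (Q := Ideal.span (Set.range y)) (J := Ideal.span (Set.range y) ^ (i + 1))
    (fun σ : Sym (Fin n) i => (σ.1.map y).prod) Finset.univ fun σ q hq => by
      rw [pow_succ']
      exact Ideal.mul_mem_mul hq (by simpa only [σ.2] using e_mem y σ.1)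
  rw [Finset.card_univ, Sym.card_sym_eq_choose, Fintype.card_fin, Finset.coe_univ,
    Set.image_univ] at h
  exact h.trans (add_le_add_right (e_anti ((e_span y i).trans le_sup_right)) _)

/-- Adding one generator `x` with `Q * x ≤ J` lowers the colength by at most `length (O ⧸ Q)`
(`Module.length_eq_add_of_exact`, `Module.length_le_of_surjective`); `Q ^ i` is spanned by the
monomials of degree `i`, there are `(n + i - 1).choose i` of them (`Sym.card_sym_eq_choose`), and
these numbers add up to `(n + k).choose n` for `i ≤ k`. -/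
theorem length_pow_le (O : Type) [CommRing O] (y : Fin n → O) (k : ℕ) :
    Module.length O (O ⧸ Ideal.span (Set.range y) ^ (k + 1)) ≤
      ((n + k).choose n : ℕ∞) * Module.length O (O ⧸ Ideal.span (Set.range y)) := by
  show e_L _ ≤ _ * e_L _
  induction k with
  | zero => simp
  | succ k ih =>
    refine (e_step y (k + 1)).trans ((add_le_add_right ih _).trans_eq ?_)
    rw [← add_mul, ← Nat.cast_add]
    congr 2
    rw [Nat.choose_symm_add, Nat.choose_symm_add, ← add_assoc, Nat.add_sub_cancel,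
      Nat.choose_succ_succ', add_comm]

theorem e_real (n e c t : ℕ) (hc : 0 < c) (ht : 0 < t) :
    ((n.factorial * ((n + t / c).choose n * e) : ℕ) : ℝ) / (t : ℝ) ^ n ≤
      e * ((n : ℝ) / t + 1 / c) ^ n := by
  have h1 : n.factorial * ((n + t / c).choose n * e) ≤ e * (n + t / c) ^ n := by
    rw [← mul_assoc, ← Nat.descFactorial_eq_factorial_mul_choose, mul_comm]
    exact Nat.mul_le_mul_left _ (Nat.descFactorial_le_pow _ _)
  have h2 : ((n.factorial * ((n + t / c).choose n * e) : ℕ) : ℝ) ≤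
      e * ((n : ℝ) + (t / c : ℕ)) ^ n := by exact_mod_cast h1
  have t0 : (0 : ℝ) < t := Nat.cast_pos.2 ht
  have h3 : ((n : ℝ) + (t / c : ℕ)) / t ≤ (n : ℝ) / t + 1 / c := by
    rw [add_div]
    refine add_le_add_right ((div_le_div_of_nonneg_right Nat.cast_div_le t0.le).trans_eq ?_) _
    field_simp
  refine (div_le_div_of_nonneg_right h2 (by positivity)).trans ?_
  rw [mul_div_assoc, ← div_pow]
  gcongr

/-- With `k = t / c`, `Q ^ (k + 1) ≤ vIdeal O v t`, and
`n ! * (n + k).choose n ≤ (n + k) ^ n` (`Nat.descFactorial_le_pow`), while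
`((n + t / c) / t) ^ n` tends to `(1 / c) ^ n`. -/
theorem vol_le (O : Type) [CommRing O] [Algebra O K] (y : Fin n → O) (e : ℕ)
    (he : Module.length O (O ⧸ Ideal.span (Set.range y)) = e) {v : Valuation K ℤᵐ⁰}
    (hv : Over O v) (c : ℕ) (hc : 0 < c)
    (hy : ∀ i, v (algebraMap O K (y i)) ≤ exp (-(c : ℤ))) :
    vol O n v ≤ (e : ℝ≥0∞) / (c : ℝ≥0∞) ^ n := by
  have hQ : Ideal.span (Set.range y) ≤ vIdeal O v c :=
    Ideal.span_mono (by rintro _ ⟨i, rfl⟩; exact hy i)
  have h1 : ∀ t : ℕ, Module.length O (O ⧸ vIdeal O v t) ≤ (((n + t / c).choose n * e : ℕ) : ℕ∞) := by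
    intro t
    have h2 : vIdeal O v (c * (t / c + 1)) ≤ vIdeal O v t := by
      refine Ideal.span_mono fun a ha => le_trans ha (exp_le_exp.2 (neg_le_neg ?_))
      exact_mod_cast (Nat.lt_mul_div_succ t hc).le
    refine (e_anti ((pow_le_vIdeal O hv hQ _).trans h2)).trans
      ((length_pow_le O y (t / c)).trans_eq ?_)
    rw [he, Nat.cast_mul]
  have h3 : Tendsto (fun t : ℕ => ENNReal.ofReal (e * ((n : ℝ) / t + 1 / c) ^ n)) atTop
      (nhds (ENNReal.ofReal (e * (0 + 1 / (c : ℝ)) ^ n))) :=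
    ENNReal.tendsto_ofReal ((((tendsto_const_div_atTop_nhds_zero_nat (n : ℝ)).add_const
      _).pow n).const_mul _)
  have c0 : (0 : ℝ) < c := Nat.cast_pos.2 hc
  have e1 : ENNReal.ofReal (e * (0 + 1 / (c : ℝ)) ^ n) = (e : ℝ≥0∞) / (c : ℝ≥0∞) ^ n := by
    rw [zero_add, one_div, inv_pow, ← div_eq_mul_inv, ENNReal.ofReal_div_of_pos (by positivity),
      ENNReal.ofReal_pow c0.le, ENNReal.ofReal_natCast, ENNReal.ofReal_natCast]
  rw [← e1, ← h3.limsup_eq]
  refine limsup_le_limsup ((eventually_gt_atTop 0).mono fun t ht => ?_)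
  have t0 : (0 : ℝ) < t := Nat.cast_pos.2 ht
  refine le_trans ?_ (ENNReal.ofReal_le_ofReal (e_real n e c t hc ht))
  rw [ENNReal.ofReal_div_of_pos (by positivity), ENNReal.ofReal_pow t0.le, ENNReal.ofReal_natCast,
    ENNReal.ofReal_natCast, Nat.cast_mul]
  refine ENNReal.div_le_div_right (mul_le_mul_right ?_ _) _
  exact (ENat.toENNReal_le.2 (h1 t)).trans_eq (ENat.toENNReal_coe _)

end Vale.Agent.P282
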