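import Vale.Agent.P282.A
import Vale.Agent.P282.C
import Vale.Agent.P282.G0

/-! The codifferent and Jacobians along prime divisors. -/

open scoped ENNReal WithZero
open WithZero Filter

noncomputable section

namespace Vale.Agent.P282

set_option linter.unusedSectionVars false

variable {K : Type} [Field K] [Algebra ℂ K] {n : ℕ}

/-- The centre of a valuation. -/
def g_ctr {R : Type} [CommRing R] [Algebra R K] {v : Valuation K ℤᵐ⁰} (hv : Over R v) :
    Ideal R where
  carrier := {a | v (algebraMap R K a) < 1}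
  add_mem' {a b} ha hb := by
    change v (algebraMap R K (a + b)) < 1
    rw [map_add]
    exact v.map_add_lt ha hb
  zero_mem' := by
    change v (algebraMap R K 0) < 1
    rw [map_zero, map_zero]
    exact zero_lt_one
  smul_mem' c a ha := by
    change v (algebraMap R K (c * a)) < 1
    rw [map_mul, map_mul]
    exact (mul_le_of_le_one_left' (hv c)).trans_lt ha

theorem g_prime {R : Type} [CommRing R] [Algebra R K] {v : Valuation K ℤᵐ⁰} (hv : Over R v) :
    (g_ctr hv).IsPrime := by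
  refine ⟨(Ideal.ne_top_iff_one _).2 fun h => ?_, fun {a b} h => ?_⟩
  · change v (algebraMap R K 1) < 1 at h
    rw [map_one, map_one] at h
    exact lt_irrefl _ h
  · by_contra k
    rw [not_or] at k
    have h1 : v (algebraMap R K a) = 1 := le_antisymm (hv a) (not_lt.1 k.1)
    have h2 : v (algebraMap R K b) = 1 := le_antisymm (hv b) (not_lt.1 k.2)
    change v (algebraMap R K (a * b)) < 1 at h
    rw [map_mul, map_mul, h1, h2, mul_one] at h
    exact lt_irrefl _ h

theorem g_exp : (exp (-1) : ℤᵐ⁰) < 1 := by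
  rw [← exp_zero, exp_lt_exp]
  norm_num

theorem g_le {x : ℤᵐ⁰} (h : x < 1) : x ≤ exp (-1) := by
  rcases eq_or_ne x 0 with rfl | h0
  · exact zero_le
  · rw [← exp_zero, ← log_lt_iff_lt_exp h0] at h
    exact le_exp_of_log_le (by omega)

theorem g_nat (v : Valuation K ℤᵐ⁰) (e : ℕ) : v (e : K) ≤ 1 := by
  induction e with
  | zero => simp
  | succ e ih =>
    rw [Nat.cast_succ]
    exact v.map_add_le ih v.map_one.le

/-- Let `γ` bound `v (D i x)` for the finitely many generators `x`; then it bounds `v (D i a)` on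
`R` (`Algebra.adjoin_induction`) and on the valuation ring (quotient rule); `val_jac_le`. -/
theorem jset_bdd {R : Type} [CommRing R] [Algebra ℂ R] [Algebra R K] [IsScalarTower ℂ R K]
    [Algebra.FiniteType ℂ R] (D : Fin n → Derivation ℂ K K) {v : Valuation K ℤᵐ⁰}
    (hv : PrimeDiv R v) : BddBelow (jset D v) := by
  obtain ⟨s, hs⟩ := (Algebra.FiniteType.out : (⊤ : Subalgebra ℂ R).FG)
  obtain ⟨γ₀, h0⟩ := Finite.bddAbove_range fun q : Fin n × s => v (D q.1 (algebraMap R K q.2))
  have hγ : max γ₀ 1 ≠ 0 := (zero_lt_one.trans_le (le_max_right _ _)).ne'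
  have hm : ∀ {x y : K}, v x ≤ 1 → v y ≤ max γ₀ 1 → v (x • y) ≤ max γ₀ 1 := fun hx hy => by
    rw [smul_eq_mul, map_mul]
    exact (mul_le_of_le_one_left' hx).trans hy
  have h1 : ∀ i (a : R), v (D i (algebraMap R K a)) ≤ max γ₀ 1 := fun i a => by
    have ha : a ∈ Algebra.adjoin ℂ (s : Set R) := hs ▸ Algebra.mem_top
    induction ha using Algebra.adjoin_induction with
    | mem x hx => exact (h0 ⟨(i, ⟨x, hx⟩), rfl⟩).trans (le_max_left _ _)
    | algebraMap r =>
      rw [← IsScalarTower.algebraMap_apply, Derivation.map_algebraMap, map_zero]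
      exact zero_le
    | add x y _ _ hx hy =>
      rw [map_add, map_add]
      exact v.map_add_le hx hy
    | mul x y _ _ hx hy =>
      rw [map_mul, Derivation.leibniz]
      exact v.map_add_le (hm (hv.2.1 x) hy) (hm (hv.2.1 y) hx)
  have h2 : ∀ i (x : K), v x ≤ 1 → v (D i x) ≤ max γ₀ 1 := fun i x hx => by
    obtain ⟨a, b, hb, e⟩ := hv.2.2 x hx
    have e1 : algebraMap R K b * D i x = D i (algebraMap R K a) - x • D i (algebraMap R K b) := by
      rw [← e, Derivation.leibniz, add_sub_cancel_left, smul_eq_mul]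
    have e2 := v.map_sub_le (h1 i a) (hm hx (h1 i b))
    rwa [← e1, map_mul, hb, one_mul] at e2
  refine ⟨-log (∏ _i : Fin n, max γ₀ 1), ?_⟩
  rintro k ⟨f, hf, hj, rfl⟩
  exact neg_le_neg ((log_le_log ((Valuation.ne_zero_iff v).2 hj)
    (Finset.prod_ne_zero_iff.2 fun _ _ => hγ)).2 (val_jac_le D f v _ fun i j => h2 i _ (hf j)))

/-- The centre `p = {a | v a < 1}` is a nonzero prime of `R`, `q = p.comap _` is nonzero
(integrality), pick a prime element `π ∈ q` (unique factorisation). Going down (flatness,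
`Ideal.exists_ideal_le_liesOver_of_le`) gives a prime `p' ≤ p` over `span {π}`; `p' = p`: for
`0 ≠ a ∈ p'`, `c ∈ p`, `v (c ^ N / a) ≤ 1`, so `c ^ N * b ∈ p'` with `v b = 1`. -/
theorem centre_prin {S R : Type} [CommRing S] [IsDomain S] [UniqueFactorizationMonoid S]
    [CommRing R] [IsDomain R] [Algebra S R] [Module.Free S R] [Module.Finite S R] [Algebra R K]
    [IsFractionRing R K] {v : Valuation K ℤᵐ⁰} (hv : PrimeDiv R v) :
    ∃ π : S, Prime π ∧ ∀ P : S, v (algebraMap R K (algebraMap S R P)) < 1 ↔ π ∣ P := by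
  have hp := g_prime hv.2.1
  obtain ⟨u, hu⟩ := hv.1.2
  obtain ⟨a₀, b₀, hb₀, e₀⟩ := hv.2.2 u (hu ▸ g_exp.le)
  have ha₀ : v (algebraMap R K a₀) = exp (-1) := by rw [← e₀, map_mul, hb₀, mul_one, hu]
  have hq : (g_ctr hv.2.1).comap (algebraMap S R) ≠ ⊥ :=
    Ideal.comap_ne_bot_of_integral_mem (x := a₀) (fun h => by
      rw [h, map_zero, map_zero] at ha₀
      exact exp_ne_zero ha₀.symm) (ha₀.trans_lt g_exp) (Algebra.IsIntegral.isIntegral a₀)
  obtain ⟨π, hπq, hπ⟩ := Ideal.IsPrime.exists_mem_prime_of_ne_bot inferInstance hq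
  have hs : (Ideal.span {π}).IsPrime := (Ideal.span_singleton_prime hπ.ne_zero).2 hπ
  obtain ⟨p', hle, hp', hlo⟩ := (g_ctr hv.2.1).exists_ideal_le_liesOver_of_le
    (p := Ideal.span {π}) (q := (g_ctr hv.2.1).under S)
    ((Ideal.span_singleton_le_iff_mem _).2 hπq)
  have hmem : ∀ P : S, algebraMap S R P ∈ p' ↔ π ∣ P := fun P => by
    rw [← Ideal.mem_span_singleton, hlo.over]
    rfl
  have ha : v (algebraMap R K (algebraMap S R π)) ≠ 0 := (Valuation.ne_zero_iff v).2 fun h =>
    hπ.ne_zero (FaithfulSMul.algebraMap_injective S R ((IsFractionRing.injective R K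
      (h.trans (map_zero _).symm)).trans (map_zero _).symm))
  refine ⟨π, hπ, fun P => ⟨fun h => (hmem P).1 ?_, fun h => hle ((hmem P).2 h)⟩⟩
  obtain ⟨N, hN⟩ := exists_pow_lt₀ h (Units.mk0 _ ha)
  obtain ⟨a, b, hb, e⟩ := hv.2.2 (algebraMap R K (algebraMap S R P) ^ N /
      algebraMap R K (algebraMap S R π)) (by
    rw [map_div₀, map_pow]
    exact div_le_one_of_le₀ hN.le zero_le)
  have e1 : algebraMap S R P ^ N * b = a * algebraMap S R π := IsFractionRing.injective R K (by
    rw [map_mul, map_mul, map_pow, ← e, div_mul_eq_mul_div,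
      div_mul_cancel₀ _ ((Valuation.ne_zero_iff v).1 ha)])
  have e2 : algebraMap S R P ^ N * b ∈ p' := e1 ▸ p'.mul_mem_left a ((hmem π).2 dvd_rfl)
  rcases hp'.mem_or_mem e2 with k | k
  · exact hp'.mem_of_pow_mem N k
  · exact absurd hb (ne_of_lt (hle k))

/-- Tame bound. Otherwise `v (z * π) ≥ 1`, so `(z * π)⁻¹ * a = w` with `a w : R`, `v a = 1`;
then `trace (a * t) = π * trace (z * w * t)` lies in `span {π}` for all `t`, and `mem_of_trace`
puts `a` into the centre. -/
theorem tame {S R : Type} (L : Type) [CommRing S] [IsDomain S] [Algebra ℂ S] [CommRing R]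
    [IsDomain R] [Algebra S R] [Module.Free S R] [Module.Finite S R] [Algebra R K]
    [IsFractionRing R K] [Field L] [Algebra S L] [IsFractionRing S L] [Algebra L K] [Algebra S K]
    [IsScalarTower S L K] [IsScalarTower S R K] {v : Valuation K ℤᵐ⁰} (hv : PrimeDiv R v) (π : S)
    (hπ0 : π ≠ 0) (hπ : v (algebraMap S K π) < 1) (z : K)
    (hz : ∀ a : R, ∃ P : S, Algebra.trace L K (z * algebraMap R K a) = algebraMap S L P) :
    v (z * algebraMap S K π) < 1 := by
  by_contra h
  have h1 : 1 ≤ v (z * algebraMap S K π) := not_lt.1 h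
  have h0 : z * algebraMap S K π ≠ 0 := (Valuation.ne_zero_iff v).1 (zero_lt_one.trans_le h1).ne'
  obtain ⟨w, a, ha, e⟩ := hv.2.2 (z * algebraMap S K π)⁻¹ (by
    rw [map_inv₀]
    exact inv_le_one_of_one_le₀ h1)
  have hp := g_prime hv.2.1
  refine absurd ha (ne_of_lt (mem_of_trace (S := S) (g_ctr hv.2.1) a fun t => ?_))
  obtain ⟨P, hP⟩ := hz (w * t)
  have e1 : algebraMap R K (a * t) = algebraMap S L π • (z * algebraMap R K (w * t)) := by
    rw [Algebra.smul_def, ← IsScalarTower.algebraMap_apply, map_mul, map_mul, ← e]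
    field_simp [left_ne_zero_of_mul h0, right_ne_zero_of_mul h0]
  have e2 : Algebra.trace S R (a * t) = P * π := IsFractionRing.injective S L (by
    rw [← trace_alg (K := K) L, e1, map_smul, hP, smul_eq_mul, map_mul, mul_comm])
  rw [e2]
  refine Ideal.mul_mem_left _ P ?_
  change v (algebraMap R K (algebraMap S R π)) < 1
  rwa [← IsScalarTower.algebraMap_apply]

/-- A prime polynomial does not divide one of its first derivatives (degree in one variable,
characteristic zero). -/
theorem exists_pderiv {π : MvPolynomial (Fin n) ℂ} (h : Prime π) :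
    ∃ i, ¬π ∣ MvPolynomial.pderiv i π := by
  classical
  by_contra hc
  have h1 : ∀ i, MvPolynomial.pderiv i π = 0 := fun i => by
    by_contra k
    obtain ⟨Q, hQ⟩ : π ∣ MvPolynomial.pderiv i π := by_contra fun j => hc ⟨i, j⟩
    have h2 := MvPolynomial.degreeOf_mul_eq (n := i) h.ne_zero (right_ne_zero_of_mul (hQ ▸ k))
    obtain ⟨m, hm, e⟩ := Finset.exists_mem_eq_sup _ (MvPolynomial.support_nonempty.2 k)
      fun m => m i
    rw [← hQ, MvPolynomial.degreeOf_eq_sup, e] at h2
    rw [MvPolynomial.mem_support_iff, MvPolynomial.coeff_pderiv] at hm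
    have h3 := MvPolynomial.monomial_le_degreeOf i
      (MvPolynomial.mem_support_iff.2 (left_ne_zero_of_mul hm))
    rw [Finsupp.add_apply, Finsupp.single_eq_same] at h3
    omega
  have h2 : π.totalDegree = 0 := (MvPolynomial.totalDegree_eq_zero_iff _ π).2 fun m hm x => by
    by_contra k
    have h3 := MvPolynomial.coeff_pderiv (i := x) π (m - Finsupp.single x 1)
    rw [h1, MvPolynomial.coeff_zero, tsub_add_cancel_of_le
      (Finsupp.single_le_iff.2 (Nat.one_le_iff_ne_zero.2 k))] at h3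
    exact mul_ne_zero (MvPolynomial.mem_support_iff.1 hm) (Nat.cast_add_one_ne_zero _) h3.symm
  have h3 := MvPolynomial.totalDegree_eq_zero_iff_eq_C.1 h2
  refine h.not_isUnit (h3 ▸ (IsUnit.mk0 _ fun k => h.ne_zero ?_).map MvPolynomial.C)
  rw [h3, k, map_zero]

/-- Write `π = u ^ e * c`, `v u = exp (-1)`, `v c = 1`; from
`δ π / π = e * δ u / u + δ c / c` one of `u`, `c` works. -/
theorem exists_der {v : Valuation K ℤᵐ⁰} (hv : IsNormalized v) (δ : Derivation ℂ K K) (π : K)
    (hπ0 : π ≠ 0) (hπ : v π ≤ 1) (hδ : v (δ π) = 1) :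
    ∃ f : K, v f ≤ 1 ∧ exp (-1) ≤ v (δ f * π) := by
  obtain ⟨u, hu⟩ := hv.2
  have hu0 : u ≠ 0 := (Valuation.ne_zero_iff v).1 (hu ▸ exp_ne_zero)
  have hu1 : v u ≤ 1 := hu ▸ g_exp.le
  have h0 : v π ≠ 0 := (Valuation.ne_zero_iff v).2 hπ0
  obtain ⟨e, he⟩ : ∃ e : ℕ, v π = v u ^ e := by
    have h1 : log (v π) ≤ 0 := (log_le_iff_le_exp h0).2 hπ
    refine ⟨(-log (v π)).toNat, ?_⟩
    rw [hu, ← exp_nsmul, nsmul_eq_mul, Int.toNat_of_nonneg (by omega), mul_neg_one, neg_neg,
      exp_log h0]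
  obtain ⟨c, hc⟩ : ∃ c, π = u ^ e * c := ⟨π / u ^ e, by field_simp⟩
  have hc1 : v c = 1 := by
    rw [hc, map_mul, map_pow] at he
    exact (mul_eq_left₀ (pow_ne_zero e ((Valuation.ne_zero_iff v).2 hu0))).1 he
  by_contra h
  have h1 : ∀ f, v f ≤ 1 → v (δ f * π) < exp (-1) := fun f hf => not_le.1 fun k => h ⟨f, hf, k⟩
  have e1 : u * δ (u ^ e) = e * u ^ e * δ u := by
    rw [Derivation.leibniz_pow, nsmul_eq_mul, smul_eq_mul]
    cases e with
    | zero => simp
    | succ e => rw [Nat.add_sub_cancel, pow_succ]; ring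
  have e2 : u * δ π * c = u * (δ c * π) + c * e * (δ u * π) := by
    rw [hc, Derivation.leibniz, smul_eq_mul, smul_eq_mul]
    linear_combination c * c * e1
  have h2 : v (u * (δ c * π)) < exp (-1) := by
    rw [map_mul]
    exact (mul_le_of_le_one_left' hu1).trans_lt (h1 c hc1.le)
  have h3 : v (c * e * (δ u * π)) < exp (-1) := by
    rw [map_mul, map_mul v c, hc1, one_mul]
    exact (mul_le_of_le_one_left' (g_nat v e)).trans_lt (h1 u hu1)
  have h4 := v.map_add_lt h2 h3
  rw [← e2, map_mul, map_mul, hu, hδ, hc1, mul_one, mul_one] at h4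
  exact lt_irrefl _ h4

/-- Take `π` from `centre_prin`, `i` from `exists_pderiv`, dual derivations `d` of `y`
(`exists_dual`, `dual_aeval`), `f₀` from `exists_der` for `d i`, and `f = update y i f₀`
(`jac_update`); `tame` gives `v (z * π) ≤ exp (-1) ≤ v (d i f₀ * π)`. -/
theorem codiff_le {R : Type} (L : Type) [CommRing R] [IsDomain R]
    [Algebra (MvPolynomial (Fin n) ℂ) R] [Module.Free (MvPolynomial (Fin n) ℂ) R]
    [Module.Finite (MvPolynomial (Fin n) ℂ) R] [Algebra R K] [IsFractionRing R K] [Field L]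
    [Algebra (MvPolynomial (Fin n) ℂ) L] [IsFractionRing (MvPolynomial (Fin n) ℂ) L] [Algebra L K]
    [Algebra (MvPolynomial (Fin n) ℂ) K] [IsScalarTower ℂ (MvPolynomial (Fin n) ℂ) K]
    [IsScalarTower (MvPolynomial (Fin n) ℂ) L K] [IsScalarTower (MvPolynomial (Fin n) ℂ) R K]
    (y : Fin n → K) (hy : ∀ i, y i = algebraMap (MvPolynomial (Fin n) ℂ) K (MvPolynomial.X i))
    (D : Fin n → Derivation ℂ K K) (hD : jac D y ≠ 0) (z : K)
    (hz : ∀ a : R, ∃ P : MvPolynomial (Fin n) ℂ,
      Algebra.trace L K (z * algebraMap R K a) = algebraMap _ L P)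
    {v : Valuation K ℤᵐ⁰} (hv : PrimeDiv R v) :
    ∃ f : Fin n → K, (∀ i, v (f i) ≤ 1) ∧ jac D f ≠ 0 ∧ v (z * jac D y) ≤ v (jac D f) := by
  obtain ⟨π, hπ, hc⟩ := centre_prin (S := MvPolynomial (Fin n) ℂ) hv
  simp only [← IsScalarTower.algebraMap_apply] at hc
  obtain ⟨i, hi⟩ := exists_pderiv hπ
  obtain ⟨d, hd, hj⟩ := exists_dual D y hD
  have ha : ∀ P, MvPolynomial.aeval y P = algebraMap (MvPolynomial (Fin n) ℂ) K P := fun P =>
    AlgHom.congr_fun (MvPolynomial.algHom_ext (g := IsScalarTower.toAlgHom ℂ _ K) fun j =>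
      (MvPolynomial.aeval_X y j).trans (hy j)) P
  have ho : ∀ P, v (algebraMap (MvPolynomial (Fin n) ℂ) K P) ≤ 1 := fun P => by
    rw [IsScalarTower.algebraMap_apply _ R K]
    exact hv.2.1 _
  have h0 : algebraMap (MvPolynomial (Fin n) ℂ) K π ≠ 0 := by
    rw [IsScalarTower.algebraMap_apply _ L K, map_ne_zero, map_ne_zero_iff _
      (IsFractionRing.injective (MvPolynomial (Fin n) ℂ) L)]
    exact hπ.ne_zero
  obtain ⟨f₀, hf, hf'⟩ := exists_der hv.1 (d i) _ h0 (ho π) (by
    rw [← ha, dual_aeval d y hd, ha]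
    exact le_antisymm (ho _) (not_lt.1 fun k => hi ((hc _).1 k)))
  have h1 := (g_le (tame L hv π hπ.ne_zero ((hc π).2 dvd_rfl) z hz)).trans hf'
  rw [map_mul, map_mul] at h1
  have h2 := le_of_mul_le_mul_right h1 (zero_lt_iff.2 ((Valuation.ne_zero_iff v).2 h0))
  have h3 : d i f₀ ≠ 0 := left_ne_zero_of_mul ((Valuation.ne_zero_iff v).1 (exp_pos.trans_le hf').ne')
  refine ⟨Function.update y i f₀, fun j => ?_, ?_, ?_⟩
  · rcases eq_or_ne j i with rfl | k
    · rwa [Function.update_self]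
    · rw [Function.update_of_ne k, hy]
      exact ho _
  · rw [hj, jac_update d y hd]
    exact mul_ne_zero hD h3
  · rw [hj (Function.update y i f₀), jac_update d y hd, map_mul, map_mul, mul_comm]
    exact mul_le_mul_right h2 _

end Vale.Agent.P282
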