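import Vale.Agent.P282.N4

/-! Shrinking reductions of the maximal ideal. -/

open scoped ENNReal WithZero
open WithZero Filter IsLocalRing

noncomputable section

namespace Vale.Agent.P282

set_option linter.unusedSectionVars false

variable {K : Type} [Field K] [Algebra ℂ K] {n : ℕ}

/-- Congruence of degree `t`. -/
def p1_Rel {O : Type} [CommRing O] (m J : Ideal O) (t : ℕ) (a b : O) : Prop :=
  a ∈ m ^ t ∧ b ∈ m ^ t ∧ ∀ z ∈ m, (a - b) * z ∈ J * m ^ t

theorem p1_mul {O : Type} [CommRing O] {m J : Ideal O} {s t : ℕ} {a b a' b' : O}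
    (h : p1_Rel m J s a b) (h' : p1_Rel m J t a' b') : p1_Rel m J (s + t) (a * a') (b * b') := by
  refine ⟨pow_add m s t ▸ Ideal.mul_mem_mul h.1 h'.1, pow_add m s t ▸ Ideal.mul_mem_mul h.2.1 h'.2.1,
    fun z hz => ?_⟩
  have e : (a * a' - b * b') * z = (a - b) * z * a' + (a' - b') * z * b := by ring
  rw [e]
  refine Ideal.add_mem _ ?_ ?_
  · rw [pow_add, ← mul_assoc]
    exact Ideal.mul_mem_mul (h.2.2 z hz) h'.1
  · rw [add_comm s t, pow_add, ← mul_assoc]
    exact Ideal.mul_mem_mul (h'.2.2 z hz) h.2.1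

theorem p1_one {O : Type} [CommRing O] (m J : Ideal O) : p1_Rel m J 0 1 1 :=
  ⟨by simp, by simp, fun z _ => by simp⟩

theorem p1_pow {O : Type} [CommRing O] {m J : Ideal O} {a b : O} (h : p1_Rel m J 1 a b) (d : ℕ) :
    p1_Rel m J d (a ^ d) (b ^ d) := by
  induction d with
  | zero => simpa using p1_one m J
  | succ d ih => rw [pow_succ a, pow_succ b]; exact p1_mul ih h

theorem p1_prod {O ι : Type} [CommRing O] {m J : Ideal O} {a b : ι → O}
    (h : ∀ i, p1_Rel m J 1 (a i) (b i)) (d : ι → ℕ) (s : Finset ι) :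
    p1_Rel m J (∑ i ∈ s, d i) (∏ i ∈ s, a i ^ d i) (∏ i ∈ s, b i ^ d i) := by
  classical
  induction s using Finset.induction_on with
  | empty => simpa using p1_one m J
  | insert i s hi ih =>
    rw [Finset.sum_insert hi, Finset.prod_insert hi, Finset.prod_insert hi]
    exact p1_mul (p1_pow (h i) _) ih

theorem p1_aeval {O ι : Type} [CommRing O] [Algebra ℂ O] {m J : Ideal O} {a b : ι → O}
    (h : ∀ i, p1_Rel m J 1 (a i) (b i)) {F : MvPolynomial ι ℂ} {t : ℕ} (hF : F.IsHomogeneous t) :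
    p1_Rel m J t (MvPolynomial.aeval a F) (MvPolynomial.aeval b F) := by
  have key : ∀ d ∈ F.support, p1_Rel m J t (∏ i ∈ d.support, a i ^ d i)
      (∏ i ∈ d.support, b i ^ d i) := fun d hd => by
    rw [hF.degree_eq_sum_deg_support hd]
    exact p1_prod h _ _
  rw [MvPolynomial.aeval_def, MvPolynomial.aeval_def, MvPolynomial.eval₂_eq,
    MvPolynomial.eval₂_eq]
  refine ⟨Ideal.sum_mem _ fun d hd => Ideal.mul_mem_left _ _ (key d hd).1,
    Ideal.sum_mem _ fun d hd => Ideal.mul_mem_left _ _ (key d hd).2.1, fun z hz => ?_⟩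
  rw [← Finset.sum_sub_distrib, Finset.sum_mul]
  refine Ideal.sum_mem _ fun d hd => ?_
  rw [← mul_sub, mul_assoc]
  exact Ideal.mul_mem_left _ _ ((key d hd).2.2 z hz)

theorem p1_smul {O ι : Type} [CommRing O] [Algebra ℂ O] (p : ι → ℂ) (w : O)
    {F : MvPolynomial ι ℂ} {t : ℕ} (hF : F.IsHomogeneous t) :
    MvPolynomial.aeval (fun i => p i • w) F = MvPolynomial.eval p F • w ^ t := by
  rw [MvPolynomial.aeval_def, MvPolynomial.eval₂_eq, MvPolynomial.eval_eq, Finset.sum_smul]
  refine Finset.sum_congr rfl fun d hd => ?_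
  rw [hF.degree_eq_sum_deg_support hd]
  simp only [smul_pow]
  rw [Finset.prod_smul, Finset.prod_pow_eq_pow_sum, ← Algebra.smul_def, smul_smul]

theorem p1_sup {O : Type} [CommRing O] {m J W : Ideal O} (hJ : J ≤ m) (hW : W ≤ m) (t : ℕ) :
    (J ⊔ W) ^ t * m ≤ J * m ^ t ⊔ W ^ t * m := by
  induction t with
  | zero => simp
  | succ t ih =>
    have h1 : (J ⊔ W) ^ t ≤ m ^ t := Ideal.pow_right_mono (sup_le hJ hW) t
    rw [pow_succ' (J ⊔ W), mul_assoc, Ideal.sup_mul]
    refine sup_le ?_ ?_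
    · refine le_sup_of_le_left (Ideal.mul_mono_right ?_)
      rw [pow_succ]
      exact Ideal.mul_mono_left h1
    · refine (Ideal.mul_mono_right ih).trans ?_
      rw [Ideal.mul_sup]
      refine sup_le_sup ?_ ?_
      · rw [mul_left_comm, pow_succ']
        exact Ideal.mul_mono_right (Ideal.mul_mono_left hW)
      · rw [pow_succ', mul_assoc]

theorem p1_low {O ι : Type} [CommRing O] [Algebra ℂ O] {m : Ideal O} {x : ι → O}
    (hx : ∀ i, x i ∈ m)
    (H : ∀ (F : MvPolynomial ι ℂ) (t : ℕ), F.IsHomogeneous t → F ≠ 0 →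
      MvPolynomial.aeval x F ∉ m ^ (t + 1))
    (G : MvPolynomial ι ℂ) (k : ℕ) (hk : G.totalDegree < k) (hG : MvPolynomial.aeval x G ∈ m ^ k) :
    G = 0 := by
  have hr : ∀ i, p1_Rel m m 1 (x i) (x i) := fun i =>
    ⟨by simpa using hx i, by simpa using hx i, fun z _ => by simp⟩
  have hc : ∀ t, MvPolynomial.homogeneousComponent t G = 0 := by
    intro t
    induction t using Nat.strong_induction_on with
    | _ t ih =>
      by_contra h0
      have ht : t ≤ G.totalDegree := by
        by_contra h1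
        exact h0 (MvPolynomial.homogeneousComponent_eq_zero _ _ (not_le.1 h1))
      refine H _ t (MvPolynomial.homogeneousComponent_isHomogeneous t G) h0 ?_
      have h2 : MvPolynomial.aeval x G ∈ m ^ (t + 1) :=
        Ideal.pow_le_pow_right (by omega) hG
      rw [← MvPolynomial.sum_homogeneousComponent G, map_sum,
        ← Finset.add_sum_erase _ _ (Finset.mem_range.2 (Nat.lt_succ_of_le ht))] at h2
      refine (Ideal.add_mem_iff_left _ (Ideal.sum_mem _ fun i hi => ?_)).1 h2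
      rcases lt_or_gt_of_ne (Finset.ne_of_mem_erase hi) with h3 | h3
      · rw [ih i h3, map_zero]
        exact Ideal.zero_mem _
      · exact Ideal.pow_le_pow_right h3
          (p1_aeval hr (MvPolynomial.homogeneousComponent_isHomogeneous i G)).1
  rw [← MvPolynomial.sum_homogeneousComponent G]
  exact Finset.sum_eq_zero fun i _ => hc i

theorem p1_indep {O : Type} [CommRing O] [Algebra ℂ O] {m : Ideal O} {N : ℕ} (hN : 0 < N)
    {x : Fin N → O} (hx : ∀ i, x i ∈ m)
    (H : ∀ (F : MvPolynomial (Fin N) ℂ) (t : ℕ), F.IsHomogeneous t → F ≠ 0 →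
      MvPolynomial.aeval x F ∉ m ^ (t + 1)) (T : ℕ) (hT : 0 < T) :
    LinearIndependent ℂ fun α : Fin N → Fin T =>
      Ideal.Quotient.mkₐ ℂ (m ^ (N * T)) (∏ i, x i ^ (α i : ℕ)) := by
  classical
  rw [Fintype.linearIndependent_iff]
  intro g hg α
  let e : (Fin N → Fin T) → (Fin N →₀ ℕ) := fun β =>
    Finsupp.equivFunOnFinite.symm fun i => (β i : ℕ)
  have he : Function.Injective e := fun β γ h => by
    funext i
    exact Fin.ext (by simpa [e] using DFunLike.congr_fun h i)
  let G : MvPolynomial (Fin N) ℂ := ∑ β, MvPolynomial.monomial (e β) (g β)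
  have h1 : G.totalDegree < N * T := by
    refine lt_of_le_of_lt (MvPolynomial.totalDegree_finsetSum_le (d := N * (T - 1))
      fun β _ => (MvPolynomial.totalDegree_monomial_le _ _).trans ?_) ?_
    · rw [Finsupp.sum_fintype _ _ fun _ => rfl]
      calc ∑ i, id (e β i) ≤ ∑ _i : Fin N, (T - 1) :=
            Finset.sum_le_sum fun i _ => by
              have := (β i).2
              simp only [e, id, Finsupp.equivFunOnFinite_symm_apply_apply]
              omega
        _ = N * (T - 1) := by simp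
    · exact Nat.mul_lt_mul_of_pos_left (by omega) hN
  have h2 : MvPolynomial.aeval x G ∈ m ^ (N * T) := by
    rw [← Ideal.Quotient.eq_zero_iff_mem, ← Ideal.Quotient.mkₐ_eq_mk ℂ, ← hg]
    simp only [G, map_sum, ← map_smul]
    refine Finset.sum_congr rfl fun β _ => congrArg _ ?_
    rw [MvPolynomial.aeval_monomial, Finsupp.prod_fintype _ _ fun _ => pow_zero _,
      Algebra.smul_def]
    simp [e]
  have h3 := congrArg (MvPolynomial.coeff (e α)) (p1_low hx H G _ h1 h2)
  simpa [G, MvPolynomial.coeff_sum, MvPolynomial.coeff_monomial, he.eq_iff] using h3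

theorem p1_span {O ι : Type} [CommRing O] [Algebra ℂ O] [Fintype ι] {m : Ideal O} (u : Fin n → O)
    (hu : ∀ i, u i ∈ m) (z : ι → O)
    (hz : ∀ o : O, ∃ c : ι → ℂ, o - ∑ j, c j • z j ∈ Ideal.span (Set.range u)) (k : ℕ) :
    Submodule.span ℂ (Set.range fun β : (Fin n → Fin k) × ι =>
      Ideal.Quotient.mkₐ ℂ (m ^ k) ((∏ i, u i ^ (β.1 i : ℕ)) * z β.2)) = ⊤ := by
  rw [eq_top_iff]
  rintro q -
  obtain ⟨o, rfl⟩ := Ideal.Quotient.mkₐ_surjective ℂ _ q
  obtain ⟨s, hs⟩ := approx u z hz k o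
  have hle : Ideal.span (Set.range u) ≤ m := Ideal.span_le.2 (Set.range_subset_iff.2 hu)
  have h1 : Ideal.Quotient.mkₐ ℂ (m ^ k) o =
      Ideal.Quotient.mkₐ ℂ (m ^ k) (∑ j, MvPolynomial.aeval u (s j) * z j) :=
    Ideal.Quotient.eq.2 (Ideal.pow_right_mono hle k hs)
  rw [h1, map_sum]
  refine Submodule.sum_mem _ fun j _ => ?_
  induction s j using MvPolynomial.induction_on' with
  | add p q hp hq =>
    rw [map_add, add_mul, map_add]
    exact Submodule.add_mem _ hp hq
  | monomial d a =>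
    rw [MvPolynomial.aeval_monomial, Finsupp.prod_fintype _ _ fun _ => pow_zero _, mul_assoc,
      ← Algebra.smul_def, map_smul]
    refine Submodule.smul_mem _ _ ?_
    by_cases hd : ∀ i, d i < k
    · exact Submodule.subset_span ⟨(fun i => ⟨d i, hd i⟩, j), rfl⟩
    · obtain ⟨i, hi⟩ := not_forall.1 hd
      have h2 : (∏ i, u i ^ d i) * z j ∈ m ^ k := by
        rw [← Finset.mul_prod_erase _ _ (Finset.mem_univ i), mul_assoc]
        exact Ideal.mul_mem_right _ _
          (Ideal.pow_le_pow_right (not_lt.1 hi) (Ideal.pow_mem_pow (hu i) _))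
      rw [Ideal.Quotient.mkₐ_eq_mk, Ideal.Quotient.eq_zero_iff_mem.2 h2]
      exact Submodule.zero_mem _

/-- Choose `c` with `eval (Fin.cons 1 c) F ≠ 0` (`MvPolynomial.funext` and homogeneity,
`IsHomogeneous.eq_zero_of_forall_eval_eq_zero`; first find a point with nonzero value and nonzero
first coordinate using `X 0 * F`, then rescale). Put `x' i = x i.succ - c i • x 0`, `J' = (x')`.
Modulo `J' * 𝔪 ^ (t - 1)` every monomial of degree `t` in `x` is a multiple of `x 0 ^ t` and
`aeval x F ≡ F(1, c) • x 0 ^ t`, so `J ^ t ≤ J' * 𝔪 ^ (t - 1) ⊔ 𝔪 ^ (t + 1)` (`t = 0` is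
impossible). As `𝔪 ^ (j + t) = J ^ t * 𝔪 ^ j`, Nakayama
(`Submodule.le_of_le_smul_of_le_jacobson_bot`) gives `𝔪 ^ (j + t) = J' * 𝔪 ^ (j + t - 1)`. -/
theorem red_step {O : Type} [CommRing O] [IsLocalRing O] [IsNoetherianRing O] [Algebra ℂ O] {N : ℕ}
    (x : Fin (N + 1) → O) (hx : ∀ i, x i ∈ maximalIdeal O) {j : ℕ}
    (h : maximalIdeal O ^ (j + 1) = Ideal.span (Set.range x) * maximalIdeal O ^ j)
    (F : MvPolynomial (Fin (N + 1)) ℂ) (t : ℕ) (hF : F.IsHomogeneous t) (hF0 : F ≠ 0)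
    (hv : MvPolynomial.aeval x F ∈ maximalIdeal O ^ (t + 1)) :
    ∃ (x' : Fin N → O) (j' : ℕ), (∀ i, x' i ∈ maximalIdeal O) ∧
      maximalIdeal O ^ (j' + 1) = Ideal.span (Set.range x') * maximalIdeal O ^ j' := by
  obtain ⟨p, hp⟩ : ∃ p : Fin (N + 1) → ℂ, MvPolynomial.eval p (MvPolynomial.X 0 * F) ≠ 0 := by
    by_contra h0
    push Not at h0
    exact mul_ne_zero (MvPolynomial.X_ne_zero 0) hF0
      (MvPolynomial.funext fun p => by rw [h0 p, map_zero])
  rw [map_mul, MvPolynomial.eval_X] at hp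
  have hp0 : p 0 ≠ 0 := left_ne_zero_of_mul hp
  have hp1 : MvPolynomial.eval p F ≠ 0 := right_ne_zero_of_mul hp
  set m := maximalIdeal O with hm
  have hsm : ∀ (c : ℂ) (I : Ideal O) (a : O), a ∈ I → c • a ∈ I := fun c I a ha => by
    rw [Algebra.smul_def]
    exact Ideal.mul_mem_left _ _ ha
  let w : O := (p 0)⁻¹ • x 0
  have hw : w ∈ m := hsm _ _ _ (hx 0)
  let x' : Fin N → O := fun i => x i.succ - p i.succ • w
  have hx' : ∀ i, x' i ∈ m := fun i => Ideal.sub_mem _ (hx _) (hsm _ _ _ hw)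
  set J' := Ideal.span (Set.range x') with hJ'
  have hJm : J' ≤ m := Ideal.span_le.2 (Set.range_subset_iff.2 hx')
  have hWm : Ideal.span {w} ≤ m := (Ideal.span_singleton_le_iff_mem _).2 hw
  have hd : ∀ i, x i - p i • w ∈ J' := fun i => by
    refine Fin.cases ?_ (fun i => Ideal.subset_span ⟨i, rfl⟩) i
    simp [w, smul_smul, mul_inv_cancel₀ hp0]
  have hr : ∀ i, p1_Rel m J' 1 (x i) (p i • w) := fun i =>
    ⟨by simpa using hx i, by simpa using hsm _ _ _ hw, fun z hz => by
      simpa using Ideal.mul_mem_mul (hd i) hz⟩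
  have hJ : Ideal.span (Set.range x) ≤ J' ⊔ Ideal.span {w} := by
    refine Ideal.span_le.2 (Set.range_subset_iff.2 fun i => ?_)
    have e : x i = (x i - p i • w) + p i • w := by ring
    rw [e]
    exact Submodule.add_mem_sup (hd i) (hsm _ _ _ (Ideal.mem_span_singleton_self w))
  have hW : Ideal.span {w} ^ t * m ≤ J' * m ^ t ⊔ m ^ (t + 1) * m := by
    rw [Ideal.span_singleton_pow, Ideal.span_singleton_mul_le_iff]
    intro z hz
    have h1 := (p1_aeval hr hF).2.2 z hz
    rw [p1_smul p w hF] at h1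
    have e : w ^ t * z = (MvPolynomial.eval p F)⁻¹ • (-((MvPolynomial.aeval x F -
        MvPolynomial.eval p F • w ^ t) * z) + MvPolynomial.aeval x F * z) := by
      rw [sub_mul, neg_sub, sub_add_cancel, smul_mul_assoc, smul_smul, inv_mul_cancel₀ hp1, one_smul]
    rw [e]
    exact hsm _ _ _ (Submodule.add_mem_sup (Submodule.neg_mem _ h1) (Ideal.mul_mem_mul hv hz))
  have hpw : ∀ s : ℕ, m ^ (j + s) = Ideal.span (Set.range x) ^ s * m ^ j := fun s => by
    induction s with
    | zero => simp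
    | succ s ih =>
      have e : m ^ (j + (s + 1)) = m ^ (j + 1) * m ^ s := by ring
      rw [e, h, mul_assoc, ← pow_add, ih]
      ring
  have h3 : Ideal.span (Set.range x) ^ t * m ≤ J' * m ^ t ⊔ m ^ (t + 1) * m :=
    (Ideal.mul_mono_left (Ideal.pow_right_mono hJ t)).trans
      ((p1_sup hJm hWm t).trans (sup_le le_sup_left hW))
  refine ⟨x', j + t, hx', le_antisymm ?_ ?_⟩
  · refine Submodule.le_of_le_smul_of_le_jacobson_bot (I := m) (IsNoetherian.noetherian _)
      (maximalIdeal_le_jacobson _) ?_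
    have e1 : m ^ (j + t + 1) = Ideal.span (Set.range x) ^ t * m * m ^ j := by
      rw [pow_succ, hpw]
      ring
    have e2 : J' * m ^ (j + t) ⊔ m • m ^ (j + t + 1) = (J' * m ^ t ⊔ m ^ (t + 1) * m) * m ^ j := by
      rw [Ideal.sup_mul, smul_eq_mul]
      congr 1 <;> ring
    rw [e2]
    exact e1.le.trans (Ideal.mul_mono_left h3)
  · rw [pow_succ']
    exact Ideal.mul_mono_left hJm

/-- Otherwise, by looking at the lowest homogeneous component, a nonzero polynomial of total degree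
`< k` has its value outside `𝔪 ^ k`. So the `T ^ N` monomials in `x` with all exponents `< T` are
linearly independent in `O ⧸ 𝔪 ^ (N * T)`, which by `approx` (lift a finite spanning family of
`O ⧸ (u)`, of size `e₀`) is spanned by the `e₀ * (N * T) ^ n` elements `u ^ α * z j` with all
exponents `< N * T`. This is absurd for `T > e₀ * N ^ n`. -/
theorem exists_rel {O : Type} [CommRing O] [IsLocalRing O] [Algebra ℂ O] (u : Fin n → O)
    (hu : ∀ i, u i ∈ maximalIdeal O) [Module.Finite ℂ (O ⧸ Ideal.span (Set.range u))] {N : ℕ}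
    (hN : n < N) (x : Fin N → O) (hx : ∀ i, x i ∈ maximalIdeal O) :
    ∃ (F : MvPolynomial (Fin N) ℂ) (t : ℕ), F.IsHomogeneous t ∧ F ≠ 0 ∧
      MvPolynomial.aeval x F ∈ maximalIdeal O ^ (t + 1) := by
  by_contra h0
  have H : ∀ (F : MvPolynomial (Fin N) ℂ) (t : ℕ), F.IsHomogeneous t → F ≠ 0 →
      MvPolynomial.aeval x F ∉ maximalIdeal O ^ (t + 1) := fun F t h1 h2 h3 =>
    h0 ⟨F, t, h1, h2, h3⟩
  obtain ⟨e, b, hb⟩ := Module.Finite.exists_fin (R := ℂ) (M := O ⧸ Ideal.span (Set.range u))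
  choose z hz using fun j => Ideal.Quotient.mkₐ_surjective ℂ _ (b j)
  have hz' : ∀ o : O, ∃ c : Fin e → ℂ, o - ∑ j, c j • z j ∈ Ideal.span (Set.range u) := fun o => by
    have h1 : Ideal.Quotient.mkₐ ℂ (Ideal.span (Set.range u)) o ∈
        Submodule.span ℂ (Set.range b) := hb ▸ Submodule.mem_top
    obtain ⟨c, hc⟩ := (Submodule.mem_span_range_iff_exists_fun ℂ).1 h1
    refine ⟨c, Ideal.Quotient.eq.1 ?_⟩
    rw [← Ideal.Quotient.mkₐ_eq_mk ℂ, ← hc, map_sum]
    simp only [map_smul, hz]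
  let T := e * N ^ n + 1
  have hT : 0 < T := Nat.succ_pos _
  have h1 := p1_indep (by omega) hx H T hT
  have h2 := p1_span u hu z hz' (N * T)
  have : Module.Finite ℂ (O ⧸ maximalIdeal O ^ (N * T)) :=
    ⟨h2 ▸ Submodule.fg_span (Set.finite_range _)⟩
  have h3 := h1.fintype_card_le_finrank.trans (finrank_le_of_span_eq_top h2)
  simp only [Fintype.card_fun, Fintype.card_fin, Fintype.card_prod] at h3
  have h4 : T ^ (n + 1) ≤ T ^ N := Nat.pow_le_pow_right hT hN
  have h5 : (N * T) ^ n * e = T ^ n * (e * N ^ n) := by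
    rw [mul_pow]
    ring
  have h6 : T ^ n * (e * N ^ n) < T ^ n * T :=
    Nat.mul_lt_mul_of_pos_left (Nat.lt_succ_self _) (Nat.pow_pos hT)
  rw [pow_succ] at h4
  omega

/-- Start from `n + N` generators of the maximal ideal (pad with zeros, `j = 0`) and descend. -/
theorem exists_red {O : Type} [CommRing O] [IsLocalRing O] [IsNoetherianRing O] [Algebra ℂ O]
    (u : Fin n → O) (hu : ∀ i, u i ∈ maximalIdeal O)
    [Module.Finite ℂ (O ⧸ Ideal.span (Set.range u))] :
    ∃ (y : Fin n → O) (j : ℕ), (∀ i, y i ∈ maximalIdeal O) ∧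
      maximalIdeal O ^ (j + 1) = Ideal.span (Set.range y) * maximalIdeal O ^ j := by
  have key : ∀ M : ℕ, (∃ (y : Fin (n + M) → O) (j : ℕ), (∀ i, y i ∈ maximalIdeal O) ∧
      maximalIdeal O ^ (j + 1) = Ideal.span (Set.range y) * maximalIdeal O ^ j) →
      ∃ (y : Fin n → O) (j : ℕ), (∀ i, y i ∈ maximalIdeal O) ∧
        maximalIdeal O ^ (j + 1) = Ideal.span (Set.range y) * maximalIdeal O ^ j := by
    intro M
    induction M with
    | zero => exact id
    | succ M ih =>
      rintro ⟨y, j, hy, hj⟩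
      obtain ⟨F, t, h1, h2, h3⟩ := exists_rel u hu (N := n + M + 1) (by omega) y hy
      exact ih (red_step (N := n + M) y hy hj F t h1 h2 h3)
  obtain ⟨M, s, hs⟩ := Submodule.fg_iff_exists_fin_generating_family.1
    (IsNoetherian.noetherian (maximalIdeal O))
  have hm : ∀ i, Fin.append u s i ∈ maximalIdeal O := fun i => by
    refine Fin.addCases (fun i => ?_) (fun i => ?_) i
    · simpa using hu i
    · rw [Fin.append_right, ← hs]
      exact Submodule.subset_span ⟨i, rfl⟩
  refine key M ⟨Fin.append u s, 0, hm, ?_⟩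
  rw [pow_zero, mul_one, zero_add, pow_one]
  refine le_antisymm ?_ (Ideal.span_le.2 (Set.range_subset_iff.2 hm))
  refine hs.symm.le.trans (Submodule.span_mono ?_)
  rintro _ ⟨i, rfl⟩
  exact ⟨Fin.natAdd n i, Fin.append_right _ _ _⟩

end Vale.Agent.P282
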