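import Vale.Agent.P282.Defs

/-! Numerical inequalities. -/

open scoped ENNReal WithZero
open WithZero Filter IsLocalRing

noncomputable section

namespace Vale.Agent.P282

set_option linter.unusedSectionVars false

variable {K : Type} [Field K] [Algebra ℂ K] {n : ℕ}

theorem p4_step {r a : ℕ} (hn : 2 ≤ n) (h : r * (n - 2) ^ n < 2 * (n - 1) ^ n) (ha : a ≤ n - 1) :
    r * (a - 1) ^ n ≤ 2 * a ^ n := by
  have h1 : (a - 1) * (n - 1) ≤ a * (n - 2) := by
    obtain ⟨m, rfl⟩ : ∃ m, n = m + 2 := ⟨n - 2, by omega⟩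
    rcases a with _ | a
    · simp
    · rw [Nat.add_sub_cancel, Nat.add_sub_cancel, show m + 2 - 1 = m + 1 from rfl]
      have : a ≤ m := by omega
      nlinarith
  have h2 := Nat.pow_le_pow_left h1 n
  rw [mul_pow, mul_pow] at h2
  have h3 : 0 < (n - 1) ^ n := Nat.pow_pos (by omega)
  refine Nat.le_of_mul_le_mul_right ?_ h3
  calc r * (a - 1) ^ n * (n - 1) ^ n = r * ((a - 1) ^ n * (n - 1) ^ n) := by ring
    _ ≤ r * (a ^ n * (n - 2) ^ n) := Nat.mul_le_mul_left _ h2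
    _ = a ^ n * (r * (n - 2) ^ n) := by ring
    _ ≤ a ^ n * (2 * (n - 1) ^ n) := Nat.mul_le_mul_left _ h.le
    _ = 2 * a ^ n * (n - 1) ^ n := by ring

theorem p4_ind {r a B B' : ℕ} (hn : 2 ≤ n) (h : r * (n - 2) ^ n < 2 * (n - 1) ^ n)
    (ha : a ≤ n - 1) (hB : 2 * B' ≤ r * B) : B' * (a - 1) ^ n ≤ B * a ^ n := by
  refine Nat.le_of_mul_le_mul_left ?_ two_pos
  calc 2 * (B' * (a - 1) ^ n) = 2 * B' * (a - 1) ^ n := by ring
    _ ≤ r * B * (a - 1) ^ n := Nat.mul_le_mul_right _ hB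
    _ = B * (r * (a - 1) ^ n) := by ring
    _ ≤ B * (2 * a ^ n) := Nat.mul_le_mul_left _ (p4_step hn h ha)
    _ = 2 * (B * a ^ n) := by ring

theorem p4_choose (c k : ℕ) :
    (c + (k + 1)).choose c * (c + k + 2) = (c + (k + 1 + 1)).choose c * (k + 2) := by
  have h := Nat.choose_mul_succ_eq (c + (k + 1)) c
  rwa [show c + (k + 1) + 1 - c = k + 2 by omega] at h

theorem p4_mono (m : ℕ) : (m + 1) ^ (m + 2) * (m + 3) ^ (m + 3) ≤
    (m + 2) ^ (m + 3) * (m + 2) ^ (m + 2) := by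
  have hx : (0 : ℝ) ≤ m := Nat.cast_nonneg m
  have hq : (0 : ℝ) < (m + 1) * (m + 3) := by positivity
  have h1 := one_add_mul_le_pow (a := (((m : ℝ) + 1) * (m + 3))⁻¹)
    (le_trans (by norm_num) (inv_pos.2 hq).le) (m + 2)
  have e : 1 + (((m : ℝ) + 1) * (m + 3))⁻¹ = (m + 2) * (m + 2) / ((m + 1) * (m + 3)) := by
    field_simp
    ring
  have h2 : ((m : ℝ) + 3) / (m + 2) ≤ 1 + ((m + 2 : ℕ) : ℝ) * (((m : ℝ) + 1) * (m + 3))⁻¹ := by
    rw [div_le_iff₀ (by positivity)]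
    push_cast
    field_simp
    nlinarith
  have h3 := h2.trans h1
  rw [e, div_pow, div_le_div_iff₀ (by positivity) (by positivity), mul_pow, mul_pow] at h3
  have h4 : ((m : ℝ) + 1) ^ (m + 2) * (m + 3) ^ (m + 3) ≤ (m + 2) ^ (m + 3) * (m + 2) ^ (m + 2) := by
    rw [pow_succ ((m : ℝ) + 3) (m + 2), pow_succ ((m : ℝ) + 2) (m + 2)]
    linarith
  exact_mod_cast h4

/-- Induction on `k`. From `h` and `(a - 1) * (n - 1) ≤ a * (n - 2)` for `a ≤ n - 1` one gets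
`(c + 2) * (a - 1) ^ n ≤ 2 * a ^ n`, while
`2 * ((c + k + 2).choose c + 1) ≤ (c + 2) * ((c + k + 1).choose c + 1)` because
`(c + k + 2).choose c * (k + 2) = (c + k + 1).choose c * (c + k + 2)`. -/
theorem num_gor {c : ℕ} (hn : 2 ≤ n) (h : (c + 2) * (n - 2) ^ n < 2 * (n - 1) ^ n) (k : ℕ) :
    ((c + (k + 1)).choose c + 1) * (n - (k + 2)) ^ n < 2 * (n - 1) ^ n := by
  induction k with
  | zero => rwa [zero_add, Nat.choose_succ_self_right]
  | succ k ih =>
    refine lt_of_le_of_lt (p4_ind (a := n - (k + 2)) hn h (by omega) ?_) ih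
    have h1 := p4_choose c k
    have h2 : 2 * (c + (k + 1 + 1)).choose c ≤ (c + 2) * (c + (k + 1)).choose c := by
      refine Nat.le_of_mul_le_mul_right ?_ (Nat.succ_pos (k + 1))
      rw [mul_assoc, ← h1]
      nlinarith [Nat.zero_le (c * k * (c + (k + 1)).choose c)]
    nlinarith

/-- As above with the ratio `5 / 2` (`h`), `2 ^ (k + 1) * ((4 + (k + 1)).choose 4 + 5) ≤ 5 ^ (k + 2)`. -/
theorem num_four (hn : 2 ≤ n) (h : 5 * (n - 2) ^ n < 2 * (n - 1) ^ n) (k : ℕ) :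
    ((4 + (k + 1)).choose 4 + 4 + 1) * (n - (k + 3)) ^ n < 2 * (n - 1) ^ n := by
  induction k with
  | zero =>
    exact lt_of_le_of_lt (p4_ind (a := n - 2) hn h (by omega) (by norm_num [Nat.choose])) h
  | succ k ih =>
    refine lt_of_le_of_lt (p4_ind (a := n - (k + 3)) hn h (by omega) ?_) ih
    rcases k with _ | k
    · norm_num [Nat.choose]
    · have h1 := p4_choose 4 (k + 1)
      have h2 : 2 * (4 + (k + 1 + 1 + 1)).choose 4 ≤ 5 * (4 + (k + 1 + 1)).choose 4 := by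
        refine Nat.le_of_mul_le_mul_right ?_ (Nat.succ_pos (k + 2))
        rw [mul_assoc, ← h1]
        nlinarith [Nat.zero_le (k * (4 + (k + 1 + 1)).choose 4),
          Nat.zero_le ((4 + (k + 1 + 1)).choose 4)]
      omega

/-- Finitely many cases. -/
theorem num_six (hn : 2 ≤ n) (h : n ≤ 16) : 6 * (n - 2) ^ n < 2 * (n - 1) ^ n := by
  interval_cases n <;> norm_num

/-- `(1 - 1 / n) ^ n` increases (Bernoulli, `one_add_mul_le_pow`), and the case `n = 17` is a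
computation. -/
theorem num_weight (hn : 17 ≤ n) : 6 * 7 ^ 16 * n ^ n < 2 * 8 ^ 16 * (n - 1) ^ n := by
  induction n, hn using Nat.le_induction with
  | base => norm_num
  | succ n hn ih =>
    obtain ⟨m, rfl⟩ : ∃ m, n = m + 2 := ⟨n - 2, by omega⟩
    rw [show m + 2 - 1 = m + 1 from rfl] at ih
    rw [show m + 2 + 1 - 1 = m + 2 from rfl, show m + 2 + 1 = m + 3 from rfl]
    refine Nat.lt_of_mul_lt_mul_left (a := (m + 1) ^ (m + 2)) ?_
    calc (m + 1) ^ (m + 2) * (6 * 7 ^ 16 * (m + 3) ^ (m + 3))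
        = 6 * 7 ^ 16 * ((m + 1) ^ (m + 2) * (m + 3) ^ (m + 3)) := by ring
      _ ≤ 6 * 7 ^ 16 * ((m + 2) ^ (m + 3) * (m + 2) ^ (m + 2)) :=
        Nat.mul_le_mul_left _ (p4_mono m)
      _ = (m + 2) ^ (m + 3) * (6 * 7 ^ 16 * (m + 2) ^ (m + 2)) := by ring
      _ < (m + 2) ^ (m + 3) * (2 * 8 ^ 16 * (m + 1) ^ (m + 2)) :=
        Nat.mul_lt_mul_of_pos_left ih (by positivity)
      _ = _ := by ring

end Vale.Agent.P282
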