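import Vale.Agent.P282.F2

/-! Monomial charts. -/

open scoped ENNReal WithZero
open WithZero Filter IsLocalRing

noncomputable section

namespace Vale.Agent.P282

set_option linter.unusedSectionVars false

variable {K : Type} [Field K] [Algebra ℂ K] {n : ℕ}

theorem w1_log (δ : Derivation ℂ K K) (t : Fin n → K) (ht : ∀ j, t j ≠ 0) (m : Fin n → ℕ)
    (s : Finset (Fin n)) :
    δ (∏ j ∈ s, t j ^ m j) = (∏ j ∈ s, t j ^ m j) * ∑ j ∈ s, (t j)⁻¹ * δ (t j) * m j := by
  have h1 : ∀ (a : K) (l : ℕ), a ≠ 0 → δ (a ^ l) = a ^ l * (a⁻¹ * δ a * l) := fun a l ha => by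
    induction l with
    | zero => simp
    | succ l ih =>
      rw [pow_succ, δ.leibniz, ih, smul_eq_mul, smul_eq_mul]
      push_cast
      field_simp
      ring
  induction s using Finset.induction_on with
  | empty => simp
  | insert j s hj ih =>
    rw [Finset.prod_insert hj, Finset.sum_insert hj, δ.leibniz, ih, h1 _ _ (ht j), smul_eq_mul,
      smul_eq_mul]
    ring

/-- Logarithmic derivatives: `D k (y i) / y i = ∑ j, M i j * (D k (t j) / t j)`; take determinants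
(`Matrix.det_mul`, `Matrix.det_mul_row`, `Matrix.det_transpose`). -/
theorem jac_monomial (D : Fin n → Derivation ℂ K K) (t : Fin n → K) (ht : ∀ j, t j ≠ 0)
    (M : Fin n → Fin n → ℕ) :
    jac D (fun i => ∏ j, t j ^ M i j) * ∏ j, t j =
      (Matrix.of fun i j => (M i j : K)).det * (∏ i, ∏ j, t j ^ M i j) * jac D t := by
  have h1 : (Matrix.of fun k i => D k (∏ j, t j ^ M i j)) = Matrix.of fun k i =>
      (∏ j, t j ^ M i j) * ((Matrix.of fun k j => (t j)⁻¹ * (Matrix.of fun k j => D k (t j)) k j) *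
        (Matrix.of fun i j => (M i j : K)).transpose) k i := by
    ext k i
    simp only [Matrix.of_apply, Matrix.mul_apply, Matrix.transpose_apply, w1_log (D k) t ht]
  have h2 : (∏ j, (t j)⁻¹) * ∏ j, t j = 1 := by
    rw [← Finset.prod_mul_distrib]
    exact Finset.prod_eq_one fun j _ => inv_mul_cancel₀ (ht j)
  rw [jac, h1, Matrix.det_mul_row, Matrix.det_mul, Matrix.det_mul_row, Matrix.det_transpose, jac]
  linear_combination (Matrix.of fun i j => (M i j : K)).det * (∏ i, ∏ j, t j ^ M i j) *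
    (Matrix.of fun k j => D k (t j)).det * h2

variable {k : ℕ} {L : Type} [Field L] [Algebra ℂ L] [Algebra (MvPolynomial (Fin (k + 1)) ℂ) L]
  [IsScalarTower ℂ (MvPolynomial (Fin (k + 1)) ℂ) L]
  [IsFractionRing (MvPolynomial (Fin (k + 1)) ℂ) L]

theorem w1_mem (t : Fin (k + 1) → L)
    (ht : ∀ i, algebraMap (MvPolynomial (Fin (k + 1)) ℂ) L (MvPolynomial.X i) ∈
      Algebra.adjoin ℂ (Set.range t)) (P : MvPolynomial (Fin (k + 1)) ℂ) :
    algebraMap (MvPolynomial (Fin (k + 1)) ℂ) L P ∈ Algebra.adjoin ℂ (Set.range t) := by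
  induction P using MvPolynomial.induction_on with
  | C c =>
    have : algebraMap ℂ L c = algebraMap (MvPolynomial (Fin (k + 1)) ℂ) L (MvPolynomial.C c) :=
      IsScalarTower.algebraMap_apply ℂ (MvPolynomial (Fin (k + 1)) ℂ) L c
    exact this ▸ Subalgebra.algebraMap_mem _ c
  | add p q hp hq =>
    rw [map_add]
    exact add_mem hp hq
  | mul_X p j hp =>
    rw [map_mul]
    exact mul_mem hp (ht j)

/-- `L` is algebraic over `adjoin ℂ (range t)` and has transcendence degree at least `k + 1`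
(`AlgebraicIndependent.lift_cardinalMk_le_trdeg`), so `t` is a transcendence basis
(`Algebra.IsAlgebraic.isTranscendenceBasis_of_lift_le_trdeg_of_finite`). -/
theorem chart_inj' (t : Fin (k + 1) → L)
    (ht : ∀ i, algebraMap (MvPolynomial (Fin (k + 1)) ℂ) L (MvPolynomial.X i) ∈
      Algebra.adjoin ℂ (Set.range t)) :
    Function.Injective (MvPolynomial.aeval t : MvPolynomial (Fin (k + 1)) ℂ →ₐ[ℂ] L) := by
  have h1 : Algebra.IsAlgebraic (Algebra.adjoin ℂ (Set.range t)) L := ⟨fun z => by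
    obtain ⟨a, b, -, rfl⟩ := IsFractionRing.div_surjective (A := MvPolynomial (Fin (k + 1)) ℂ) z
    rw [div_eq_mul_inv]
    exact (isAlgebraic_algebraMap (⟨_, w1_mem t ht a⟩ : Algebra.adjoin ℂ (Set.range t))).mul
      (isAlgebraic_algebraMap (⟨_, w1_mem t ht b⟩ : Algebra.adjoin ℂ (Set.range t))).inv⟩
  have h2 := (MvPolynomial.algebraicIndependent_X (Fin (k + 1)) ℂ).map'
    (f := IsScalarTower.toAlgHom ℂ (MvPolynomial (Fin (k + 1)) ℂ) L) (IsFractionRing.injective _ _)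
  exact (Algebra.IsAlgebraic.isTranscendenceBasis_of_lift_le_trdeg_of_finite ℂ t
    h2.lift_cardinalMk_le_trdeg).1

/-- The proof of `exists_chart` (file `F2`), with `chart_inj'`. -/
theorem exists_chart' (t : Fin (k + 1) → L)
    (ht : ∀ i, algebraMap (MvPolynomial (Fin (k + 1)) ℂ) L (MvPolynomial.X i) ∈
      Algebra.adjoin ℂ (Set.range t)) :
    ∃ (V : Subalgebra ℂ L) (_ : IsDiscreteValuationRing V), IsFractionRing V L ∧ (∀ i, t i ∈ V) ∧
      (∀ a : V, a ∈ IsLocalRing.maximalIdeal V ↔ ∃ b ∈ V, (a : L) = t 0 * b) ∧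
      (∀ a ∈ V, ∃ P Q : MvPolynomial (Fin (k + 1)) ℂ, ∃ c ∈ V, MvPolynomial.aeval t Q * c = 1 ∧
        a = MvPolynomial.aeval t P * c) ∧
      ∀ P : MvPolynomial (Fin k) ℂ, P ≠ 0 →
        ∃ c ∈ V, MvPolynomial.aeval (fun i : Fin k => t i.succ) P * c = 1 := by
  have hi := chart_inj' t ht
  have t0 : MvPolynomial.aeval t (MvPolynomial.X 0 : MvPolynomial (Fin (k + 1)) ℂ) = t 0 := by
    simp
  have h0 : t 0 ≠ 0 := t0 ▸ (map_ne_zero_iff _ hi).2 (MvPolynomial.X_ne_zero 0)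
  have hm : ∀ P : MvPolynomial (Fin (k + 1)) ℂ, MvPolynomial.aeval t P ∈ f2_V t := fun P =>
    ⟨P, 1, MvPolynomial.X_prime.not_dvd_one, by simp⟩
  have hne : ∀ Q : MvPolynomial (Fin (k + 1)) ℂ, ¬ MvPolynomial.X 0 ∣ Q →
      MvPolynomial.aeval t Q ≠ 0 := fun Q h => (map_ne_zero_iff _ hi).2 (by
    rintro rfl
    exact h (dvd_zero _))
  have hinv : ∀ Q : MvPolynomial (Fin (k + 1)) ℂ, ¬ MvPolynomial.X 0 ∣ Q →
      (MvPolynomial.aeval t Q)⁻¹ ∈ f2_V t := fun Q h =>
    ⟨1, Q, h, by rw [inv_mul_cancel₀ (hne Q h), map_one]⟩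
  set p : f2_V t := ⟨t 0, t0 ▸ hm _⟩ with hp
  have pn : ¬ IsUnit p := by
    intro hu
    obtain ⟨⟨b, P, Q, h, e⟩, hb⟩ := hu.exists_right_inv
    have hb' : t 0 * b = 1 := congrArg Subtype.val hb
    refine h ⟨P, hi ?_⟩
    rw [map_mul, t0, ← e, ← mul_assoc, hb', one_mul]
  have hf : ∀ {x : f2_V t}, x ≠ 0 → ∃ m : ℕ, Associated (p ^ m) x := by
    rintro ⟨x, P, Q, h, e⟩ hx
    have hx' : x ≠ 0 := fun k => hx (Subtype.ext k)
    have hP : P ≠ 0 := by
      rintro rfl
      exact mul_ne_zero hx' (hne Q h) (by simpa using e)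
    obtain ⟨m, P', h', rfl⟩ := WfDvdMonoid.max_power_factor hP
      (MvPolynomial.X_prime (i := (0 : Fin (k + 1)))).irreducible
    have a1 := hne Q h
    have a2 := hne P' h'
    refine ⟨m, ⟨⟨_, mul_mem (hm P') (hinv Q h)⟩, ⟨_, mul_mem (hm Q) (hinv P' h')⟩,
      Subtype.ext ?_, Subtype.ext ?_⟩, Subtype.ext ?_⟩
    · change _ * _ * (_ * _) = (1 : L)
      field_simp
    · change _ * _ * (_ * _) = (1 : L)
      field_simp
    · change t 0 ^ m * (_ * _) = x
      rw [map_mul, map_pow, t0] at e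
      rw [← mul_assoc, ← e, mul_inv_cancel_right₀ a1]
  have p0 : p ≠ 0 := fun k => h0 (congrArg Subtype.val k)
  have hirr : Irreducible p := by
    refine ⟨pn, fun a b hab => ?_⟩
    obtain ⟨m, ha⟩ := hf (left_ne_zero_of_mul (hab ▸ p0 : a * b ≠ 0))
    obtain ⟨l, hb⟩ := hf (right_ne_zero_of_mul (hab ▸ p0 : a * b ≠ 0))
    rcases m with _ | m
    · exact Or.inl (associated_one_iff_isUnit.1 (by simpa using ha.symm))
    rcases l with _ | l
    · exact Or.inr (associated_one_iff_isUnit.1 (by simpa using hb.symm))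
    have d1 : p * p ∣ p * 1 := by
      rw [mul_one]
      conv_rhs => rw [hab]
      exact mul_dvd_mul ((dvd_pow_self p m.succ_ne_zero).trans ha.dvd)
        ((dvd_pow_self p l.succ_ne_zero).trans hb.dvd)
    exact (pn (isUnit_of_dvd_one ((mul_dvd_mul_iff_left p0).1 d1))).elim
  have hD : IsDiscreteValuationRing (f2_V t) :=
    IsDiscreteValuationRing.ofHasUnitMulPowIrreducibleFactorization ⟨p, hirr, hf⟩
  refine ⟨f2_V t, hD, ?_, fun i => by simpa using hm (MvPolynomial.X i), fun a => ?_, ?_,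
    fun P hP => ?_⟩
  · refine IsFractionRing.of_field _ _ fun z => ?_
    obtain ⟨a, b, -, rfl⟩ := IsFractionRing.div_surjective (A := MvPolynomial (Fin (k + 1)) ℂ) z
    have h1 : Algebra.adjoin ℂ (Set.range t) ≤ f2_V t := Algebra.adjoin_le (by
      rintro _ ⟨i, rfl⟩
      simpa using hm (MvPolynomial.X i))
    exact ⟨⟨_, h1 (w1_mem t ht a)⟩, ⟨_, h1 (w1_mem t ht b)⟩, rfl⟩
  · rw [(IsDiscreteValuationRing.irreducible_iff_uniformizer p).1 hirr, Ideal.mem_span_singleton]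
    exact ⟨fun ⟨b, hb⟩ => ⟨b.1, b.2, congrArg Subtype.val hb⟩,
      fun ⟨b, hb, e⟩ => ⟨⟨b, hb⟩, Subtype.ext e⟩⟩
  · rintro a ⟨P, Q, h, e⟩
    exact ⟨P, Q, _, hinv Q h, mul_inv_cancel₀ (hne Q h), by
      rw [← e, mul_inv_cancel_right₀ (hne Q h)]⟩
  · have h : ¬ (MvPolynomial.X 0 : MvPolynomial (Fin (k + 1)) ℂ) ∣
        MvPolynomial.rename Fin.succ P := by
      intro hd
      have := map_dvd (MvPolynomial.aeval (Fin.cons 0 MvPolynomial.X : Fin (k + 1) →
        MvPolynomial (Fin k) ℂ) : MvPolynomial (Fin (k + 1)) ℂ →ₐ[ℂ] MvPolynomial (Fin k) ℂ) hd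
      rw [MvPolynomial.aeval_rename, MvPolynomial.aeval_X, Fin.cons_zero, zero_dvd_iff] at this
      refine hP (Eq.trans ?_ this)
      exact (MvPolynomial.aeval_X_left_apply P).symm
    refine ⟨_, hinv _ h, ?_⟩
    have := mul_inv_cancel₀ (hne _ h)
    rwa [MvPolynomial.aeval_rename] at this ⊢

end Vale.Agent.P282
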