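import Vale.Agent.P282.F
import Vale.Agent.P282.W1

/-! The valuations over the exceptional divisor of a weighted blow-up. -/

open scoped ENNReal WithZero
open WithZero Filter MvPolynomial

noncomputable section

namespace Vale.Agent.P282

set_option linter.unusedSectionVars false

variable {K : Type} [Field K] [Algebra ℂ K] {n : ℕ}

theorem w2_chart {k : ℕ} {L : Type} [Field L] (y : Fin (k + 2) → L) (h0 : y 0 ≠ 0) (h1 : y 1 ≠ 0)
    (w : Fin (k + 2) → ℕ) (hw : w 0 = w 1 + 1) : ∃ (t : Fin (k + 2) → L)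
      (γ : Fin (k + 2) → Fin (k + 1)), t 0 ≠ 0 ∧ ∀ i, y i = t 0 ^ w i * t (γ i).succ := by
  refine ⟨Fin.cons (y 0 / y 1) (Fin.cons (y 1 ^ (w 1 + 1) / y 0 ^ w 1)
    fun i : Fin k => y i.succ.succ / (y 0 / y 1) ^ w i.succ.succ), Fin.cons 0 id,
    div_ne_zero h0 h1, fun i => ?_⟩
  refine Fin.cases ?_ (fun i => Fin.cases ?_ (fun i => ?_) i) i
  · simp only [Fin.cons_zero, Fin.cons_succ, hw, div_pow]
    field_simp
    ring
  · simp only [Fin.cons_zero, Fin.cons_succ, id, Fin.succ_zero_eq_one, Fin.cons_one, div_pow]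
    field_simp
    ring
  · simp only [Fin.cons_zero, Fin.cons_succ, id]
    field_simp

theorem exists_family_w {k : ℕ} (L : Type) [Field L] [Algebra ℂ L]
    [Algebra (MvPolynomial (Fin (k + 2)) ℂ) L] [IsScalarTower ℂ (MvPolynomial (Fin (k + 2)) ℂ) L]
    [IsFractionRing (MvPolynomial (Fin (k + 2)) ℂ) L] [Algebra L K] [IsScalarTower ℂ L K]
    [FiniteDimensional L K] (y : Fin (k + 2) → K)
    (hy : ∀ i, y i = algebraMap L K (algebraMap (MvPolynomial (Fin (k + 2)) ℂ) L (X i)))
    (D : Fin (k + 2) → Derivation ℂ K K) (hD : jac D y ≠ 0) (w : Fin (k + 2) → ℕ)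
    (hw0 : w 0 = w 1 + 1) (hw : ∀ i, 0 < w i) :
    ∃ E : Set (Valuation K ℤᵐ⁰), E.Finite ∧
      (∀ v ∈ E, IsDivisorial (k + 2) v ∧ ∃ π : K, π ≠ 0 ∧ v π < 1 ∧ (∀ i, v (y i) = v (π ^ w i)) ∧
        ∀ f : Fin (k + 2) → K, (∀ i, v (f i) ≤ 1) →
          v (jac D f * π ^ ∑ i, w i) < v (jac D y)) ∧
      ∀ x : K, (∀ v ∈ E, v x < 1) → ∀ P : MvPolynomial (Fin (k + 2)) ℂ,
        Algebra.trace L K x = algebraMap _ L P → constantCoeff P = 0 := by
  obtain ⟨y', hy'⟩ : ∃ y' : Fin (k + 2) → L,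
      ∀ i, y' i = algebraMap (MvPolynomial (Fin (k + 2)) ℂ) L (X i) := ⟨_, fun _ => rfl⟩
  have hy0' : ∀ i, y' i ≠ 0 := fun i => by
    rw [hy']
    exact (map_ne_zero_iff _ (IsFractionRing.injective _ _)).2 (X_ne_zero _)
  obtain ⟨t', γ, ht0', hts'⟩ := w2_chart y' (hy0' 0) (hy0' 1) w hw0
  obtain ⟨V, hV, hfr, htV, hmax, hPQ, hres⟩ := exists_chart' t' fun i => by
    rw [← hy', hts']
    exact mul_mem (pow_mem (Algebra.subset_adjoin (Set.mem_range_self _)) _)
      (Algebra.subset_adjoin (Set.mem_range_self _))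
  obtain ⟨E, hE, h1, hfin, htr⟩ := family_abs (K := K) (V := V) (L := L)
  have hyy : ∀ i, y i = algebraMap L K (y' i) := fun i => by rw [hy, hy']
  obtain ⟨t, htt⟩ : ∃ t : Fin (k + 2) → K, ∀ i, t i = algebraMap L K (t' i) := ⟨_, fun _ => rfl⟩
  have hts : ∀ i, y i = t 0 ^ w i * t (γ i).succ := fun i => by
    rw [hyy, hts', htt, htt, map_mul, map_pow]
  have hae : ∀ {ι : Type} (s : ι → L) (P : MvPolynomial ι ℂ),
      algebraMap L K (aeval s P) = aeval (fun i => algebraMap L K (s i)) P := by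
    intro ι s P
    exact (aeval_algebraMap_apply K s P).symm
  have htn : ∀ i, t i ≠ 0 := by
    intro i
    rw [htt]
    refine (map_ne_zero_iff _ (algebraMap L K).injective).2 (Fin.cases ht0' (fun i => ?_) i)
    obtain ⟨c, -, h⟩ := hres (X i) (X_ne_zero i)
    rw [aeval_X] at h
    exact left_ne_zero_of_mul_eq_one h
  have hy0 : t 0 ≠ 0 := htn 0
  obtain ⟨M, hM⟩ : ∃ M : Fin (k + 2) → Fin (k + 2) → ℕ, ∀ i, y i = ∏ j, t j ^ M i j := by
    refine ⟨fun i j => (if j = 0 then w i else 0) + if j = (γ i).succ then 1 else 0, fun i => ?_⟩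
    simp only [pow_add, Finset.prod_mul_distrib, pow_ite, pow_zero, pow_one, Finset.prod_ite_eq',
      Finset.mem_univ, if_true]
    exact hts i
  have hch := jac_monomial D t htn M
  rw [← funext hM] at hch
  have hne := mul_ne_zero hD (Finset.prod_ne_zero_iff.2 fun j (_ : j ∈ Finset.univ) => htn j)
  rw [hch] at hne
  have hDt : jac D t ≠ 0 := right_ne_zero_of_mul hne
  obtain ⟨μ, hμ⟩ : ∃ μ : ℂ, (Matrix.of fun i j => (M i j : K)).det = algebraMap ℂ K μ := by
    refine ⟨(Matrix.of fun i j => (M i j : ℂ)).det, ?_⟩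
    rw [RingHom.map_det]
    congr 1
    ext i j
    simp
  have hμ0 : μ ≠ 0 := by
    rintro rfl
    simp [hμ] at hne
  obtain ⟨d, hd, hdj⟩ := exists_dual D t hDt
  refine ⟨E, hE, fun v hv => ?_, fun x hx P hP => ?_⟩
  · obtain ⟨hn, hO, hm, hloc⟩ := h1 v hv
    have hOV : ∀ a ∈ V, v (algebraMap L K a) ≤ 1 := fun a ha => hO ⟨a, ha⟩
    have htv : ∀ i, v (t i) ≤ 1 := fun i => by
      rw [htt]
      exact hOV _ (htV i)
    have hπ : v (t 0) < 1 := by
      have := hm ⟨t' 0, htV 0⟩ ((hmax _).2 ⟨1, V.one_mem, by simp⟩)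
      rw [htt]
      exact this
    have hdV : ∀ i (a : V), v (d i (algebraMap V K a)) ≤ 1 := by
      intro i a
      obtain ⟨P, Q, c, hc, hQ, ha⟩ := hPQ a a.2
      have e : algebraMap V K a = aeval t P * algebraMap L K c := by
        change algebraMap L K a = _
        rw [ha, map_mul, hae, ← funext htt]
      have eQ : aeval t Q * algebraMap L K c = 1 := by
        rw [funext htt, ← hae, ← map_mul, hQ, map_one]
      rw [e]
      refine f_der _ (f_aeval_le hn t htv P) (hOV c hc) eQ ?_ ?_ <;>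
      · rw [dual_aeval d t hd]
        exact f_aeval_le hn t htv _
    have h0V : ∀ a : V, v ((t 0 • d 0) (algebraMap V K a)) < 1 := by
      intro a
      rw [Derivation.smul_apply, smul_eq_mul, v.map_mul]
      exact mul_lt_one_of_lt_of_le hπ (hdV 0 a)
    have h0 := (log_der v hn hO hloc hfin (t 0 • d 0) (fun a => (h0V a).le) (t 0) hy0 hπ (by
      rw [Derivation.smul_apply, hd]
      simp)).2 h0V
    have hs : ∀ (i : Fin (k + 1)) x, v x ≤ 1 → v (d i.succ x) ≤ 1 := fun i =>
      (log_der v hn hO hloc hfin (d i.succ) (hdV _) (t 0) hy0 hπ (by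
        rw [hd, if_neg (Fin.succ_ne_zero i)]
        simp)).1
    have hres1 : ∀ P : MvPolynomial (Fin (k + 1)) ℂ, P ≠ 0 →
        v (aeval (fun i : Fin (k + 1) => t i.succ) P) = 1 := by
      intro P hP
      obtain ⟨c, hc, h⟩ := hres P hP
      refine f_one (f_aeval_le hn _ (fun i => htv _) P) (hOV c hc) ?_
      have := congrArg (algebraMap L K) h
      rw [map_mul, map_one, hae] at this
      simpa only [← htt] using this
    have ht1 : ∀ i : Fin (k + 1), v (t i.succ) = 1 := fun i => by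
      simpa using hres1 (X i) (X_ne_zero i)
    have hyv : ∀ i, v (y i) = v (t 0 ^ w i) := fun i => by rw [hts, v.map_mul, ht1, mul_one]
    refine ⟨⟨hn, fun i : Fin (k + 1) => t i.succ, hres1⟩, t 0, hy0, hπ, hyv, fun f hf => ?_⟩
    have h2 := f_jac_lt d (t 0) f v (fun j => by simpa using h0 _ (hf j))
      fun i j => hs i _ (hf j)
    have h3 : 0 < v (jac D y) := zero_lt_iff.2 (v.ne_zero_iff.2 hD)
    have h4 : v (jac D y) * v (t 0) = v (t 0 ^ ∑ i, w i) * v (jac D t) := by
      have := congrArg v hch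
      rw [v.map_mul, v.map_mul, v.map_mul, map_prod, map_prod, hμ, hn.1 μ hμ0, one_mul,
        Fin.prod_univ_succ] at this
      simp only [ht1, hyv, Finset.prod_const_one, mul_one] at this
      rw [this, ← map_prod, Finset.prod_pow_eq_pow_sum]
    have e : v (jac D f * t 0 ^ ∑ i, w i) = v (jac D y) * v (t 0 * jac d f) := by
      rw [hdj f, v.map_mul, v.map_mul, v.map_mul, ← mul_assoc, h4]
      ac_rfl
    rw [e]
    exact mul_lt_of_lt_one_right h3 h2
  · obtain ⟨a, ha, hx'⟩ := htr x hx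
    by_contra hne
    have hyV : ∀ i, ∃ b ∈ V, y' i = t' 0 * b := fun i =>
      ⟨t' 0 ^ (w i - 1) * t' (γ i).succ, V.mul_mem (V.pow_mem (htV 0) _) (htV _), by
        rw [hts', ← mul_assoc, ← pow_succ', Nat.sub_add_cancel (hw i)]⟩
    have key : ∀ Q : MvPolynomial (Fin (k + 2)) ℂ, ∃ b ∈ V,
        algebraMap _ L Q = algebraMap ℂ L (constantCoeff Q) + t' 0 * b := by
      intro Q
      induction Q using MvPolynomial.induction_on with
      | C c =>
        refine ⟨0, V.zero_mem, ?_⟩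
        rw [constantCoeff_C, mul_zero, add_zero, ← algebraMap_eq,
          ← IsScalarTower.algebraMap_apply]
      | add p q hp hq =>
        obtain ⟨b, hb, e⟩ := hp
        obtain ⟨b', hb', e'⟩ := hq
        refine ⟨b + b', V.add_mem hb hb', ?_⟩
        rw [map_add, map_add, map_add, e, e']
        ring
      | mul_X p i hp =>
        obtain ⟨b, hb, e⟩ := hp
        obtain ⟨b', hb', e'⟩ := hyV i
        refine ⟨(algebraMap ℂ L (constantCoeff p) + t' 0 * b) * b',
          V.mul_mem (V.add_mem (V.algebraMap_mem _) (V.mul_mem (htV 0) hb)) hb', ?_⟩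
        rw [map_mul, ← hy', e, e']
        simp only [map_mul, constantCoeff_X, mul_zero, map_zero, zero_add]
        ring
    obtain ⟨b, hb, e⟩ := key P
    obtain ⟨b', hb', e'⟩ := (hmax a).1 ha
    have hc : algebraMap ℂ V (constantCoeff P) ∈ IsLocalRing.maximalIdeal V := by
      refine (hmax _).2 ⟨b' - b, V.sub_mem hb' hb, ?_⟩
      have e2 : (a : L) = algebraMap ℂ L (constantCoeff P) + t' 0 * b := by
        rw [← e, ← hP, hx']
        rfl
      change algebraMap ℂ L _ = _
      linear_combination e' - e2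
    exact hc ((Ne.isUnit hne).map _)

end Vale.Agent.P282
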