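import Vale.Agent.P282.E

/-! The weighted volume bound. -/

open scoped ENNReal WithZero
open WithZero Filter IsLocalRing

noncomputable section

namespace Vale.Agent.P282

set_option linter.unusedSectionVars false

variable {K : Type} [Field K] [Algebra ℂ K] {n : ℕ}

/-- The exponents of small weight. -/
def w4_A (w : Fin n → ℕ) (T : ℕ) : Finset (Fin n → ℕ) :=
  (Fintype.piFinset fun _ => Finset.range T).filter fun α => ∑ i, w i * α i < T

theorem w4_mem {w : Fin n → ℕ} (hw : ∀ i, 0 < w i) (T : ℕ) (α : Fin n → ℕ) :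
    α ∈ w4_A w T ↔ ∑ i, w i * α i < T := by
  rw [w4_A, Finset.mem_filter, Fintype.mem_piFinset]
  refine ⟨fun h => h.2, fun h => ⟨fun i => Finset.mem_range.2 (lt_of_le_of_lt ?_ h), h⟩⟩
  exact (Nat.le_mul_of_pos_left _ (hw i)).trans (Finset.single_le_sum
    (f := fun i => w i * α i) (fun _ _ => Nat.zero_le _) (Finset.mem_univ i))

theorem w4_rec {w : Fin (n + 1) → ℕ} (hw : ∀ i, 0 < w i) (T : ℕ) :
    (w4_A w T).card ≤ (w4_A (fun i : Fin n => w i.succ) T).card + (w4_A w (T - w 0)).card := by
  have h : w4_A w T ⊆ (w4_A (fun i : Fin n => w i.succ) T).image (Fin.cons 0) ∪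
      (w4_A w (T - w 0)).image fun β => Fin.cons (β 0 + 1) (Fin.tail β) := by
    intro α hα
    rw [w4_mem hw, Fin.sum_univ_succ] at hα
    rw [Finset.mem_union, Finset.mem_image, Finset.mem_image]
    rcases Nat.eq_zero_or_eq_succ_pred (α 0) with h0 | h0
    · refine Or.inl ⟨Fin.tail α, (w4_mem (fun i => hw _) _ _).2 ?_, ?_⟩
      · exact lt_of_le_of_lt (Nat.le_add_left _ _) hα
      · rw [← h0, Fin.cons_self_tail]
    · refine Or.inr ⟨Fin.cons (α 0).pred (Fin.tail α), (w4_mem hw _ _).2 ?_, ?_⟩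
      · rw [h0, Nat.mul_succ] at hα
        simp only [Fin.sum_univ_succ, Fin.cons_zero, Fin.cons_succ, Fin.tail]
        omega
      · rw [Fin.cons_zero, Fin.tail_cons, show (α 0).pred + 1 = α 0 from h0.symm,
          Fin.cons_self_tail]
  exact (Finset.card_le_card h).trans ((Finset.card_union_le _ _).trans
    (Nat.add_le_add Finset.card_image_le Finset.card_image_le))

theorem w4_card (n : ℕ) : ∀ w : Fin n → ℕ, (∀ i, 0 < w i) → ∀ T : ℕ,
    n.factorial * (∏ i, w i) * (w4_A w T).card ≤ (T + ∑ i, w i) ^ n := by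
  induction n with
  | zero =>
    intro w _ T
    simpa using Finset.card_le_one_of_subsingleton (w4_A w T)
  | succ n ih =>
    intro w hw T
    have h0 : (w4_A w 0).card = 0 := Finset.card_eq_zero.2
      (Finset.eq_empty_of_forall_notMem fun α h => Nat.not_lt_zero _ ((w4_mem hw 0 α).1 h))
    induction T using Nat.strong_induction_on with
    | _ T ihT =>
      rcases Nat.eq_zero_or_pos T with rfl | hT
      · rw [h0, mul_zero]
        exact Nat.zero_le _
      have h1 := ih (fun i => w i.succ) (fun i => hw _) T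
      have h2 : (n + 1).factorial * (∏ i, w i) * (w4_A w (T - w 0)).card ≤
          (T + ∑ i : Fin n, w i.succ) ^ (n + 1) := by
        rcases le_total (w 0) T with h | h
        · refine (ihT _ (Nat.sub_lt hT (hw 0))).trans_eq ?_
          rw [Fin.sum_univ_succ, ← add_assoc, Nat.sub_add_cancel h]
        · rw [Nat.sub_eq_zero_of_le h, h0, mul_zero]
          exact Nat.zero_le _
      have h3 := pow_add_mul_le_add_pow (a := T + ∑ i : Fin n, w i.succ) (b := w 0)
        (Nat.zero_le _) (Nat.zero_le _) (n + 1)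
      have h4 := Nat.mul_le_mul_left ((n + 1) * w 0) h1
      refine (Nat.mul_le_mul_left _ (w4_rec hw T)).trans ?_
      rw [Nat.add_sub_cancel, Nat.cast_id] at h3
      rw [mul_add, Fin.sum_univ_succ, add_comm (w 0), ← add_assoc]
      rw [Fin.prod_univ_succ, Nat.factorial_succ] at h2 ⊢
      nlinarith

theorem w4_val {O : Type} [CommRing O] [Algebra O K] (y : Fin n → O) {v : Valuation K ℤᵐ⁰}
    (c : ℕ) (w α : Fin n → ℕ)
    (hy : ∀ i, v (algebraMap O K (y i)) ≤ exp (-((c * w i : ℕ) : ℤ))) (s : Finset (Fin n)) :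
    v (algebraMap O K (∏ i ∈ s, y i ^ α i)) ≤ exp (-((c * ∑ i ∈ s, w i * α i : ℕ) : ℤ)) := by
  induction s using Finset.induction_on with
  | empty => simp
  | insert i s hi ih =>
    rw [Finset.prod_insert hi, Finset.sum_insert hi, map_mul, map_mul, map_pow, map_pow]
    refine (mul_le_mul' (pow_le_pow_left' (hy i) _) ih).trans_eq ?_
    rw [← exp_nsmul, ← exp_add, nsmul_eq_mul]
    congr 1
    push_cast
    ring

theorem w4_real {n e c t a W S : ℕ} (hc : 0 < c) (ht : 0 < t) (hW : 0 < W)
    (h : n.factorial * W * a ≤ (t / c + 1 + S) ^ n) :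
    ((n.factorial * (a * e) : ℕ) : ℝ) / (t : ℝ) ^ n ≤
      e / W * (((1 + S : ℕ) : ℝ) / t + 1 / c) ^ n := by
  have t0 : (0 : ℝ) < t := Nat.cast_pos.2 ht
  have W0 : (0 : ℝ) < W := Nat.cast_pos.2 hW
  have h1 : (n.factorial : ℝ) * W * a ≤ (((1 + S : ℕ) : ℝ) + (t / c : ℕ)) ^ n := by
    rw [add_assoc, add_comm] at h
    exact_mod_cast h
  have h2 : ((n.factorial * (a * e) : ℕ) : ℝ) ≤
      e / W * (((1 + S : ℕ) : ℝ) + (t / c : ℕ)) ^ n := by
    refine le_of_eq_of_le ?_ (mul_le_mul_of_nonneg_left h1 (by positivity))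
    push_cast
    field_simp
  have h3 : (((1 + S : ℕ) : ℝ) + (t / c : ℕ)) / t ≤ ((1 + S : ℕ) : ℝ) / t + 1 / c := by
    rw [add_div]
    refine add_le_add_right ((div_le_div_of_nonneg_right Nat.cast_div_le t0.le).trans_eq ?_) _
    field_simp
  refine (div_le_div_of_nonneg_right h2 (by positivity)).trans ?_
  rw [mul_div_assoc, ← div_pow]
  gcongr

/-- Induction on `n`, splitting off the first exponent `a` (`Fin.cons`), and the telescoping
estimate `(n + 1) * w * z ^ n + z ^ (n + 1) ≤ (z + w) ^ (n + 1)`. -/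
theorem card_wt_le (w : Fin n → ℕ) (hw : ∀ i, 0 < w i) (T : ℕ) :
    ∃ A : Finset (Fin n → ℕ), (∀ α, α ∈ A ↔ ∑ i, w i * α i < T) ∧
      n.factorial * (∏ i, w i) * A.card ≤ (T + ∑ i, w i) ^ n := by
  exact ⟨w4_A w T, w4_mem hw T, w4_card n w hw T⟩

/-- Filter by `J d = I ⊔ span {y ^ α | d ≤ weight α}`, `J 0 = ⊤`, `J T = I`; passing from
`J (d + 1)` to `J d` adds the monomials of weight `d`, each of which is multiplied by `Q` into
`J (d + 1)` (the one-generator lemma of file `E`). -/
theorem length_wt_le (O : Type) [CommRing O] (y : Fin n → O) (w : Fin n → ℕ) (hw : ∀ i, 0 < w i)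
    (T : ℕ) (A : Finset (Fin n → ℕ)) (hA : ∀ α, ∑ i, w i * α i < T → α ∈ A) (I : Ideal O)
    (hI : ∀ α : Fin n → ℕ, T ≤ ∑ i, w i * α i → ∏ i, y i ^ α i ∈ I) :
    Module.length O (O ⧸ I) ≤ (A.card : ℕ∞) * Module.length O (O ⧸ Ideal.span (Set.range y)) := by
  let m : (Fin n → ℕ) → O := fun α => ∏ i, y i ^ α i
  let J : ℕ → Ideal O := fun d => I ⊔ Ideal.span (m '' {α | d ≤ ∑ i, w i * α i})
  have hJ : ∀ d α, d ≤ ∑ i, w i * α i → m α ∈ J d := fun d α h =>
    Ideal.mem_sup_right (Ideal.subset_span ⟨α, h, rfl⟩)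
  have key : ∀ d ≤ T, e_L (J d) ≤
      (A.filter fun α => ∑ i, w i * α i < d).card * e_L (Ideal.span (Set.range y)) := by
    intro d
    induction d with
    | zero =>
      intro _
      have h1 : J 0 = ⊤ := (Ideal.eq_top_iff_one _).2 (by
        simpa only [m, Pi.zero_apply, pow_zero, Finset.prod_const_one] using
          hJ 0 0 (Nat.zero_le _))
      have h2 : e_L (J 0) = 0 := by
        rw [h1]
        exact Module.length_eq_zero
      rw [h2]
      exact zero_le
    | succ d ih =>
      intro hd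
      have h1 := e_fin (Q := Ideal.span (Set.range y)) (J := J (d + 1))
        (fun α => if ∑ i, w i * α i = d then m α else 0)
        (A.filter fun α => ∑ i, w i * α i = d) fun α q hq => by
          split_ifs with h
          · induction hq using Submodule.span_induction with
            | mem x hx =>
              obtain ⟨j, rfl⟩ := hx
              have e1 : y j * m α = m (α + Pi.single j 1) := by
                simp only [m, Pi.add_apply, pow_add, Finset.prod_mul_distrib]
                rw [mul_comm]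
                congr 1
                rw [Finset.prod_eq_single j
                  (fun i _ hi => by rw [Pi.single_eq_of_ne hi, pow_zero])
                  (fun k => absurd (Finset.mem_univ j) k), Pi.single_eq_same, pow_one]
              rw [e1]
              refine hJ _ _ ?_
              simp only [Pi.add_apply, mul_add, Finset.sum_add_distrib, h]
              refine Nat.add_le_add_left (le_trans ?_ (Finset.single_le_sum
                (f := fun i => w i * (Pi.single j 1 : Fin n → ℕ) i) (fun _ _ => Nat.zero_le _)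
                (Finset.mem_univ j))) d
              simpa only [Pi.single_eq_same, mul_one] using Nat.succ_le_of_lt (hw j)
            | zero => rw [zero_mul]; exact zero_mem _
            | add a b _ _ ha hb => rw [add_mul]; exact add_mem ha hb
            | smul r a _ ha => rw [smul_eq_mul, mul_assoc]; exact Ideal.mul_mem_left _ r ha
          · rw [mul_zero]
            exact zero_mem _
      have h2 : J d ≤ J (d + 1) ⊔ Ideal.span ((fun α => if ∑ i, w i * α i = d then m α else 0) ''
          (A.filter fun α => ∑ i, w i * α i = d)) := by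
        refine sup_le (le_sup_of_le_left le_sup_left) (Ideal.span_le.2 ?_)
        rintro _ ⟨α, hα, rfl⟩
        rcases (show d ≤ ∑ i, w i * α i from hα).eq_or_lt with h | h
        · refine Ideal.mem_sup_right (Ideal.subset_span ⟨α, ?_, if_pos h.symm⟩)
          exact Finset.mem_coe.2 (Finset.mem_filter.2 ⟨hA α (h ▸ hd), h.symm⟩)
        · exact Ideal.mem_sup_left (hJ _ α h)
      have h3 : (A.filter fun α => ∑ i, w i * α i = d).card +
          (A.filter fun α => ∑ i, w i * α i < d).card ≤
          (A.filter fun α => ∑ i, w i * α i < d + 1).card := by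
        rw [← Finset.card_union_of_disjoint
          (Finset.disjoint_filter.2 fun α _ h1 h2 => h2.ne h1), ← Finset.filter_or]
        exact Finset.card_le_card (Finset.monotone_filter_right _ fun α _ h => by omega)
      refine h1.trans ((add_le_add_right ((e_anti h2).trans (ih (Nat.le_of_succ_le hd))) _).trans ?_)
      rw [← add_mul, ← Nat.cast_add]
      exact mul_le_mul_left (Nat.cast_le.2 h3) _
  have h4 : J T ≤ I := sup_le le_rfl (Ideal.span_le.2 (by
    rintro _ ⟨α, hα, rfl⟩
    exact hI α hα))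
  refine (e_anti h4).trans ((key T le_rfl).trans ?_)
  exact mul_le_mul_left (Nat.cast_le.2 (Finset.card_filter_le _ _)) _

/-- As `vol_le`, with `T = t / c + 1`. -/
theorem vol_le_w (O : Type) [CommRing O] [Algebra O K] (y : Fin n → O) (e : ℕ)
    (he : Module.length O (O ⧸ Ideal.span (Set.range y)) = e) {v : Valuation K ℤᵐ⁰}
    (hv : Over O v) (c : ℕ) (hc : 0 < c) (w : Fin n → ℕ) (hw : ∀ i, 0 < w i)
    (hy : ∀ i, v (algebraMap O K (y i)) ≤ exp (-((c * w i : ℕ) : ℤ))) :
    vol O n v ≤ (e : ℝ≥0∞) / ((c : ℝ≥0∞) ^ n * ((∏ i, w i : ℕ) : ℝ≥0∞)) := by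
  choose A hA hc' using fun t : ℕ => card_wt_le w hw (t / c + 1)
  have h1 : ∀ t : ℕ, Module.length O (O ⧸ vIdeal O v t) ≤ (((A t).card * e : ℕ) : ℕ∞) := by
    intro t
    refine (length_wt_le O y w hw (t / c + 1) (A t) (fun α => (hA t α).2) _
      fun α hα => (mem_vIdeal O hv _ _).2 ?_).trans_eq ?_
    · refine (w4_val y c w α hy _).trans (exp_le_exp.2 (neg_le_neg ?_))
      exact_mod_cast (Nat.lt_mul_div_succ t hc).le.trans (Nat.mul_le_mul_left c hα)
    · rw [he, Nat.cast_mul]
  have hW : 0 < ∏ i, w i := Finset.prod_pos fun i _ => hw i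
  have h3 : Tendsto (fun t : ℕ => ENNReal.ofReal (e / (∏ i, w i : ℕ) *
      (((1 + ∑ i, w i : ℕ) : ℝ) / t + 1 / c) ^ n)) atTop
      (nhds (ENNReal.ofReal (e / (∏ i, w i : ℕ) * (0 + 1 / (c : ℝ)) ^ n))) :=
    ENNReal.tendsto_ofReal ((((tendsto_const_div_atTop_nhds_zero_nat _).add_const
      _).pow n).const_mul _)
  have c0 : (0 : ℝ) < c := Nat.cast_pos.2 hc
  have W0 : (0 : ℝ) < (∏ i, w i : ℕ) := Nat.cast_pos.2 hW
  have e1 : ENNReal.ofReal (e / (∏ i, w i : ℕ) * (0 + 1 / (c : ℝ)) ^ n) =
      (e : ℝ≥0∞) / ((c : ℝ≥0∞) ^ n * ((∏ i, w i : ℕ) : ℝ≥0∞)) := by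
    rw [zero_add, one_div, inv_pow, ← div_eq_mul_inv, div_div, mul_comm,
      ENNReal.ofReal_div_of_pos (by positivity), ENNReal.ofReal_mul (by positivity),
      ENNReal.ofReal_pow c0.le, ENNReal.ofReal_natCast, ENNReal.ofReal_natCast,
      ENNReal.ofReal_natCast]
  rw [← e1, ← h3.limsup_eq]
  refine limsup_le_limsup ((eventually_gt_atTop 0).mono fun t ht => ?_)
  have t0 : (0 : ℝ) < t := Nat.cast_pos.2 ht
  refine le_trans ?_ (ENNReal.ofReal_le_ofReal (w4_real hc ht hW (hc' t)))
  rw [ENNReal.ofReal_div_of_pos (by positivity), ENNReal.ofReal_pow t0.le, ENNReal.ofReal_natCast,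
    ENNReal.ofReal_natCast, Nat.cast_mul]
  refine ENNReal.div_le_div_right (mul_le_mul_right ?_ _) _
  exact (ENat.toENNReal_le.2 (h1 t)).trans_eq (ENat.toENNReal_coe _)

end Vale.Agent.P282
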