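import Vale.Agent.P282.Main
import Vale.Agent.P282.W2
import Vale.Agent.P282.W4

/-! The weighted bound. -/

open scoped ENNReal WithZero
open WithZero Filter MvPolynomial

noncomputable section

namespace Vale.Agent.P282

set_option linter.unusedSectionVars false

variable {K : Type} [Field K] [Algebra ℂ K] {n : ℕ}

theorem core_final_w {A x : ℝ} {c e P : ℕ} (hc : 0 < c) (hA : A ≤ x * c) {w : ℝ≥0∞}
    (hw : w ≤ (e : ℝ≥0∞) / ((c : ℝ≥0∞) ^ n * (P : ℝ≥0∞))) :
    ENNReal.ofReal A ^ n * w ≤ e * ENNReal.ofReal x ^ n / P := by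
  have h1 : ENNReal.ofReal A ≤ ENNReal.ofReal x * c := by
    rw [← ENNReal.ofReal_natCast, ← ENNReal.ofReal_mul' (Nat.cast_nonneg _)]
    exact ENNReal.ofReal_le_ofReal hA
  have h2 : (c : ℝ≥0∞) ^ n ≠ 0 := pow_ne_zero _ (by exact_mod_cast hc.ne')
  have h3 : (c : ℝ≥0∞) ^ n ≠ ⊤ := ENNReal.pow_ne_top (ENNReal.natCast_ne_top c)
  calc ENNReal.ofReal A ^ n * w ≤ (ENNReal.ofReal x * c) ^ n *
        ((e : ℝ≥0∞) / ((c : ℝ≥0∞) ^ n * (P : ℝ≥0∞))) := mul_le_mul' (pow_le_pow_left' h1 n) hw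
    _ = e * ENNReal.ofReal x ^ n / P := by
        rw [mul_pow, div_eq_mul_inv, ENNReal.mul_inv (Or.inl h2) (Or.inl h3), div_eq_mul_inv]
        calc _ = (e * ENNReal.ofReal x ^ n * (P : ℝ≥0∞)⁻¹) * ((c : ℝ≥0∞) ^ n * ((c : ℝ≥0∞) ^ n)⁻¹) := by
              ring
          _ = _ := by rw [ENNReal.mul_inv_cancel h2 h3, mul_one]

theorem core_num_w {O : Type} [CommRing O] [IsLocalRing O] [Algebra O K]
    (y : Fin n → O) (Y : Fin n → K) (hYy : ∀ i, algebraMap O K (y i) = Y i)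
    (w : Fin n → ℕ) (hw : ∀ i, 0 < w i) {π : K} (hY0 : π ≠ 0)
    (e : ℕ) (he : Module.length O (O ⧸ Ideal.span (Set.range y)) = e)
    (D : Fin n → Derivation ℂ K K) (hJ : jac D Y ≠ 0) {r : ℕ} (hr : r ≠ 0) {g : K}
    (hg0 : g ≠ 0) {z : K} (hzO : (z * jac D Y) ^ r / g ∈ (algebraMap O K).range) {b : O} {σ : ℕ}
    {v : Valuation K ℤᵐ⁰} (hbv : ∀ c : ℕ,
      (∀ i, v (algebraMap O K (y i)) ≤ exp (-((c * w i : ℕ) : ℤ))) →
        v (algebraMap O K b) ≤ exp (-((c * σ : ℕ) : ℤ)))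
    (hvc : Centered O v) (hdiv : IsDivisorial n v)
    (hle : ∀ i, v (Y i) = v (π ^ w i)) (hlt : v π < 1)
    (hjac : ∀ f : Fin n → K, (∀ i, v (f i) ≤ 1) →
      v (jac D f * π ^ ∑ i, w i) < v (jac D Y)) (hvx : 1 ≤ v (z * algebraMap O K b)) :
    nvol O D r g ≤ e * ENNReal.ofReal ((∑ i, w i : ℕ) - σ) ^ n / (∏ i, w i : ℕ) := by
  have hx0 : z * algebraMap O K b ≠ 0 := fun h => by simp [h] at hvx
  have hz0 : z ≠ 0 := left_ne_zero_of_mul hx0
  have hb0 : algebraMap O K b ≠ 0 := right_ne_zero_of_mul hx0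
  have hc0 : 0 < ord v π := by
    have := (ord_lt_iff v one_ne_zero hY0).2 (by simpa using hlt)
    simpa [ord] using this
  obtain ⟨c, hc⟩ := Int.eq_ofNat_of_zero_le hc0.le
  have hyc : ∀ i, v (algebraMap O K (y i)) ≤ exp (-((c * w i : ℕ) : ℤ)) := fun i => by
    rw [hYy, hle, val_eq_exp v (pow_ne_zero _ hY0), ord_pow, hc, Nat.cast_mul, mul_comm]
  have h1 : ((c * σ : ℕ) : ℤ) ≤ ord v (algebraMap O K b) := (le_ord_iff v hb0 _).2 (hbv c hyc)
  have h2 : ord v z + ord v (algebraMap O K b) ≤ 0 := by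
    rw [← ord_mul v hz0 hb0]
    have := (ord_le_iff v hx0 one_ne_zero).2 (by simpa using hvx)
    simpa [ord] using this
  have h3 : ord v g ≤ r * (ord v z + ord v (jac D Y)) := by
    obtain ⟨o, ho⟩ := hzO
    have h4 := hvc.1 o
    rw [ho, v.map_div, div_le_one₀ (zero_lt_iff.2 (v.ne_zero_iff.2 hg0)),
      ← ord_le_iff v hg0 (pow_ne_zero _ (mul_ne_zero hz0 hJ)), ord_pow, ord_mul v hz0 hJ] at h4
    exact h4
  have h4 : ord v (jac D Y) + 1 - (∑ i, w i : ℕ) * c ≤ sInf (jset D v) := by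
    refine le_csInf ⟨_, Y, fun i => hYy i ▸ hvc.1 (y i), hJ, rfl⟩ ?_
    rintro _ ⟨f, hf, hf0, rfl⟩
    have h5 := (ord_lt_iff v hJ (mul_ne_zero hf0 (pow_ne_zero _ hY0))).2 (hjac f hf)
    rw [ord_mul v hf0 (pow_ne_zero _ hY0), ord_pow, hc] at h5
    omega
  have h5 : formOrd D r g v ≤ r * (ord v z - 1 + (∑ i, w i : ℕ) * c) := by
    unfold formOrd
    nlinarith [Nat.cast_nonneg (α := ℤ) r]
  have hA : logDisc D r g v ≤ ((∑ i, w i : ℕ) - σ : ℝ) * c := by
    have hr' : (0 : ℝ) < r := by exact_mod_cast Nat.pos_of_ne_zero hr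
    have h6 : (formOrd D r g v : ℝ) / r ≤ ord v z - 1 + (∑ i, w i : ℕ) * c := by
      rw [div_le_iff₀ hr', mul_comm]
      exact_mod_cast h5
    have h7 : (σ : ℝ) * c ≤ -ord v z := by
      have h8 : (σ : ℤ) * c ≤ -ord v z := by
        push_cast at h1
        linarith
      exact_mod_cast h8
    unfold logDisc
    linarith [sub_mul ((∑ i, w i : ℕ) : ℝ) σ c]
  have hc1 : 0 < c := by omega
  exact (iInf_le_of_le v (iInf_le_of_le hdiv (iInf_le _ hvc))).trans
    (core_final_w hc1 hA (vol_le_w O y e he hvc.1 c hc1 w hw hyc))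

theorem core_w {k : ℕ} {R O ι : Type} (L : Type) [Fintype ι] [CommRing R] [IsDomain R]
    [IsIntegrallyClosed R] [Algebra ℂ R] [Algebra.FiniteType ℂ R]
    [Algebra (MvPolynomial (Fin (k + 2)) ℂ) R] [FaithfulSMul (MvPolynomial (Fin (k + 2)) ℂ) R]
    [Module.Finite (MvPolynomial (Fin (k + 2)) ℂ) R] [Algebra R K] [IsFractionRing R K]
    [IsScalarTower ℂ R K] [Field L] [Algebra ℂ L] [Algebra (MvPolynomial (Fin (k + 2)) ℂ) L]
    [IsScalarTower ℂ (MvPolynomial (Fin (k + 2)) ℂ) L]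
    [IsFractionRing (MvPolynomial (Fin (k + 2)) ℂ) L] [Algebra L K] [IsScalarTower ℂ L K]
    [Algebra (MvPolynomial (Fin (k + 2)) ℂ) K] [IsScalarTower ℂ (MvPolynomial (Fin (k + 2)) ℂ) K]
    [IsScalarTower (MvPolynomial (Fin (k + 2)) ℂ) L K]
    [IsScalarTower (MvPolynomial (Fin (k + 2)) ℂ) R K]
    (m : Ideal R) [m.IsMaximal] [CommRing O] [IsLocalRing O] [IsDomain O] [IsNoetherianRing O]
    [IsIntegrallyClosed O] [Algebra ℂ O] [Algebra R O] [IsLocalization.AtPrime O m] [Algebra O K]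
    [IsScalarTower ℂ O K] [IsFractionRing O K] [IsScalarTower R O K] (y : Fin (k + 2) → O)
    (hy : ∀ i, y i = algebraMap R O (algebraMap (MvPolynomial (Fin (k + 2)) ℂ) R (X i)))
    {j : ℕ} (hred : IsLocalRing.maximalIdeal O ^ (j + 1) ≤ Ideal.span (Set.range y))
    (e : ℕ) (he : Module.length O (O ⧸ Ideal.span (Set.range y)) = e)
    (φ : ι → R →ₗ[MvPolynomial (Fin (k + 2)) ℂ] MvPolynomial (Fin (k + 2)) ℂ)
    (hφ : ∀ a : R, (∀ i, constantCoeff (φ i a) = 0) → algebraMap R O a ∈ Ideal.span (Set.range y))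
    (D : Fin (k + 2) → Derivation ℂ K K) (hD : LinearIndependent K D) (r : ℕ) (g : K)
    (hg : Generates O D r g) (b : O) (hb : b ∉ Ideal.span (Set.range y)) (w : Fin (k + 2) → ℕ)
    (hw0 : w 0 = w 1 + 1) (hw : ∀ i, 0 < w i) (σ : ℕ)
    (hbv : ∀ (v : Valuation K ℤᵐ⁰) (c : ℕ), Centered O v →
      (∀ i, v (algebraMap O K (y i)) ≤ exp (-((c * w i : ℕ) : ℤ))) →
        v (algebraMap O K b) ≤ exp (-((c * σ : ℕ) : ℤ))) :
    nvol O D r g ≤ e * ENNReal.ofReal ((∑ i, w i : ℕ) - σ) ^ (k + 2) / (∏ i, w i : ℕ) := by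
  obtain ⟨hr, hg0, hgen⟩ := hg
  have _ : FiniteDimensional L K := findim' (S := MvPolynomial (Fin (k + 2)) ℂ) (R := R) L
  obtain ⟨Y, hY⟩ : ∃ Y : Fin (k + 2) → K,
      ∀ i, Y i = algebraMap (MvPolynomial (Fin (k + 2)) ℂ) K (X i) := ⟨_, fun _ => rfl⟩
  have hYy : ∀ i, algebraMap O K (y i) = Y i := fun i => by
    rw [hy, hY, ← IsScalarTower.algebraMap_apply, ← IsScalarTower.algebraMap_apply]
  have hae : ∀ P : MvPolynomial (Fin (k + 2)) ℂ, algebraMap _ K P = aeval Y P := by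
    intro P
    have : IsScalarTower.toAlgHom ℂ (MvPolynomial (Fin (k + 2)) ℂ) K = aeval Y :=
      MvPolynomial.algHom_ext fun i => by simp [hY]
    exact DFunLike.congr_fun this P
  have hinj : Function.Injective (algebraMap (MvPolynomial (Fin (k + 2)) ℂ) K) := by
    rw [IsScalarTower.algebraMap_eq _ L K]
    exact (algebraMap L K).injective.comp (IsFractionRing.injective _ L)
  have hJ : jac D Y ≠ 0 := by
    refine jac_ne D hD Y fun x => ?_
    have h1 : IsAlgebraic (MvPolynomial (Fin (k + 2)) ℂ) x :=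
      (IsFractionRing.isAlgebraic_iff _ L K).2 (Algebra.IsAlgebraic.isAlgebraic x)
    let f : MvPolynomial (Fin (k + 2)) ℂ →+* Algebra.adjoin ℂ (Set.range Y) :=
      (algebraMap _ K).codRestrict (Algebra.adjoin ℂ (Set.range Y)) fun P => by
        rw [hae, Algebra.adjoin_range_eq_range_aeval]
        exact ⟨P, rfl⟩
    exact h1.ringHom_of_comp_eq f (RingHom.id K)
      (fun a c h => hinj (congrArg Subtype.val h)) (RingHom.ext fun _ => rfl)
  choose z hz using fun i => exists_z (K := K) L (φ i)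
  have hzO : ∀ i, (z i * jac D Y) ^ r / g ∈ (algebraMap O K).range := by
    intro i
    by_contra hn
    obtain ⟨v, hv, h1⟩ := exists_primeDiv O _ hn
    have hv' : PrimeDiv R v := hv.of_loc O m.primeCompl
    obtain ⟨f, hf, hf0, hle⟩ := codiff_le' L Y hY D hJ (z i) (fun a => ⟨_, hz i a⟩) hv'
    have h2 : sInf (jset D v) ≤ ord v (jac D f) := csInf_le (jset_bdd D hv') ⟨f, hf, hf0, rfl⟩
    have h3 := hgen v hv
    unfold formOrd at h3
    have h4 : v (jac D f ^ r) ≤ v g := by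
      rw [← ord_le_iff v hg0 (pow_ne_zero _ hf0), ord_pow]
      nlinarith [Nat.cast_nonneg (α := ℤ) r]
    rw [v.map_div, one_lt_div₀ (zero_lt_iff.2 (v.ne_zero_iff.2 hg0)), v.map_pow] at h1
    rw [v.map_pow] at h4
    exact absurd ((pow_le_pow_left' hle r).trans h4) (not_le.2 h1)
  obtain ⟨E, hE, hE1, hE2⟩ := exists_family_w L Y (fun i => by
    rw [hY, ← IsScalarTower.algebraMap_apply]) D hJ w hw0 hw
  have hYlt : ∀ v ∈ E, ∀ i, v (Y i) < 1 := by
    intro v hv i
    obtain ⟨-, π, -, h1, h2, -⟩ := hE1 v hv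
    rw [h2, v.map_pow]
    exact pow_lt_one₀ zero_le h1 (hw i).ne'
  have hR : ∀ v ∈ E, Over R v := by
    intro v hv a
    refine core_int (S := MvPolynomial (Fin (k + 2)) ℂ) (fun P => ?_)
      (Algebra.IsIntegral.isIntegral a).algebraMap
    rw [hae]
    exact f_aeval_le (hE1 v hv).1.1 Y (fun i => (hYlt v hv i).le) P
  have hmul : ∀ v ∈ E, ∀ a ∈ Ideal.span (Set.range fun i =>
      algebraMap (MvPolynomial (Fin (k + 2)) ℂ) R (X i)), v (algebraMap R K a) < 1 := by
    intro v hv a ha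
    obtain ⟨c, rfl⟩ := Ideal.mem_span_range_iff_exists_fun.1 ha
    rw [map_sum]
    refine v.map_sum_lt one_ne_zero fun i _ => ?_
    rw [map_mul, v.map_mul, ← IsScalarTower.algebraMap_apply, ← hY]
    exact (mul_le_of_le_one_left' (hR v hv _)).trans_lt (hYlt v hv i)
  have hQ : Ideal.span (Set.range y) = (Ideal.span (Set.range fun i =>
      algebraMap (MvPolynomial (Fin (k + 2)) ℂ) R (X i))).map (algebraMap R O) := by
    rw [Ideal.map_span, ← Set.range_comp, funext hy]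
    rfl
  obtain ⟨τ, hτ, hN⟩ := core_cen m hE hR hmul (j := j)
    (by rwa [← hQ]) z
  obtain ⟨b₀, s, rfl⟩ := IsLocalization.exists_mk'_eq m.primeCompl b
  have hb1 : algebraMap R O (τ * b₀) ∉ Ideal.span (Set.range y) := by
    intro h
    rw [map_mul, Ideal.unit_mul_mem_iff_mem _ (IsLocalization.map_units O
      (⟨τ, hτ⟩ : m.primeCompl))] at h
    exact hb (by
      rw [IsLocalization.mk'_eq_mul_mk'_one]
      exact Ideal.mul_mem_right _ _ h)
  obtain ⟨i, hi⟩ : ∃ i, constantCoeff (φ i (τ * b₀)) ≠ 0 := by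
    by_contra h
    push Not at h
    exact hb1 (hφ _ h)
  obtain ⟨v, hv, hvx⟩ : ∃ v ∈ E, 1 ≤ v (z i * algebraMap R K (τ * b₀)) := by
    by_contra h
    push Not at h
    exact hi (hE2 _ h _ (hz i _))
  have hvc : Centered O v := by
    by_contra hn
    have h1 := hN v hv i hn
    have e1 : z i * algebraMap R K (τ * b₀) =
        algebraMap R K τ * z i * algebraMap R K b₀ := by
      rw [map_mul]
      ring
    rw [e1, v.map_mul] at hvx
    exact absurd ((mul_le_of_le_one_right' (hR v hv _)).trans_lt h1) (not_lt.2 hvx)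
  obtain ⟨hdiv, π, hπ0, hlt, hle, hjac⟩ := hE1 v hv
  refine core_num_w y Y hYy w hw hπ0 e he D hJ hr hg0 (hzO i) (b := algebraMap R O (τ * b₀))
    (fun c hc => ?_) hvc hdiv hle hlt hjac (by rwa [← IsScalarTower.algebraMap_apply])
  rw [map_mul, ← IsLocalization.mk'_spec O b₀ s]
  simp only [map_mul]
  exact (mul_le_of_le_one_left' (hvc.1 _)).trans
    ((mul_le_of_le_one_right' (hvc.1 _)).trans (hbv v c hvc hc))

theorem main_w {k : ℕ} {R O : Type} [CommRing R] [IsDomain R] [IsIntegrallyClosed R] [Algebra ℂ R]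
    [Algebra.FiniteType ℂ R] (m : Ideal R) [m.IsMaximal] [CommRing O] [IsLocalRing O]
    [Algebra R O] [IsLocalization.AtPrime O m] [Algebra R K] [IsFractionRing R K]
    [IsScalarTower ℂ R K] [Algebra O K] [IsScalarTower R O K]
    (hdim : Algebra.trdeg ℂ K = (k + 2 : ℕ)) (D : Fin (k + 2) → Derivation ℂ K K)
    (hD : LinearIndependent K D) (r : ℕ) (g : K) (hg : Generates O D r g) (y : Fin (k + 2) → O)
    (hq : QR y) {j : ℕ} (hred : IsLocalRing.maximalIdeal O ^ (j + 1) =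
      Ideal.span (Set.range y) * IsLocalRing.maximalIdeal O ^ j)
    (e : ℕ) (he : Module.length O (O ⧸ Ideal.span (Set.range y)) = e) (b : O)
    (hb : b ∉ Ideal.span (Set.range y)) (w : Fin (k + 2) → ℕ)
    (hw0 : w 0 = w 1 + 1) (hw : ∀ i, 0 < w i) (σ : ℕ)
    (hbv : ∀ (v : Valuation K ℤᵐ⁰) (c : ℕ), Centered O v →
      (∀ i, v (algebraMap O K (y i)) ≤ exp (-((c * w i : ℕ) : ℤ))) →
        v (algebraMap O K b) ≤ exp (-((c * σ : ℕ) : ℤ))) :
    nvol O D r g ≤ e * ENNReal.ofReal ((∑ i, w i : ℕ) - σ) ^ (k + 2) / (∏ i, w i : ℕ) := by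
  have _ : IsNoetherianRing R := Algebra.FiniteType.isNoetherianRing ℂ R
  have _ : IsNoetherianRing O := IsLocalization.isNoetherianRing m.primeCompl O inferInstance
  have _ : IsDomain O := IsLocalization.isDomain_of_atPrime O m
  have _ : IsIntegrallyClosed O :=
    isIntegrallyClosed_of_isLocalization O m.primeCompl m.primeCompl_le_nonZeroDivisors
  have _ : IsFractionRing O K :=
    IsFractionRing.isFractionRing_of_isDomain_of_isLocalization m.primeCompl O K
  let _ : Algebra ℂ O := ((algebraMap R O).comp (algebraMap ℂ R)).toAlgebra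
  have _ : IsScalarTower ℂ R O := IsScalarTower.of_algebraMap_eq fun _ => rfl
  have _ : IsScalarTower ℂ O K := IsScalarTower.of_algebraMap_eq fun c => by
    rw [IsScalarTower.algebraMap_apply ℂ R O, ← IsScalarTower.algebraMap_apply R O K,
      ← IsScalarTower.algebraMap_apply]
  choose a s has using fun i => IsLocalization.exists_mk'_eq m.primeCompl (y i)
  obtain ⟨y', hy', hfin⟩ := exists_noether (K := K) hdim m a (j + 2 + ∑ i, w i)
  obtain ⟨hq', hQ⟩ := hq.change (y' := fun i => algebraMap R O (y' i)) fun i => by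
    refine ⟨algebraMap R O (s i), IsLocalization.map_units O (s i), ?_⟩
    rw [← has i, IsLocalization.mk'_spec', ← map_sub]
    have h1 := Ideal.mem_map_of_mem (algebraMap R O)
      (Ideal.pow_le_pow_right (Nat.le_add_right _ _) (hy' i))
    rw [Ideal.map_pow, IsLocalization.AtPrime.map_eq_maximalIdeal, pow_succ', hred] at h1
    exact Ideal.mul_mono_right Ideal.mul_le_left h1
  let _ : Algebra (MvPolynomial (Fin (k + 2)) ℂ) R := (aeval y').toRingHom.toAlgebra
  have _ : IsScalarTower ℂ (MvPolynomial (Fin (k + 2)) ℂ) R :=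
    IsScalarTower.of_algebraMap_eq fun c => ((aeval y').commutes c).symm
  have _ : Module.Finite (MvPolynomial (Fin (k + 2)) ℂ) R := hfin
  have hae : ∀ P : MvPolynomial (Fin (k + 2)) ℂ,
      algebraMap R O (algebraMap _ R P) = aeval (fun i => algebraMap R O (y' i)) P :=
    fun P => (aeval_algebraMap_apply O y' P).symm
  have hinj := hq'.inj (by
    rw [hQ]
    exact fun h => hb (h ▸ Submodule.mem_top))
  have _ : FaithfulSMul (MvPolynomial (Fin (k + 2)) ℂ) R :=
    (faithfulSMul_iff_algebraMap_injective _ _).2 fun P P' h => hinj (by rw [← hae, ← hae, h])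
  let _ : Algebra (MvPolynomial (Fin (k + 2)) ℂ) K :=
    ((algebraMap R K).comp (algebraMap _ R)).toAlgebra
  have _ : IsScalarTower (MvPolynomial (Fin (k + 2)) ℂ) R K :=
    IsScalarTower.of_algebraMap_eq fun _ => rfl
  have _ : IsScalarTower ℂ (MvPolynomial (Fin (k + 2)) ℂ) K :=
    IsScalarTower.of_algebraMap_eq fun c => by
      rw [IsScalarTower.algebraMap_apply (MvPolynomial (Fin (k + 2)) ℂ) R K,
        ← IsScalarTower.algebraMap_apply ℂ (MvPolynomial (Fin (k + 2)) ℂ) R,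
        ← IsScalarTower.algebraMap_apply]
  have _ : FaithfulSMul (MvPolynomial (Fin (k + 2)) ℂ) K :=
    (faithfulSMul_iff_algebraMap_injective _ _).2
      ((IsFractionRing.injective R K).comp (FaithfulSMul.algebraMap_injective _ R))
  let _ := FractionRing.liftAlgebra (MvPolynomial (Fin (k + 2)) ℂ) K
  have _ := FractionRing.isScalarTower_liftAlgebra (MvPolynomial (Fin (k + 2)) ℂ) K
  have _ : IsScalarTower ℂ (FractionRing (MvPolynomial (Fin (k + 2)) ℂ)) K :=
    IsScalarTower.of_algebraMap_eq fun c => by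
      rw [IsScalarTower.algebraMap_apply ℂ (MvPolynomial (Fin (k + 2)) ℂ) (FractionRing _),
        ← IsScalarTower.algebraMap_apply (MvPolynomial (Fin (k + 2)) ℂ) _ K,
        ← IsScalarTower.algebraMap_apply]
  have hy : ∀ i, algebraMap R O (y' i) =
      algebraMap R O (algebraMap (MvPolynomial (Fin (k + 2)) ℂ) R (X i)) := fun i => by
    rw [hae, aeval_X]
  have _ := finite_quot m.primeCompl (fun i => algebraMap R O (y' i)) hy
  obtain ⟨_, φ, hφ⟩ := exists_forms (fun i => algebraMap R O (y' i)) hae hq'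
  rw [← hQ] at hred he hb
  refine core_w (FractionRing (MvPolynomial (Fin (k + 2)) ℂ)) m _ hy (j := j)
    (hred.le.trans Ideal.mul_le_left) e he φ hφ D hD r g hg b hb w hw0 hw σ fun v c hv hc => ?_
  have hm : IsLocalRing.maximalIdeal O ≤ vIdeal O v c := core_red hv.1 hred (Ideal.span_le.2 (by
    rintro _ ⟨i, rfl⟩
    refine (mem_vIdeal O hv.1 c _).2 ((hc i).trans (exp_le_exp.2 ?_))
    have := Nat.le_mul_of_pos_right c (hw i)
    omega))
  refine hbv v c hv fun i => ?_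
  have h1 := Ideal.mem_map_of_mem (algebraMap R O) (hy' i)
  rw [Ideal.map_pow, IsLocalization.AtPrime.map_eq_maximalIdeal] at h1
  have h2 := (mem_vIdeal O hv.1 _ _).1 (pow_le_vIdeal O hv.1 hm _ h1)
  have h3 : v (algebraMap O K (algebraMap R O (a i))) ≤ exp (-((c * w i : ℕ) : ℤ)) := by
    have e1 : algebraMap R O (a i) = algebraMap R O (y' i) - algebraMap R O (y' i - a i) := by
      rw [map_sub, sub_sub_cancel]
    rw [e1, map_sub]
    refine v.map_sub_le (hc i) (h2.trans (exp_le_exp.2 ?_))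
    have h4 : w i ≤ j + 2 + ∑ i, w i :=
      (Finset.single_le_sum (fun i _ => Nat.zero_le (w i)) (Finset.mem_univ i)).trans
        (Nat.le_add_left _ _)
    have := Nat.mul_le_mul_left c h4
    omega
  rw [← has i, IsLocalization.mk'_eq_mul_mk'_one, map_mul, v.map_mul]
  exact (mul_le_of_le_one_right' (hv.1 _)).trans h3

end Vale.Agent.P282
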