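import Vale.Agent.P282.N0

/-! Completing a reduction to a generating family. -/

open scoped ENNReal WithZero
open WithZero Filter IsLocalRing

noncomputable section

namespace Vale.Agent.P282

set_option linter.unusedSectionVars false

variable {K : Type} [Field K] [Algebra ℂ K] {n : ℕ}

theorem p2_sum {O ι : Type} [CommRing O] [IsLocalRing O] [Fintype ι] (z : ι → O)
    (hz : ∀ i, z i ∈ maximalIdeal O) (a : ι → O) :
    (maximalIdeal O).toCotangent ⟨∑ i, a i * z i,
      Ideal.sum_mem _ fun i _ => Ideal.mul_mem_left _ _ (hz i)⟩ =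
      ∑ i, residue O (a i) • ((maximalIdeal O).toCotangent ⟨z i, hz i⟩ : CotangentSpace O) := by
  have e : (⟨∑ i, a i * z i, Ideal.sum_mem _ fun i _ => Ideal.mul_mem_left _ _ (hz i)⟩ :
      maximalIdeal O) = ∑ i, a i • (⟨z i, hz i⟩ : maximalIdeal O) := Subtype.ext (by simp)
  rw [e, map_sum]
  refine Finset.sum_congr rfl fun i _ => ?_
  rw [map_smul, ← ResidueField.algebraMap_eq, algebraMap_smul]

/-- Induction on `k ≤ N`: `y i ^ N` is the value of a form of degree `k` all of whose monomials
involve some `X l`, `l ≠ i`; for `k < N` its coefficients lie in `Q`, which raises the degree; for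
`k = N` the coefficient `1` of `X i ^ N` lies in `Q`. -/
theorem QR.pow_notMem {O : Type} [CommRing O] {y : Fin n → O} (hy : QR y)
    (h : Ideal.span (Set.range y) ≠ ⊤) (i : Fin n) (N : ℕ) :
    y i ^ N ∉ Ideal.span (y '' {l | l ≠ i}) := by
  classical
  intro h0
  set J : Ideal (MvPolynomial (Fin n) O) := Ideal.span (MvPolynomial.X '' {l | l ≠ i}) with hJ
  have h1 : ∀ a ∈ Ideal.span (y '' {l | l ≠ i}),
      ∃ F ∈ J, F.IsHomogeneous 1 ∧ MvPolynomial.eval y F = a := fun a ha => by
    induction ha using Submodule.span_induction with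
    | mem x hx =>
      obtain ⟨l, hl, rfl⟩ := hx
      exact ⟨MvPolynomial.X l, Ideal.subset_span ⟨l, hl, rfl⟩, MvPolynomial.isHomogeneous_X _ _,
        by simp⟩
    | zero => exact ⟨0, J.zero_mem, MvPolynomial.isHomogeneous_zero _ _ _, by simp⟩
    | add u v _ _ hu hv =>
      obtain ⟨F, a1, a2, rfl⟩ := hu
      obtain ⟨G, b1, b2, rfl⟩ := hv
      exact ⟨F + G, J.add_mem a1 b1, a2.add b2, by simp⟩
    | smul c u _ hu =>
      obtain ⟨F, a1, a2, rfl⟩ := hu
      exact ⟨MvPolynomial.C c * F, J.mul_mem_left _ a1, a2.C_mul c, by simp⟩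
  have hi : y i ∈ Ideal.span (Set.range y) := Ideal.subset_span ⟨i, rfl⟩
  have h2 : ∀ k, k + 1 ≤ N →
      ∃ F ∈ J, F.IsHomogeneous (k + 1) ∧ MvPolynomial.eval y F = y i ^ N := fun k hk => by
    induction k with
    | zero => exact h1 _ h0
    | succ k ih =>
      obtain ⟨F, a1, a2, a3⟩ := ih (by omega)
      have a4 := hy F _ a2 (a3 ▸ Ideal.pow_le_pow_right hk (Ideal.pow_mem_pow hi N))
      choose L l1 l2 using fun α => (mem_pow_iff y 1 (F.coeff α)).1 (by rw [pow_one]; exact a4 α)
      refine ⟨∑ α ∈ F.support, MvPolynomial.monomial α 1 * L α, J.sum_mem fun α hα =>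
        J.mul_mem_right _ (MvPolynomial.mem_ideal_span_X_image.2 fun m hm => ?_),
        MvPolynomial.IsHomogeneous.sum _ _ _ fun α hα => (MvPolynomial.isHomogeneous_monomial _
          (a2.degree_eq_sum_deg_support hα).symm).mul (l1 α), ?_⟩
      · rw [Finset.mem_singleton.1 (MvPolynomial.support_monomial_subset hm)]
        exact MvPolynomial.mem_ideal_span_X_image.1 a1 α hα
      · rw [← a3, map_sum, MvPolynomial.eval_eq (f := F)]
        refine Finset.sum_congr rfl fun α _ => ?_
        rw [map_mul, l2, MvPolynomial.eval_monomial, one_mul, mul_comm]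
        rfl
  cases N with
  | zero =>
    rw [pow_zero] at h0
    exact h ((Ideal.eq_top_iff_one _).2 (Ideal.span_mono (Set.image_subset_range _ _) h0))
  | succ N =>
    obtain ⟨F, a1, a2, a3⟩ := h2 N le_rfl
    have a4 := hy (MvPolynomial.X i ^ (N + 1) - F) _
      ((MvPolynomial.isHomogeneous_X_pow i (N + 1)).sub a2) (by simp [a3]) (Finsupp.single i (N + 1))
    have a5 : F.coeff (Finsupp.single i (N + 1)) = 0 := by
      by_contra a6
      obtain ⟨l, b1, b2⟩ := MvPolynomial.mem_ideal_span_X_image.1 a1 _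
        (MvPolynomial.mem_support_iff.2 a6)
      exact b2 (Finsupp.single_eq_of_ne b1)
    rw [MvPolynomial.coeff_sub, a5, MvPolynomial.coeff_X_pow, if_pos rfl, sub_zero] at a4
    exact h ((Ideal.eq_top_iff_one _).2 a4)

/-- If `a i` is a unit, `Q ≤ Q' ⊔ 𝔪 ^ 2` with `Q'` generated by the other `y l`, Nakayama gives
`𝔪 ^ (j + 1) ≤ Q' * 𝔪 ^ j`, against `QR.pow_notMem`. -/
theorem QR.coeff_mem {O : Type} [CommRing O] [IsLocalRing O] [IsNoetherianRing O] {y : Fin n → O}
    (hy : QR y) (hm : ∀ i, y i ∈ maximalIdeal O) {j : ℕ}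
    (h : maximalIdeal O ^ (j + 1) = Ideal.span (Set.range y) * maximalIdeal O ^ j) (a : Fin n → O)
    (ha : ∑ i, a i * y i ∈ maximalIdeal O ^ 2) (i : Fin n) : a i ∈ maximalIdeal O := by
  classical
  by_contra hu
  obtain ⟨u, hu⟩ := (IsLocalRing.notMem_maximalIdeal.1 hu).exists_left_inv
  set Q : Ideal O := Ideal.span (y '' {l | l ≠ i}) with hQ
  have h1 : Ideal.span (Set.range y) ≤ Q ⊔ maximalIdeal O ^ 2 := by
    rw [Ideal.span_le]
    rintro _ ⟨l, rfl⟩
    by_cases hl : l = i
    · have e : y i = u * ∑ l, a l * y l - u * ∑ l ∈ Finset.univ.erase i, a l * y l := by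
        rw [← Finset.add_sum_erase _ _ (Finset.mem_univ i)]
        linear_combination -(y i) * hu
      rw [hl, e]
      exact Ideal.sub_mem _ (Ideal.mem_sup_right (Ideal.mul_mem_left _ _ ha))
        (Ideal.mem_sup_left (Q.mul_mem_left _ (Q.sum_mem fun l hl => Q.mul_mem_left _
          (Ideal.subset_span ⟨l, (Finset.mem_erase.1 hl).1, rfl⟩))))
    · exact Ideal.mem_sup_left (Ideal.subset_span ⟨l, hl, rfl⟩)
  have h2 : maximalIdeal O ^ (j + 1) ≤ Q := by
    refine Submodule.le_of_le_smul_of_le_jacobson_bot (I := maximalIdeal O)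
      (IsNoetherian.noetherian _) (maximalIdeal_le_jacobson _) ?_
    refine h.le.trans ((Ideal.mul_mono_left h1).trans ?_)
    rw [Ideal.sup_mul]
    refine sup_le_sup Ideal.mul_le_left (le_of_eq ?_)
    rw [smul_eq_mul]
    ring
  refine hy.pow_notMem (fun h3 => (maximalIdeal.isMaximal O).ne_top (top_le_iff.1 ?_)) i (j + 1)
    (h2 (Ideal.pow_mem_pow (hm i) _))
  rw [← h3, Ideal.span_le]
  rintro _ ⟨l, rfl⟩
  exact hm l

/-- The classes of the `y i` in the cotangent space are linearly independent; complete them to a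
basis (`exists_linearIndependent_extension`, or a basis of the quotient by their span, of
dimension `c`) and use Nakayama (`CotangentSpace.span_image_eq_top_iff`). -/
theorem exists_compl {O : Type} [CommRing O] [IsLocalRing O] [IsNoetherianRing O] {y : Fin n → O}
    (hy : QR y) (hm : ∀ i, y i ∈ maximalIdeal O) {j : ℕ}
    (h : maximalIdeal O ^ (j + 1) = Ideal.span (Set.range y) * maximalIdeal O ^ j) {c : ℕ}
    (hc : Module.finrank (ResidueField O) (CotangentSpace O) = n + c) :
    ∃ x : Fin c → O, maximalIdeal O = Ideal.span (Set.range y) ⊔ Ideal.span (Set.range x) := by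
  set v : Fin n → CotangentSpace O := fun i => (maximalIdeal O).toCotangent ⟨y i, hm i⟩ with hv
  have h1 : LinearIndependent (ResidueField O) v := by
    refine Fintype.linearIndependent_iff.2 fun g hg i => ?_
    choose a ha using fun i => residue_surjective (g i)
    rw [← ha i, residue_eq_zero_iff]
    refine hy.coeff_mem hm h a ?_ i
    have e := p2_sum y hm a
    simp only [ha] at e
    exact ((maximalIdeal O).toCotangent_eq_zero _).1 (e.trans hg)
  obtain ⟨W, hW⟩ := (Submodule.span (ResidueField O) (Set.range v)).exists_isCompl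
  have h2 : Module.finrank (ResidueField O) W = c := by
    have := Submodule.finrank_add_eq_of_isCompl hW
    rw [finrank_span_eq_card h1, Fintype.card_fin, hc] at this
    omega
  let b := Module.finBasisOfFinrankEq (ResidueField O) W h2
  choose x hx using fun l => (maximalIdeal O).toCotangent_surjective (b l)
  have h3 : Submodule.span O (Set.range (fun i => (⟨y i, hm i⟩ : maximalIdeal O)) ∪ Set.range x) =
      ⊤ := by
    rw [← CotangentSpace.span_image_eq_top_iff, Set.image_union, Submodule.span_union,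
      ← Set.range_comp, ← Set.range_comp, ← hW.sup_eq_top]
    congr 1
    have e : (maximalIdeal O).toCotangent ∘ x = W.subtype ∘ b := funext hx
    rw [e, Set.range_comp, ← Submodule.map_span, b.span_eq, Submodule.map_subtype_top]
  refine ⟨fun l => x l, ?_⟩
  have h4 := congrArg (Submodule.map (maximalIdeal O).subtype) h3
  rw [Submodule.map_subtype_top, Submodule.map_span, Set.image_union, Submodule.span_union,
    ← Set.range_comp, ← Set.range_comp] at h4
  exact h4.symm

/-- If `𝔪` is generated by `N` elements modulo `𝔪 ^ 2`, the cotangent space has dimension at most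
`N` (`finrank_le_of_span_eq_top`, `Ideal.toCotangent`). -/
theorem finrank_cot_le {O ι : Type} [CommRing O] [IsLocalRing O] [Fintype ι] (z : ι → O)
    (hz : ∀ i, z i ∈ maximalIdeal O)
    (h : maximalIdeal O ≤ Ideal.span (Set.range z) ⊔ maximalIdeal O ^ 2) :
    Module.finrank (ResidueField O) (CotangentSpace O) ≤ Fintype.card ι := by
  refine finrank_le_of_span_eq_top
    (v := fun i => (maximalIdeal O).toCotangent ⟨z i, hz i⟩) (top_le_iff.1 fun t _ => ?_)
  obtain ⟨m, rfl⟩ := (maximalIdeal O).toCotangent_surjective t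
  obtain ⟨p, hp, q, hq, e⟩ := Submodule.mem_sup.1 (h m.2)
  obtain ⟨a, rfl⟩ := Ideal.mem_span_range_iff_exists_fun.1 hp
  have h1 : (maximalIdeal O).toCotangent m = ∑ i, residue O (a i) •
      (maximalIdeal O).toCotangent ⟨z i, hz i⟩ := by
    rw [← p2_sum z hz a, Ideal.toCotangent_eq, ← e, add_sub_cancel_left]
    exact hq
  rw [h1]
  exact Submodule.sum_mem _ fun i _ => Submodule.smul_mem _ _ (Submodule.subset_span ⟨i, rfl⟩)

end Vale.Agent.P282
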