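import Vale.Agent.P282.E

/-! Lengths of Gorenstein Artinian quotients. -/

open scoped ENNReal WithZero
open WithZero Filter IsLocalRing

noncomputable section

namespace Vale.Agent.P282

set_option linter.unusedSectionVars false

variable {K : Type} [Field K] [Algebra ℂ K] {n : ℕ}

theorem p3_m (O : Type) [CommRing O] [IsLocalRing O] : e_L (maximalIdeal O) = 1 :=
  Module.length_eq_one_iff.2
    (isSimpleModule_iff_isCoatom.2 (Ideal.isMaximal_def.1 (maximalIdeal.isMaximal O)))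

theorem p3_pow {O : Type} [CommRing O] (Q X : Ideal O) (i : ℕ) : (Q ⊔ X) ^ i ≤ Q ⊔ X ^ i := by
  induction i with
  | zero => simp
  | succ i ih =>
    rw [pow_succ, pow_succ]
    refine (Ideal.mul_mono_left ih).trans ?_
    have a : Q * (Q ⊔ X) ≤ Q := Ideal.mul_le_left
    have b : X ^ i * Q ≤ Q := Ideal.mul_le_right
    rw [Ideal.sup_mul, Ideal.mul_sup (X ^ i)]
    exact sup_le (a.trans le_sup_left) (sup_le (b.trans le_sup_left) le_sup_right)

/-- The colon ideal. -/
def p3_C {O : Type} [CommRing O] (Q : Ideal O) (y : O) : Ideal O :=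
  Submodule.comap (LinearMap.mulLeft O y) Q

theorem p3_mem {O : Type} [CommRing O] {Q : Ideal O} {y b : O} : b ∈ p3_C Q y ↔ y * b ∈ Q :=
  Iff.rfl

/-- The socle is simple: otherwise `(Q ⊔ span {a}) ⊓ (Q ⊔ span {b}) = Q`. -/
theorem socle_simple {O : Type} [CommRing O] [IsLocalRing O] {Q : Ideal O} (hQ : InfIrred Q)
    {a b : O} (ha : ∀ z ∈ maximalIdeal O, z * a ∈ Q) (hb : ∀ z ∈ maximalIdeal O, z * b ∈ Q)
    (ha' : a ∉ Q) : ∃ t : O, b - t * a ∈ Q := by
  by_contra h
  have h1 : (Q ⊔ Ideal.span {a}) ⊓ (Q ⊔ Ideal.span {b}) = Q := by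
    refine le_antisymm (fun y hy => ?_) (le_inf le_sup_left le_sup_left)
    obtain ⟨q, hq, _, h2, e1⟩ := Submodule.mem_sup.1 hy.1
    obtain ⟨q', hq', _, h3, e2⟩ := Submodule.mem_sup.1 hy.2
    obtain ⟨r, rfl⟩ := Ideal.mem_span_singleton'.1 h2
    obtain ⟨s, rfl⟩ := Ideal.mem_span_singleton'.1 h3
    by_cases hs : s ∈ maximalIdeal O
    · exact e2 ▸ Q.add_mem hq' (hb s hs)
    · obtain ⟨u, hu⟩ := (notMem_maximalIdeal.1 hs).exists_left_inv
      have e : b - u * r * a = u * (q - q') := by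
        linear_combination u * e2 - u * e1 - b * hu
      exact absurd ⟨u * r, e ▸ Q.mul_mem_left u (Q.sub_mem hq hq')⟩ h
  rcases hQ.2 h1 with e | e
  · exact ha' (e ▸ Ideal.mem_sup_right (Ideal.mem_span_singleton_self a))
  · refine h ⟨0, ?_⟩
    rw [zero_mul, sub_zero]
    exact e ▸ Ideal.mem_sup_right (Ideal.mem_span_singleton_self b)

/-- `length_pow_le` in the ring `O ⧸ Q` (or repeat its proof modulo `Q`): the quotient by
`Q ⊔ 𝔪 ^ (k + 1)` is filtered by the monomials in `x` of degree at most `k`. -/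
theorem length_sup_le {O : Type} [CommRing O] [IsLocalRing O] {Q : Ideal O} {c : ℕ}
    (x : Fin c → O) (hx : maximalIdeal O = Q ⊔ Ideal.span (Set.range x)) (k : ℕ) :
    Module.length O (O ⧸ (Q ⊔ maximalIdeal O ^ (k + 1))) ≤ ((c + k).choose c : ℕ) := by
  show e_L _ ≤ _
  induction k with
  | zero =>
    rw [zero_add, pow_one, add_zero, Nat.choose_self, Nat.cast_one, ← p3_m O]
    exact e_anti le_sup_right
  | succ k ih =>
    have hX : Ideal.span (Set.range x) ≤ maximalIdeal O := hx ▸ le_sup_right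
    have h := e_fin (Q := maximalIdeal O) (J := Q ⊔ maximalIdeal O ^ (k + 1 + 1))
      (fun σ : Sym (Fin c) (k + 1) => (σ.1.map x).prod) Finset.univ fun σ q hq => by
        rw [pow_succ']
        exact Ideal.mem_sup_right (Ideal.mul_mem_mul hq (Ideal.pow_right_mono hX _
          (by simpa only [σ.2] using e_mem x σ.1)))
    rw [Finset.card_univ, Sym.card_sym_eq_choose, Fintype.card_fin, Finset.coe_univ,
      Set.image_univ, p3_m, mul_one] at h
    have h1 : maximalIdeal O ^ (k + 1) ≤ Q ⊔ Ideal.span (Set.range x) ^ (k + 1) :=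
      hx ▸ p3_pow Q _ _
    refine h.trans ((add_le_add_right ((e_anti (sup_le (le_sup_left.trans le_sup_left) (h1.trans
      (sup_le_sup le_sup_left (e_span x _))))).trans ih) _).trans_eq ?_)
    rw [← Nat.cast_add]
    refine congrArg _ ?_
    rw [Nat.choose_symm_add, Nat.choose_symm_add, ← add_assoc, Nat.add_sub_cancel,
      Nat.choose_succ_succ', add_comm]

theorem p3_gen {O : Type} [CommRing O] [IsLocalRing O] {Q T : Ideal O} (hQ : InfIrred Q) {y : O}
    (h : ∀ b ∈ T, ∀ z ∈ maximalIdeal O, z * (y * b) ∈ Q) : e_L (T ⊓ p3_C Q y) ≤ 1 + e_L T := by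
  by_cases h0 : T ≤ p3_C Q y
  · rw [inf_eq_left.2 h0]
    exact le_add_self
  obtain ⟨a, ha, ha'⟩ := SetLike.not_le_iff_exists.1 h0
  have h1 := e_one (Q := maximalIdeal O) (J := T ⊓ p3_C Q y) (x := a) fun z hz =>
    ⟨T.mul_mem_left z ha, p3_mem.2 (by rw [mul_left_comm]; exact h a ha z hz)⟩
  rw [p3_m] at h1
  refine h1.trans (add_le_add_right (e_anti fun b hb => ?_) _)
  obtain ⟨t, ht⟩ := socle_simple hQ (h a ha) (h b hb) ha'
  refine Submodule.mem_sup.2 ⟨b - t * a, ⟨T.sub_mem hb (T.mul_mem_left t ha), p3_mem.2 ?_⟩,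
    t * a, Ideal.mem_span_singleton'.2 ⟨t, rfl⟩, sub_add_cancel _ _⟩
  rwa [mul_sub, mul_left_comm]

theorem p3_top {O : Type} [CommRing O] [IsLocalRing O] {Q T : Ideal O} (hQ : InfIrred Q)
    (h : ∀ b ∈ T, ∀ z ∈ maximalIdeal O, z * b ∈ Q) : e_L Q ≤ 1 + e_L T :=
  (e_anti fun b hb => one_mul b ▸ p3_mem.1 hb.2).trans
    (p3_gen hQ (y := 1) fun b hb z hz => (one_mul b).symm ▸ h b hb z hz)

/-- `(Q ⊔ 𝔪 ^ (k + 1)) ⧸ Q` is generated by one socle element. -/
theorem length_gor {O : Type} [CommRing O] [IsLocalRing O] {Q : Ideal O} (hQ : InfIrred Q) {c : ℕ}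
    (x : Fin c → O) (hx : maximalIdeal O = Q ⊔ Ideal.span (Set.range x)) (k : ℕ)
    (hk : maximalIdeal O ^ (k + 2) ≤ Q) :
    Module.length O (O ⧸ Q) ≤ ((c + k).choose c + 1 : ℕ) := by
  have h := p3_top hQ (T := Q ⊔ maximalIdeal O ^ (k + 1)) fun b hb z hz => by
    obtain ⟨q, hq, w, hw, rfl⟩ := Submodule.mem_sup.1 hb
    rw [mul_add]
    exact Q.add_mem (Q.mul_mem_left z hq) (hk (pow_succ' (maximalIdeal O) (k + 1) ▸
      Ideal.mul_mem_mul hz hw))
  rw [Nat.cast_add, Nat.cast_one, add_comm]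
  exact h.trans (add_le_add_right (length_sup_le x hx k) _)

/-- Here moreover `a ↦ (x i * a) i` maps `Q ⊔ 𝔪 ^ (k + 1)` to `c` copies of the socle of `O ⧸ Q`,
with kernel inside the socle; so `(Q ⊔ 𝔪 ^ (k + 1)) ⧸ Q` has length at most `c + 1`. -/
theorem length_gor' {O : Type} [CommRing O] [IsLocalRing O] {Q : Ideal O} (hQ : InfIrred Q) {c : ℕ}
    (x : Fin c → O) (hx : maximalIdeal O = Q ⊔ Ideal.span (Set.range x)) (k : ℕ)
    (hk : maximalIdeal O ^ (k + 3) ≤ Q) :
    Module.length O (O ⧸ Q) ≤ ((c + k).choose c + c + 1 : ℕ) := by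
  classical
  have hX : ∀ i, x i ∈ maximalIdeal O := fun i =>
    hx ▸ Ideal.mem_sup_right (Ideal.subset_span ⟨i, rfl⟩)
  have h1 : ∀ s : Finset (Fin c),
      e_L ((Q ⊔ maximalIdeal O ^ (k + 1)) ⊓ s.inf fun i => p3_C Q (x i)) ≤
        s.card + e_L (Q ⊔ maximalIdeal O ^ (k + 1)) := fun s => by
    induction s using Finset.induction_on with
    | empty => simp
    | insert i s hi ih =>
      rw [Finset.inf_insert, inf_comm (p3_C Q (x i)), ← inf_assoc,
        Finset.card_insert_of_notMem hi, Nat.cast_succ, add_comm _ (1 : ℕ∞), add_assoc]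
      refine (p3_gen hQ fun b hb z hz => ?_).trans (add_le_add_right ih _)
      obtain ⟨q, hq, w, hw, rfl⟩ := Submodule.mem_sup.1 hb.1
      rw [mul_add, mul_add]
      refine Q.add_mem (Q.mul_mem_left z (Q.mul_mem_left _ hq)) (hk ?_)
      rw [pow_succ', pow_succ']
      exact Ideal.mul_mem_mul hz (Ideal.mul_mem_mul (hX i) hw)
  have h := p3_top hQ (T := (Q ⊔ maximalIdeal O ^ (k + 1)) ⊓ Finset.univ.inf fun i => p3_C Q (x i))
    fun b hb z hz => by
      have h2 : Q ⊔ Ideal.span (Set.range x) ≤ p3_C Q b :=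
        sup_le (fun q hq => p3_mem.2 (Q.mul_mem_left b hq))
          (Ideal.span_le.2 (Set.range_subset_iff.2 fun i => p3_mem.2
            (mul_comm (x i) b ▸ p3_mem.1 (Finset.inf_le (f := fun i => p3_C Q (x i))
              (Finset.mem_univ i) hb.2))))
      exact mul_comm b z ▸ p3_mem.1 (h2 (hx ▸ hz))
  have h3 := h1 Finset.univ
  rw [Finset.card_univ, Fintype.card_fin] at h3
  rw [Nat.cast_add, Nat.cast_add, Nat.cast_one, add_comm, add_comm _ (c : ℕ∞)]
  exact h.trans (add_le_add_right (h3.trans (add_le_add_right (length_sup_le x hx k) _)) _)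

end Vale.Agent.P282
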