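import Vale.Agent.P282.X1
import Vale.Agent.P282.P2
import Vale.Agent.P282.P3

/-! An orthonormal frame of the Artinian reduction. -/

open scoped ENNReal WithZero
open WithZero Filter IsLocalRing

noncomputable section

namespace Vale.Agent.P282

set_option linter.unusedSectionVars false

variable {K : Type} [Field K] [Algebra ℂ K] {n : ℕ}

theorem x3_indep {O : Type} [CommRing O] [IsLocalRing O] [Algebra ℂ O] (y : Fin n → O)
    (x : Fin 4 → O) (hx : maximalIdeal O = Ideal.span (Set.range y) ⊔ Ideal.span (Set.range x))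
    (hc : Module.finrank (ResidueField O) (CotangentSpace O) = n + 4) (c : Fin 4 → ℂ)
    (h : ∑ i, c i • x i ∈ Ideal.span (Set.range y) ⊔ maximalIdeal O ^ 2) : c = 0 := by
  by_contra h0
  obtain ⟨k, hk⟩ := Function.ne_iff.1 h0
  have hy : ∀ i, y i ∈ maximalIdeal O := fun i =>
    hx ▸ Ideal.mem_sup_left (Ideal.subset_span ⟨i, rfl⟩)
  have hx' : ∀ i, x i ∈ maximalIdeal O := fun i =>
    hx ▸ Ideal.mem_sup_right (Ideal.subset_span ⟨i, rfl⟩)
  let z : Fin n ⊕ Fin 3 → O := Sum.elim y fun i => x (k.succAbove i)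
  have hQ : Ideal.span (Set.range y) ≤ Ideal.span (Set.range z) :=
    Ideal.span_mono (by rintro _ ⟨i, rfl⟩; exact ⟨Sum.inl i, rfl⟩)
  have h1 : ∀ i, x (k.succAbove i) ∈ Ideal.span (Set.range z) ⊔ maximalIdeal O ^ 2 := fun i =>
    Ideal.mem_sup_left (Ideal.subset_span ⟨Sum.inr i, rfl⟩)
  have h2 : x k ∈ Ideal.span (Set.range z) ⊔ maximalIdeal O ^ 2 := by
    have h3 := sup_le_sup_right hQ _ h
    rw [Fin.sum_univ_succAbove _ k] at h3
    have h4 := (Submodule.add_mem_iff_left _ (Submodule.sum_mem _ fun i _ =>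
      Submodule.smul_of_tower_mem _ (c (k.succAbove i)) (h1 i))).1 h3
    have h5 := Submodule.smul_of_tower_mem _ (c k)⁻¹ h4
    rwa [smul_smul, inv_mul_cancel₀ hk, one_smul] at h5
  have h6 := finrank_cot_le z (by rintro (i | i); exacts [hy i, hx' _]) (by
    refine hx.le.trans (sup_le (hQ.trans le_sup_left) (Ideal.span_le.2 ?_))
    rintro _ ⟨i, rfl⟩
    exact Fin.succAboveCases k h2 h1 i)
  rw [hc, Fintype.card_sum, Fintype.card_fin, Fintype.card_fin] at h6
  omega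

theorem x3_lin {O : Type} [CommRing O] [IsLocalRing O] [Algebra ℂ O]
    (hres : ∀ a : O, ∃ c : ℂ, a - algebraMap ℂ O c ∈ maximalIdeal O) {Q : Ideal O}
    (x : Fin 4 → O) (hx : maximalIdeal O = Q ⊔ Ideal.span (Set.range x)) {w : O}
    (hw : w ∈ maximalIdeal O) :
    ∃ a : Fin 4 → ℂ, ∃ s ∈ maximalIdeal O ^ 2, w - (∑ i, a i • x i + s) ∈ Q := by
  have hx' : ∀ i, x i ∈ maximalIdeal O := fun i =>
    hx ▸ Ideal.mem_sup_right (Ideal.subset_span ⟨i, rfl⟩)
  obtain ⟨q, hq, p, hp, rfl⟩ := Submodule.mem_sup.1 (hx.le hw)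
  obtain ⟨r, rfl⟩ := Ideal.mem_span_range_iff_exists_fun.1 hp
  choose a ha using fun i => hres (r i)
  refine ⟨a, ∑ i, (r i - algebraMap ℂ O (a i)) * x i, Ideal.sum_mem _ fun i _ => ?_, ?_⟩
  · rw [pow_two]
    exact Ideal.mul_mem_mul (ha i) (hx' i)
  · have e : ∑ i, a i • x i + ∑ i, (r i - algebraMap ℂ O (a i)) * x i = ∑ i, r i * x i := by
      rw [← Finset.sum_add_distrib]
      refine Finset.sum_congr rfl fun i _ => ?_
      rw [Algebra.smul_def]
      ring
    rwa [e, add_sub_cancel_right]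

theorem x3_soc {O : Type} [CommRing O] [IsLocalRing O] [Algebra ℂ O]
    (hres : ∀ a : O, ∃ c : ℂ, a - algebraMap ℂ O c ∈ maximalIdeal O) {Q : Ideal O}
    (hQ : InfIrred Q) {a b : O} (ha : ∀ z ∈ maximalIdeal O, z * a ∈ Q)
    (hb : ∀ z ∈ maximalIdeal O, z * b ∈ Q) (ha' : a ∉ Q) : ∃ c : ℂ, b - c • a ∈ Q := by
  obtain ⟨t, ht⟩ := socle_simple hQ ha hb ha'
  obtain ⟨c, hc⟩ := hres t
  refine ⟨c, ?_⟩
  have e : b - c • a = (b - t * a) + (t - algebraMap ℂ O c) * a := by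
    rw [Algebra.smul_def]
    ring
  exact e ▸ Q.add_mem ht (ha _ hc)

theorem x3_bil {O : Type} [CommRing O] [Algebra ℂ O] {Q : Ideal O} (x : Fin 4 → O) (σ : O)
    (G : Matrix (Fin 4) (Fin 4) ℂ) (hG : ∀ i j, x i * x j - G i j • σ ∈ Q) (a b : Fin 4 → ℂ) :
    (∑ i, a i • x i) * (∑ j, b j • x j) - (∑ j, (∑ i, a i * G i j) * b j) • σ ∈ Q := by
  have e : (∑ i, a i • x i) * (∑ j, b j • x j) - (∑ j, (∑ i, a i * G i j) * b j) • σ =
      ∑ j, ∑ i, (a i * b j) • (x i * x j - G i j • σ) := by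
    rw [Finset.mul_sum, Finset.sum_smul, ← Finset.sum_sub_distrib]
    refine Finset.sum_congr rfl fun j _ => ?_
    rw [Finset.sum_mul, Finset.sum_mul, Finset.sum_smul, ← Finset.sum_sub_distrib]
    refine Finset.sum_congr rfl fun i _ => ?_
    simp only [Algebra.smul_def, map_mul]
    ring
  rw [e]
  exact Q.sum_mem fun j _ => Q.sum_mem fun i _ => Submodule.smul_of_tower_mem _ _ (hG i j)

theorem x3_comb {O : Type} [CommRing O] [Algebra ℂ O] (x : Fin 4 → O)
    (P : Matrix (Fin 4) (Fin 4) ℂ) (a : Fin 4 → ℂ) :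
    ∑ i, a i • ∑ k, P i k • x k = ∑ k, Matrix.vecMul a P k • x k := by
  simp only [Finset.smul_sum, smul_smul, Matrix.vecMul, dotProduct, Finset.sum_smul]
  exact Finset.sum_comm

/-- `𝔪 ^ 2 ≤ Q` is impossible (the `x i` would be multiples of one socle element,
`socle_simple`, against `finrank_cot_le`), so pick `σ ∈ 𝔪 ^ 2 \ Q`; it generates the socle, and
`x i * x j ≡ G i j • σ` with `G i j : ℂ` (`hres`). If `c ᵥ* G = 0` (`Matrix.exists_vecMul_eq_zero_iff`)
then `∑ c i • x i` lies in the socle, hence in `Q ⊔ 𝔪 ^ 2`, and `finrank_cot_le` for `y` and three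
of the `x i` forces `c = 0`. Apply `exists_orth`, `v = P x`. Independence: reduce modulo `𝔪`, then
multiply by `v j`. -/
theorem exists_frame {O : Type} [CommRing O] [IsLocalRing O] [Algebra ℂ O]
    (hres : ∀ a : O, ∃ c : ℂ, a - algebraMap ℂ O c ∈ maximalIdeal O) (y : Fin n → O)
    (hQ : InfIrred (Ideal.span (Set.range y))) (x : Fin 4 → O)
    (hx : maximalIdeal O = Ideal.span (Set.range y) ⊔ Ideal.span (Set.range x))
    (hc : Module.finrank (ResidueField O) (CotangentSpace O) = n + 4)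
    (h3 : maximalIdeal O ^ 3 ≤ Ideal.span (Set.range y)) :
    ∃ (v : Fin 4 → O) (σ : O), (∀ i, v i ∈ maximalIdeal O) ∧ σ ∈ maximalIdeal O ^ 2 ∧
      (∀ i j, v i * v j - (if i = j then σ else 0) ∈ Ideal.span (Set.range y)) ∧
      (∀ o : O, ∃ (a₀ a₂ : ℂ) (a : Fin 4 → ℂ),
        o - (algebraMap ℂ O a₀ + ∑ i, a i • v i + a₂ • σ) ∈ Ideal.span (Set.range y)) ∧
      ∀ (a₀ a₂ : ℂ) (a : Fin 4 → ℂ),
        algebraMap ℂ O a₀ + ∑ i, a i • v i + a₂ • σ ∈ Ideal.span (Set.range y) →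
          a₀ = 0 ∧ a₂ = 0 ∧ a = 0 := by
  have hI := x3_indep y x hx hc
  generalize Ideal.span (Set.range y) = Q at *
  have hQm : Q ≤ maximalIdeal O := hx ▸ le_sup_left
  have hx' : ∀ i, x i ∈ maximalIdeal O := fun i =>
    hx ▸ Ideal.mem_sup_right (Ideal.subset_span ⟨i, rfl⟩)
  have hsq : ∀ b ∈ maximalIdeal O ^ 2, ∀ z ∈ maximalIdeal O, z * b ∈ Q := fun b hb z hz =>
    h3 (pow_succ' (maximalIdeal O) 2 ▸ Ideal.mul_mem_mul hz hb)
  have hmm : ∀ a ∈ maximalIdeal O, ∀ b ∈ maximalIdeal O, a * b ∈ maximalIdeal O ^ 2 :=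
    fun a ha b hb => pow_two (maximalIdeal O) ▸ Ideal.mul_mem_mul ha hb
  have hne : ¬maximalIdeal O ^ 2 ≤ Q := by
    intro h
    have h0 : x 0 ∉ Q := fun h0 => by
      have := congrFun (hI ![1, 0, 0, 0] (by
        simpa [Fin.sum_univ_four] using Ideal.mem_sup_left h0)) 0
      simp at this
    obtain ⟨c, hc⟩ := x3_soc hres hQ (fun z hz => h (hmm z hz _ (hx' 0)))
      (fun z hz => h (hmm z hz _ (hx' 1))) h0
    have := congrFun (hI ![-c, 1, 0, 0] (by
      simpa [Fin.sum_univ_four, neg_add_eq_sub] using Ideal.mem_sup_left hc)) 1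
    simp at this
  obtain ⟨σ, hσ, hσ'⟩ := SetLike.not_le_iff_exists.1 hne
  have hs : ∀ b : O, ∃ c : ℂ, (∀ z ∈ maximalIdeal O, z * b ∈ Q) → b - c • σ ∈ Q := fun b => by
    by_cases hb : ∀ z ∈ maximalIdeal O, z * b ∈ Q
    · obtain ⟨c, hc⟩ := x3_soc hres hQ (hsq σ hσ) hb hσ'
      exact ⟨c, fun _ => hc⟩
    · exact ⟨0, fun h => absurd h hb⟩
  choose g hg using hs
  let G : Matrix (Fin 4) (Fin 4) ℂ := Matrix.of fun i j => g (x i * x j)
  have hG : ∀ i j, x i * x j - G i j • σ ∈ Q := fun i j =>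
    hg _ (hsq _ (hmm _ (hx' i) _ (hx' j)))
  have hsym : G.IsSymm := Matrix.IsSymm.ext fun i j => congrArg g (mul_comm _ _)
  have hdet : G.det ≠ 0 := by
    intro h
    obtain ⟨c, hc0, hc⟩ := Matrix.exists_vecMul_eq_zero_iff.2 h
    refine hc0 (hI c ?_)
    have h1 : ∀ z ∈ maximalIdeal O, z * ∑ i, c i • x i ∈ Q := by
      intro z hz
      obtain ⟨a, s, hs, h2⟩ := x3_lin hres x hx hz
      have hw : ∑ i, c i • x i ∈ maximalIdeal O :=
        Ideal.sum_mem _ fun i _ => Submodule.smul_of_tower_mem _ _ (hx' i)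
      have h4 := x3_bil x σ G hG c a
      have h5 : ∀ j, ∑ i, c i * G i j = 0 := fun j => congrFun hc j
      simp only [h5, zero_mul, Finset.sum_const_zero, zero_smul, sub_zero] at h4
      have e : z * ∑ i, c i • x i = (z - (∑ i, a i • x i + s)) * ∑ i, c i • x i +
          (∑ i, c i • x i) * (∑ j, a j • x j) + (∑ i, c i • x i) * s := by ring
      rw [e]
      exact Q.add_mem (Q.add_mem (Q.mul_mem_right _ h2) h4) (hsq s hs _ hw)
    exact Submodule.mem_sup.2 ⟨_, hg _ h1, _, Submodule.smul_of_tower_mem _ _ hσ,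
      sub_add_cancel _ _⟩
  obtain ⟨P, hP⟩ := exists_orth G hsym hdet
  have hP1 : P * (G * P.transpose) = 1 := by rw [← Matrix.mul_assoc, hP]
  have hP2 : (G * P.transpose) * P = 1 := mul_eq_one_comm.1 hP1
  have hv : ∀ i, ∑ k, P i k • x k ∈ maximalIdeal O := fun i =>
    Ideal.sum_mem _ fun k _ => Submodule.smul_of_tower_mem _ _ (hx' k)
  refine ⟨fun i => ∑ k, P i k • x k, σ, hv, hσ, fun i j => ?_, fun o => ?_, fun a₀ a₂ a h => ?_⟩
  · have h1 := x3_bil x σ G hG (P i) (P j)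
    have h2 : ∑ l, (∑ k, P i k * G k l) * P j l = (1 : Matrix (Fin 4) (Fin 4) ℂ) i j := by
      rw [← hP]
      rfl
    rw [h2, Matrix.one_apply, ite_smul, one_smul, zero_smul] at h1
    exact h1
  · obtain ⟨a₀, h0⟩ := hres o
    obtain ⟨a, s, hs, h2⟩ := x3_lin hres x hx h0
    refine ⟨a₀, g s, Matrix.vecMul a (G * P.transpose), ?_⟩
    rw [x3_comb, Matrix.vecMul_vecMul, hP2, Matrix.vecMul_one]
    have e : o - (algebraMap ℂ O a₀ + ∑ i, a i • x i + g s • σ) =
        (o - algebraMap ℂ O a₀ - (∑ i, a i • x i + s)) + (s - g s • σ) := by ring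
    rw [e]
    exact Q.add_mem h2 (hg s (hsq s hs))
  · have hσm : σ ∈ maximalIdeal O := Ideal.pow_le_self two_ne_zero hσ
    have h0 : a₀ = 0 := by
      by_contra h0
      have h1 := (Submodule.add_mem_iff_left _ (Submodule.smul_of_tower_mem _ a₂ hσm)).1 (hQm h)
      have h2 := (Submodule.add_mem_iff_left _ (Ideal.sum_mem _ fun i _ =>
        Submodule.smul_of_tower_mem _ (a i) (hv i))).1 h1
      exact notMem_maximalIdeal.2 ((IsUnit.mk0 a₀ h0).map (algebraMap ℂ O)) h2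
    rw [h0, map_zero, zero_add] at h
    have h1 : a = 0 := by
      have h2 := hI (Matrix.vecMul a P) (by
        rw [← x3_comb]
        exact (Submodule.add_mem_iff_left _ (Ideal.mem_sup_right
          (Submodule.smul_of_tower_mem _ a₂ hσ))).1 (Ideal.mem_sup_left h))
      rw [← Matrix.vecMul_one a, ← hP1, ← Matrix.vecMul_vecMul, h2, Matrix.zero_vecMul]
    refine ⟨h0, ?_, h1⟩
    by_contra h2
    simp only [h1, Pi.zero_apply, zero_smul, Finset.sum_const_zero, zero_add] at h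
    have h5 := Submodule.smul_of_tower_mem _ a₂⁻¹ h
    rw [smul_smul, inv_mul_cancel₀ h2, one_smul] at h5
    exact hσ' h5

end Vale.Agent.P282
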