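import Vale.Agent.P282.N3

/-! Linear forms detecting the elements outside the parameter ideal. -/

open scoped ENNReal WithZero
open WithZero Filter

noncomputable section

namespace Vale.Agent.P282

set_option linter.unusedSectionVars false

variable {K : Type} [Field K] [Algebra ℂ K] {n : ℕ}

/-- Present `M` by `f : (Fin a → S) →ₗ (Fin c → S)`, `g : (Fin c → S) →ₗ M` surjective. Apply
Artin-Rees (`Ideal.exists_pow_inf_eq_pow_smul`) to the range `N` of `f.dualMap` composed with
evaluation on the basis vectors, inside `Fin a → S`: `I ^ k • ⊤ ⊓ N ≤ I • N`. Lift `ψ ∘ g` to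
`w : (Fin c → S) →ₗ S`, correct it by `w' ∈ I • ⊤` (`Submodule.map_smul''`) so that
`(w - w') ∘ f = 0`, and descend. -/
theorem lift_mod {S M : Type} [CommRing S] [IsNoetherianRing S] [AddCommGroup M] [Module S M]
    [Module.Finite S M] (I : Ideal S) : ∃ k : ℕ, ∀ ψ : M →ₗ[S] S ⧸ I ^ (k + 1),
      ∃ φ : M →ₗ[S] S, ∀ (a : M) (s : S), ψ a = Ideal.Quotient.mk _ s → φ a - s ∈ I := by
  obtain ⟨c, g, hg⟩ := Module.Finite.exists_fin' S M
  obtain ⟨m, r, hr⟩ := Submodule.fg_iff_exists_fin_generating_family.1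
    (IsNoetherian.noetherian (LinearMap.ker g))
  let T : (Fin c → S) →ₗ[S] Fin m → S := (Matrix.of r).mulVecLin
  obtain ⟨k, hk⟩ := I.exists_pow_inf_eq_pow_smul (LinearMap.range T)
  refine ⟨k, fun ψ => ?_⟩
  choose w hw using fun l : Fin c => Ideal.Quotient.mk_surjective (ψ (g (Pi.single l 1)))
  have h1 : ∀ v : Fin c → S, ψ (g v) = Ideal.Quotient.mk _ (v ⬝ᵥ w) := by
    intro v
    conv_lhs => rw [← Finset.univ_sum_single v]
    simp only [map_sum, dotProduct]
    refine Finset.sum_congr rfl fun l _ => ?_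
    rw [← mul_one (v l), ← smul_eq_mul, Pi.single_smul, map_smul, map_smul, ← hw, smul_eq_mul,
      mul_one]
    rfl
  have h2 : ∀ i, g (r i) = 0 := fun i =>
    LinearMap.mem_ker.1 (hr ▸ Submodule.subset_span ⟨i, rfl⟩)
  have h3 : T w ∈ I ^ (k + 1) • (⊤ : Submodule S (Fin m → S)) := by
    rw [← Finset.univ_sum_single (T w)]
    refine Submodule.sum_mem _ fun i _ => ?_
    rw [← mul_one (T w i), ← smul_eq_mul, Pi.single_smul]
    refine Submodule.smul_mem_smul (Ideal.Quotient.eq_zero_iff_mem.1 ?_) Submodule.mem_top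
    exact (h1 (r i)).symm.trans (by rw [h2, map_zero])
  have h4 : T w ∈ (I • (⊤ : Submodule S (Fin c → S))).map T := by
    have h5 : T w ∈ I ^ (k + 1) • ⊤ ⊓ LinearMap.range T := ⟨h3, w, rfl⟩
    rw [hk (k + 1) (Nat.le_succ k), Nat.add_sub_cancel_left, pow_one] at h5
    rw [Submodule.map_smul'', Submodule.map_top]
    exact Submodule.smul_mono le_rfl inf_le_right h5
  obtain ⟨w', h5, h6⟩ := h4
  let L : (Fin c → S) →ₗ[S] S :=
    { toFun := fun v => v ⬝ᵥ (w - w')
      map_add' := fun u v => add_dotProduct u v _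
      map_smul' := fun a v => smul_dotProduct a v _ }
  have h7 : LinearMap.ker g ≤ LinearMap.ker L := by
    rw [← hr, Submodule.span_le]
    rintro _ ⟨i, rfl⟩
    have h8 : T (w - w') = 0 := by rw [map_sub, h6, sub_self]
    exact congrFun h8 i
  refine ⟨(LinearMap.ker g).liftQ L h7 ∘ₗ (g.quotKerEquivOfSurjective hg).symm.toLinearMap,
    fun a s hs => ?_⟩
  obtain ⟨v, rfl⟩ := hg a
  have e : (g.quotKerEquivOfSurjective hg).symm (g v) = Submodule.Quotient.mk v :=
    (LinearEquiv.symm_apply_eq _).2 rfl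
  have h8 : v ⬝ᵥ w - s ∈ I :=
    Ideal.pow_le_self (Nat.succ_ne_zero k) (Ideal.Quotient.eq.1 ((h1 v).symm.trans hs))
  have h9 : v ⬝ᵥ w' ∈ I := by
    refine Submodule.smul_induction_on (p := fun z => v ⬝ᵥ z ∈ I) h5 (fun a ha z _ => ?_)
      fun z z' hz hz' => ?_
    · rw [dotProduct_smul]
      exact I.mul_mem_right _ ha
    · rw [dotProduct_add]
      exact I.add_mem hz hz'
  have e2 : ((LinearMap.ker g).liftQ L h7 ∘ₗ (g.quotKerEquivOfSurjective hg).symm.toLinearMap)
      (g v) = v ⬝ᵥ (w - w') := by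
    rw [LinearMap.comp_apply, LinearEquiv.coe_coe, e, Submodule.liftQ_apply]
    rfl
  rw [e2, dotProduct_sub, sub_right_comm]
  exact I.sub_mem h8 h9

/-- If the `x j` span `O` over `ℂ` modulo `Q`, they span it over `ℂ[y]` modulo `Q ^ k`
(induction, `Q ^ (k + 1) = Q * Q ^ k`: first show `Q ^ k` is spanned modulo `Q ^ (k + 1)` by the
`aeval y s * x j`, through `mem_pow_iff`). -/
theorem approx {O ι : Type} [CommRing O] [Algebra ℂ O] [Fintype ι] (y : Fin n → O) (x : ι → O)
    (hx : ∀ o : O, ∃ c : ι → ℂ, o - ∑ j, c j • x j ∈ Ideal.span (Set.range y)) (k : ℕ) (o : O) :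
    ∃ s : ι → MvPolynomial (Fin n) ℂ,
      o - ∑ j, MvPolynomial.aeval y (s j) * x j ∈ Ideal.span (Set.range y) ^ k := by
  induction k generalizing o with
  | zero => exact ⟨0, by simp⟩
  | succ k ih =>
    obtain ⟨c, hc⟩ := hx o
    obtain ⟨a, ha⟩ := Ideal.mem_span_range_iff_exists_fun.1 hc
    choose s hs using ih
    refine ⟨fun j => MvPolynomial.C (c j) + ∑ i, MvPolynomial.X i * s (a i) j, ?_⟩
    have e : o - ∑ j, MvPolynomial.aeval y (MvPolynomial.C (c j) +
        ∑ i, MvPolynomial.X i * s (a i) j) * x j =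
        ∑ i, y i * (a i - ∑ j, MvPolynomial.aeval y (s (a i) j) * x j) := by
      simp only [map_add, map_sum, map_mul, MvPolynomial.aeval_C, MvPolynomial.aeval_X, add_mul,
        Finset.sum_add_distrib, mul_sub, Finset.sum_sub_distrib, Finset.sum_mul, Finset.mul_sum,
        ← Algebra.smul_def, mul_assoc]
      rw [← sub_sub, ← ha, Finset.sum_comm]
      simp only [mul_comm]
    rw [e, pow_succ']
    exact Ideal.sum_mem _ fun i _ => Ideal.mul_mem_mul (Ideal.subset_span ⟨i, rfl⟩) (hs _)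

theorem n4_const {O : Type} [CommRing O] [Algebra ℂ O] (y : Fin n → O)
    (P : MvPolynomial (Fin n) ℂ) : MvPolynomial.aeval y P -
      algebraMap ℂ O (MvPolynomial.constantCoeff P) ∈ Ideal.span (Set.range y) := by
  induction P using MvPolynomial.induction_on with
  | C a => simp
  | add p q hp hq =>
    rw [map_add, map_add, map_add, add_sub_add_comm]
    exact Ideal.add_mem _ hp hq
  | mul_X p i _ =>
    simpa using Ideal.mul_mem_left _ (MvPolynomial.aeval y p)
      (Ideal.subset_span (s := Set.range y) ⟨i, rfl⟩)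

/-- Lift a basis of `O ⧸ Q` to `x j`. For `k` from `lift_mod` define
`ψ j a = mk (s j)` with `s` chosen by `approx` for `algebraMap R O a`; it is well defined and
linear by `QR.indep`. If all `φ j a` have zero constant term, all `s j` lie in `𝔫`, so the image
of `a` lies in `Q`. -/
theorem exists_forms {R O : Type} [CommRing R] [CommRing O] [Algebra ℂ O]
    [Algebra (MvPolynomial (Fin n) ℂ) R] [Module.Finite (MvPolynomial (Fin n) ℂ) R] [Algebra R O]
    (y : Fin n → O) (hy : ∀ P : MvPolynomial (Fin n) ℂ,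
      algebraMap R O (algebraMap _ R P) = MvPolynomial.aeval y P) (hq : QR y)
    [Module.Finite ℂ (O ⧸ Ideal.span (Set.range y))] :
    ∃ (e : ℕ) (φ : Fin e → R →ₗ[MvPolynomial (Fin n) ℂ] MvPolynomial (Fin n) ℂ), ∀ a : R,
      (∀ j, MvPolynomial.constantCoeff (φ j a) = 0) →
        algebraMap R O a ∈ Ideal.span (Set.range y) := by
  let b := Module.finBasis ℂ (O ⧸ Ideal.span (Set.range y))
  choose x hx using fun j => Ideal.Quotient.mk_surjective (b j)
  have hm : ∀ c : Fin _ → ℂ, Ideal.Quotient.mk (Ideal.span (Set.range y)) (∑ j, c j • x j) =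
      ∑ j, c j • b j := fun c => by
    rw [map_sum]
    exact Finset.sum_congr rfl fun j _ => by rw [← hx j]; rfl
  have h1 : ∀ o : O, ∃ c : Fin _ → ℂ, o - ∑ j, c j • x j ∈ Ideal.span (Set.range y) := fun o =>
    ⟨b.repr (Ideal.Quotient.mk _ o), Ideal.Quotient.eq.1 (by rw [hm, b.sum_repr])⟩
  have h2 : ∀ c : Fin _ → ℂ, ∑ j, c j • x j ∈ Ideal.span (Set.range y) → c = 0 := fun c hc =>
    funext (Fintype.linearIndependent_iff.1 b.linearIndependent c
      ((hm c).symm.trans (Ideal.Quotient.eq_zero_iff_mem.2 hc)))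
  obtain ⟨k, hk⟩ := lift_mod (M := R)
    (Ideal.span (Set.range (MvPolynomial.X : Fin n → MvPolynomial (Fin n) ℂ)))
  choose s hs using fun a : R => approx y x h1 (k + 1) (algebraMap R O a)
  have h3 : ∀ (a : R) (t : Fin _ → MvPolynomial (Fin n) ℂ), algebraMap R O a -
      ∑ j, MvPolynomial.aeval y (t j) * x j ∈ Ideal.span (Set.range y) ^ (k + 1) → ∀ j,
      Ideal.Quotient.mk (Ideal.span (Set.range
        (MvPolynomial.X : Fin n → MvPolynomial (Fin n) ℂ)) ^ (k + 1)) (s a j) =
        Ideal.Quotient.mk _ (t j) := by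
    intro a t ht j
    refine Ideal.Quotient.eq.2 (hq.indep x h2 (k + 1) (fun j => s a j - t j) ?_ j)
    have h4 := Ideal.sub_mem _ ht (hs a)
    simp only [map_sub, sub_mul, Finset.sum_sub_distrib]
    rwa [sub_sub_sub_cancel_left] at h4
  let ψ : Fin _ → R →ₗ[MvPolynomial (Fin n) ℂ] MvPolynomial (Fin n) ℂ ⧸ Ideal.span (Set.range
      (MvPolynomial.X : Fin n → MvPolynomial (Fin n) ℂ)) ^ (k + 1) := fun j =>
    { toFun := fun a => Ideal.Quotient.mk _ (s a j)
      map_add' := fun a a' => by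
        refine h3 (a + a') (fun j => s a j + s a' j) ?_ j
        simp only [map_add, add_mul, Finset.sum_add_distrib]
        rw [add_sub_add_comm]
        exact Ideal.add_mem _ (hs a) (hs a')
      map_smul' := fun P a => by
        refine h3 (P • a) (fun j => P * s a j) ?_ j
        simp only [Algebra.smul_def, map_mul, hy, mul_assoc, ← Finset.mul_sum, ← mul_sub]
        exact Ideal.mul_mem_left _ _ (hs a) }
  choose φ hφ using fun j => hk (ψ j)
  refine ⟨_, φ, fun a ha => ?_⟩
  have h4 : Ideal.span (Set.range (MvPolynomial.X : Fin n → MvPolynomial (Fin n) ℂ)) ≤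
      (Ideal.span (Set.range y)).comap (MvPolynomial.aeval y : _ →ₐ[ℂ] O) := by
    rw [Ideal.span_le]
    rintro _ ⟨i, rfl⟩
    exact Ideal.mem_comap.2 (by simpa using Ideal.subset_span (s := Set.range y) ⟨i, rfl⟩)
  have h5 : ∀ j, MvPolynomial.aeval y (s a j) ∈ Ideal.span (Set.range y) := by
    intro j
    have h6 := n4_const y (φ j a)
    have h7 := Ideal.mem_comap.1 (h4 (hφ j a (s a j) rfl))
    rw [ha j, map_zero, sub_zero] at h6
    rw [map_sub] at h7
    simpa using Ideal.sub_mem _ h6 h7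
  simpa using Ideal.add_mem _ (Ideal.pow_le_self (Nat.succ_ne_zero k) (hs a))
    (Ideal.sum_mem _ fun j (_ : j ∈ Finset.univ) => Ideal.mul_mem_right (x j) _ (h5 j))

end Vale.Agent.P282
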