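import Vale.Agent.P282.X2
import Vale.Agent.P282.N4

/-! Lifting the relations. -/

open scoped ENNReal WithZero
open WithZero Filter IsLocalRing

noncomputable section

namespace Vale.Agent.P282

set_option linter.unusedSectionVars false

variable {K : Type} [Field K] [Algebra ℂ K] {n : ℕ}

/-- Let `A = S ⧸ 𝔫 ^ (N + 1)`, `𝔫 = span (range X)`, `B = O ⧸ Q ^ (N + 1)`, an `A`-algebra through
`Ideal.quotientMap`. By `approx` and `QR.indep` for the family `1, v i, σ` (index type
`Option (Option (Fin 4))`) the map `(ι → A) →ₗ[A] B` is bijective; `φ` is the coefficient of `σ`;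
it maps the image of `Q` into the image of `𝔫`. Apply `frob_four` and lift
(`Ideal.mem_map_iff_of_surjective`, `Ideal.comap_map_of_surjective`). -/
theorem exists_rel_four {O : Type} [CommRing O] [Algebra ℂ O] {y : Fin n → O} (hy : QR y)
    (M : Ideal O) (v : Fin 4 → O) (σ : O) (hv : ∀ i, v i ∈ M) (hσ : σ ∈ M ^ 2)
    (h3 : M ^ 3 ≤ Ideal.span (Set.range y))
    (hvv : ∀ i j, v i * v j - (if i = j then σ else 0) ∈ Ideal.span (Set.range y))
    (hsp : ∀ o : O, ∃ (a₀ a₂ : ℂ) (a : Fin 4 → ℂ),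
      o - (algebraMap ℂ O a₀ + ∑ i, a i • v i + a₂ • σ) ∈ Ideal.span (Set.range y))
    (hind : ∀ (a₀ a₂ : ℂ) (a : Fin 4 → ℂ),
      algebraMap ℂ O a₀ + ∑ i, a i • v i + a₂ • σ ∈ Ideal.span (Set.range y) →
        a₀ = 0 ∧ a₂ = 0 ∧ a = 0) (N : ℕ) :
    ∃ (u : Fin 4 → O) (τ : O) (C : Fin 16 → MvPolynomial (Fin n) ℂ),
      (∀ l, MvPolynomial.constantCoeff (C l) = 0) ∧ τ ∉ Ideal.span (Set.range y) ∧
      (∀ i, u i ^ 3 ∈ Ideal.span (Set.range fun l => MvPolynomial.aeval y (C l)) *
        (Ideal.span (Set.range u) ⊔ Ideal.span (Set.range fun l => MvPolynomial.aeval y (C l))) ^ 2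
          ⊔ Ideal.span (Set.range y) ^ N) ∧
      τ ∈ (Ideal.span (Set.range u) ⊔
        Ideal.span (Set.range fun l => MvPolynomial.aeval y (C l))) ^ 2 ⊔
          Ideal.span (Set.range y) ^ N := by
  classical
  let S := MvPolynomial (Fin n) ℂ
  let I : Ideal S := Ideal.span (Set.range MvPolynomial.X)
  let Q : Ideal O := Ideal.span (Set.range y)
  let f : S →+* O := (MvPolynomial.aeval y : S →ₐ[ℂ] O)
  have hf : ∀ P : S, f P = MvPolynomial.aeval y P := fun _ => rfl
  have hIQ : I.map f ≤ Q := by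
    rw [Ideal.map_span, Ideal.span_le]
    rintro _ ⟨_, ⟨i, rfl⟩, rfl⟩
    rw [hf, MvPolynomial.aeval_X]
    exact Ideal.subset_span ⟨i, rfl⟩
  have hJ : I ^ (N + 1) ≤ (Q ^ (N + 1)).comap f := by
    rw [← Ideal.map_le_iff_le_comap, Ideal.map_pow]
    exact Ideal.pow_right_mono hIQ _
  have hQQ : Q ^ (N + 1) ≤ Q := Ideal.pow_le_self (Nat.succ_ne_zero N)
  let _ : Algebra (S ⧸ I ^ (N + 1)) (O ⧸ Q ^ (N + 1)) :=
    (Ideal.quotientMap (Q ^ (N + 1)) f hJ).toAlgebra
  have halg : ∀ P : S, algebraMap (S ⧸ I ^ (N + 1)) (O ⧸ Q ^ (N + 1)) (Ideal.Quotient.mk _ P) =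
      Ideal.Quotient.mk _ (MvPolynomial.aeval y P) := fun _ => rfl
  let x : Option (Option (Fin 4)) → O := fun j => j.elim 1 fun k => k.elim σ v
  have hxs : ∀ c : Option (Option (Fin 4)) → ℂ, ∑ j, c j • x j =
      algebraMap ℂ O (c none) + ∑ i, c (some (some i)) • v i + c (some none) • σ := fun c => by
    simp only [Fintype.sum_option, x, Option.elim, Algebra.algebraMap_eq_smul_one]
    ring
  have hx1 : ∀ o : O, ∃ c : Option (Option (Fin 4)) → ℂ, o - ∑ j, c j • x j ∈ Q := fun o => by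
    obtain ⟨a₀, a₂, a, h⟩ := hsp o
    refine ⟨fun j => j.elim a₀ fun k => k.elim a₂ a, ?_⟩
    rw [hxs]
    exact h
  have hx2 : ∀ c : Option (Option (Fin 4)) → ℂ, ∑ j, c j • x j ∈ Q → c = 0 := fun c hc => by
    rw [hxs] at hc
    obtain ⟨e0, e2, e1⟩ := hind _ _ _ hc
    funext j
    rcases j with _ | _ | i
    · exact e0
    · exact e2
    · exact congrFun e1 i
  choose s hs using fun o : O => approx y x hx1 (N + 1) o
  choose r hr using fun b : O ⧸ Q ^ (N + 1) => Ideal.Quotient.mk_surjective b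
  have key : ∀ (o : O) (t : Option (Option (Fin 4)) → S),
      o - ∑ j, MvPolynomial.aeval y (t j) * x j ∈ Q ^ (N + 1) →
      Ideal.Quotient.mk (I ^ (N + 1)) (s (r (Ideal.Quotient.mk _ o)) (some none)) =
        Ideal.Quotient.mk _ (t (some none)) := by
    intro o t ht
    refine Ideal.Quotient.eq.2 (hy.indep x hx2 (N + 1)
      (fun j => s (r (Ideal.Quotient.mk _ o)) j - t j) ?_ (some none))
    have h4 := Ideal.add_mem _ (Ideal.sub_mem _ ht (hs (r (Ideal.Quotient.mk _ o))))
      (Ideal.Quotient.eq.1 (hr (Ideal.Quotient.mk _ o)))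
    simp only [map_sub, sub_mul, Finset.sum_sub_distrib]
    convert h4 using 1
    ring
  let φ : (O ⧸ Q ^ (N + 1)) →ₗ[S ⧸ I ^ (N + 1)] S ⧸ I ^ (N + 1) :=
    { toFun := fun b => Ideal.Quotient.mk _ (s (r b) (some none))
      map_add' := fun b b' => by
        obtain ⟨o, rfl⟩ := Ideal.Quotient.mk_surjective b
        obtain ⟨o', rfl⟩ := Ideal.Quotient.mk_surjective b'
        rw [key o _ (hs o), key o' _ (hs o'), ← map_add, ← map_add]
        refine key (o + o') (fun j => s o j + s o' j) ?_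
        simp only [map_add, add_mul, Finset.sum_add_distrib]
        rw [add_sub_add_comm]
        exact Ideal.add_mem _ (hs o) (hs o')
      map_smul' := fun a b => by
        obtain ⟨P, rfl⟩ := Ideal.Quotient.mk_surjective a
        obtain ⟨o, rfl⟩ := Ideal.Quotient.mk_surjective b
        rw [key o _ (hs o), Algebra.smul_def, halg, ← map_mul, RingHom.id_apply, smul_eq_mul,
          ← map_mul]
        refine key _ (fun j => P * s o j) ?_
        simp only [map_mul, mul_assoc, ← Finset.mul_sum, ← mul_sub]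
        exact Ideal.mul_mem_left _ _ (hs o) }
  have hφ : ∀ (o : O) (t : Option (Option (Fin 4)) → S),
      o - ∑ j, MvPolynomial.aeval y (t j) * x j ∈ Q ^ (N + 1) →
      φ (Ideal.Quotient.mk _ o) = Ideal.Quotient.mk _ (t (some none)) := key
  have hφx : ∀ j, φ (Ideal.Quotient.mk _ (x j)) =
      Ideal.Quotient.mk _ ((Pi.single j 1 : Option (Option (Fin 4)) → S) (some none)) := fun j => by
    refine hφ _ _ ?_
    rw [Finset.sum_eq_single j (fun k _ hk => by simp [Pi.single_eq_of_ne hk]) (by simp)]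
    simp
  have hφQ : ∀ o ∈ Q, φ (Ideal.Quotient.mk _ o) ∈ I.map (Ideal.Quotient.mk (I ^ (N + 1))) := by
    intro o ho
    rw [hφ o _ (hs o)]
    refine Ideal.mem_map_of_mem _ ?_
    have h4 := hy.indep x hx2 1 (s o) (by
      rw [pow_one]
      simpa using Ideal.sub_mem _ ho (hQQ (hs o))) (some none)
    rwa [pow_one] at h4
  have hφσ : φ (Ideal.Quotient.mk _ σ) = 1 := (hφx (some none)).trans (by simp)
  have hM : ∀ i j l, v i * v j * v l ∈ M ^ 3 := fun i j l => by
    rw [pow_succ, pow_two]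
    exact Ideal.mul_mem_mul (Ideal.mul_mem_mul (hv i) (hv j)) (hv l)
  have hM' : ∀ a ∈ M, a * σ ∈ M ^ 3 := fun a ha => by
    rw [pow_succ']
    exact Ideal.mul_mem_mul ha hσ
  obtain ⟨u', τ', C', hC, hτ, hu, hτ'⟩ := frob_four (I.map (Ideal.Quotient.mk (I ^ (N + 1))))
    (N := N + 1) (by rw [← Ideal.map_pow, Ideal.map_quotient_self]) φ
    (fun i => Ideal.Quotient.mk _ (v i)) (Ideal.Quotient.mk _ σ)
    (fun b => by
      obtain ⟨o, rfl⟩ := Ideal.Quotient.mk_surjective b
      refine ⟨Ideal.Quotient.mk _ (s o none), Ideal.Quotient.mk _ (s o (some none)),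
        fun i => Ideal.Quotient.mk _ (s o (some (some i))), ?_⟩
      simp only [Algebra.smul_def, halg, ← map_mul, ← map_sum, ← map_add]
      refine Ideal.Quotient.eq.2 ?_
      convert hs o using 2
      simp only [Fintype.sum_option, x, Option.elim]
      ring)
    ((hφx none).trans (by simp)) (fun i => (hφx (some (some i))).trans (by simp)) hφσ
    (fun i j => by
      have h4 := hφQ _ (hvv i j)
      rw [map_sub, map_sub, map_mul (Ideal.Quotient.mk (Q ^ (N + 1)))] at h4
      split_ifs at h4 ⊢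
      · rwa [hφσ] at h4
      · rwa [map_zero, map_zero] at h4)
    (fun i j l => hφQ _ (h3 (hM i j l))) (fun i => hφQ _ (h3 (hM' _ (hv i))))
    (hφQ _ (h3 (hM' _ (Ideal.pow_le_self two_ne_zero hσ))))
  choose u hu' using fun i => Ideal.Quotient.mk_surjective (u' i)
  obtain ⟨τ, rfl⟩ := Ideal.Quotient.mk_surjective τ'
  choose C hC1 hC2 using fun l =>
    (Ideal.mem_map_iff_of_surjective _ Ideal.Quotient.mk_surjective).1 (hC l)
  have e1 : Ideal.span (Set.range u') =
      (Ideal.span (Set.range u)).map (Ideal.Quotient.mk (Q ^ (N + 1))) := by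
    rw [Ideal.map_span, ← Set.range_comp]
    exact congrArg (fun z => Ideal.span (Set.range z)) (funext fun i => (hu' i).symm)
  have e2 : Ideal.span (Set.range fun l =>
      algebraMap (S ⧸ I ^ (N + 1)) (O ⧸ Q ^ (N + 1)) (C' l)) =
      (Ideal.span (Set.range fun l => MvPolynomial.aeval y (C l))).map
        (Ideal.Quotient.mk (Q ^ (N + 1))) := by
    rw [Ideal.map_span, ← Set.range_comp]
    exact congrArg (fun z => Ideal.span (Set.range z))
      (funext fun l => by rw [← hC2 l, halg]; rfl)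
  have hle : Q ^ (N + 1) ≤ Q ^ N := Ideal.pow_le_pow_right (Nat.le_succ N)
  rw [e1, e2, ← Ideal.map_sup, ← Ideal.map_pow] at hu hτ'
  refine ⟨u, τ, C, fun l => ?_, fun hτQ => ?_, fun i => ?_, ?_⟩
  · have h4 : I ≤ RingHom.ker (MvPolynomial.constantCoeff : S →+* ℂ) := by
      rw [Ideal.span_le]
      rintro _ ⟨i, rfl⟩
      exact MvPolynomial.constantCoeff_X ℂ i
    exact h4 (hC1 l)
  · have h4 : (I.map (Ideal.Quotient.mk (I ^ (N + 1)))).map
        (algebraMap (S ⧸ I ^ (N + 1)) (O ⧸ Q ^ (N + 1))) ≤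
        Q.map (Ideal.Quotient.mk (Q ^ (N + 1))) := by
      rw [Ideal.map_le_iff_le_comap, Ideal.map_le_iff_le_comap]
      intro P hP
      rw [Ideal.mem_comap, Ideal.mem_comap, halg]
      exact Ideal.mem_map_of_mem _ (hIQ (Ideal.mem_map_of_mem f hP))
    have h5 := h4 hτ
    rw [← map_sub, Ideal.mem_quotient_iff_mem_sup, sup_eq_left.2 hQQ] at h5
    have h6 : σ ∈ Q := by simpa using Ideal.sub_mem _ hτQ h5
    exact one_ne_zero (hind 0 1 0 (by simpa using h6)).2.1
  · have h4 := hu i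
    rw [← Ideal.map_mul, ← hu' i, ← map_pow, Ideal.mem_quotient_iff_mem_sup] at h4
    exact sup_le_sup_left hle _ h4
  · rw [Ideal.mem_quotient_iff_mem_sup] at hτ'
    exact sup_le_sup_left hle _ hτ'

end Vale.Agent.P282
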