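import Vale.Agent.P282.E

/-! The weights seven and eight. -/

open scoped ENNReal WithZero
open WithZero Filter IsLocalRing

noncomputable section

namespace Vale.Agent.P282

set_option linter.unusedSectionVars false

variable {K : Type} [Field K] [Algebra ℂ K] {n : ℕ}

/-- Sixteen coordinates get weight `8`. -/
def wt (n : ℕ) (i : Fin n) : ℕ := if i.val = 1 ∨ 17 ≤ i.val then 7 else 8

theorem wt_sum (hn : 17 ≤ n) : ∑ i, wt n i = 7 * n + 16 := by
  unfold wt
  rw [Fin.sum_univ_eq_sum_range (fun i => if i = 1 ∨ 17 ≤ i then 7 else 8) n]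
  induction n, hn using Nat.le_induction with
  | base => decide
  | succ k hk ih =>
    rw [Finset.sum_range_succ, ih, if_pos (Or.inr hk)]
    ring

theorem wt_prod (hn : 17 ≤ n) : (∏ i, wt n i) * 7 ^ 16 = 8 ^ 16 * 7 ^ n := by
  unfold wt
  rw [Fin.prod_univ_eq_prod_range (fun i => if i = 1 ∨ 17 ≤ i then 7 else 8) n]
  induction n, hn using Nat.le_induction with
  | base => simp [Finset.prod_range_succ]
  | succ k hk ih =>
    rw [Finset.prod_range_succ, if_pos (Or.inr hk), mul_right_comm, ih]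
    ring

/-- The span of `lam` has dimension at most `16`; the rows of `M` are a basis of `Fin n → ℂ`
containing a basis of this span, indexed so that these vectors get indices of weight `8` (there
are `16` of them). -/
theorem exists_coord (hn : 17 ≤ n) (lam : Fin 16 → Fin n → ℂ) :
    ∃ M N : Matrix (Fin n) (Fin n) ℂ, M * N = 1 ∧
      ∀ l, lam l ∈ Submodule.span ℂ ((fun i => M i) '' {i | wt n i = 8}) := by
  classical
  let e : Fin 16 → Fin n := fun l =>
    ⟨if l.val = 0 then 0 else l.val + 1, by have := l.2; split_ifs <;> omega⟩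
  have he : Function.Injective e := by
    intro a b h
    have h' := congrArg Fin.val h
    simp only [e] at h'
    apply Fin.ext
    split_ifs at h' <;> omega
  have hw : ∀ l, wt n (e l) = 8 := fun l => by
    have := l.2
    simp only [wt, e]
    refine if_neg ?_
    by_cases h : l.val = 0
    · rw [if_pos h]
      omega
    · rw [if_neg h]
      omega
  have hli : LinearIndependent ℂ (fun l => Pi.basisFun ℂ (Fin n) (e l)) :=
    (Pi.basisFun ℂ (Fin n)).linearIndependent.comp e he
  have hle : Module.finrank ℂ (Submodule.span ℂ (Set.range lam)) ≤ Module.finrank ℂ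
      (Submodule.span ℂ (Set.range fun l => Pi.basisFun ℂ (Fin n) (e l))) := by
    rw [finrank_span_eq_card hli]
    exact finrank_range_le_card lam
  obtain ⟨f, hf⟩ := finrank_le_iff_exists_linearMap.1 hle
  have hf' : Function.Injective ((Submodule.subtype _) ∘ₗ f) := Subtype.val_injective.comp hf
  obtain ⟨φ, hφ⟩ := Submodule.exists_linearEquiv_restrict_eq (LinearEquiv.ofInjective _ hf')
  have hM : LinearIndependent ℂ (Matrix.of fun i => φ.symm (Pi.basisFun ℂ (Fin n) i)).row :=
    (Pi.basisFun ℂ (Fin n)).linearIndependent.map' φ.symm.toLinearMap φ.symm.ker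
  obtain ⟨N, hN⟩ := (Matrix.linearIndependent_rows_iff_isUnit.1 hM).exists_right_inv
  refine ⟨_, N, hN, fun l => ?_⟩
  have h1 := hφ ⟨lam l, Submodule.subset_span ⟨l, rfl⟩⟩
  have h2 : φ (lam l) ∈ Submodule.span ℂ (Set.range fun l => Pi.basisFun ℂ (Fin n) (e l)) := by
    rw [← h1]
    exact (f _).2
  have h3 := Submodule.mem_map_of_mem (f := φ.symm.toLinearMap) h2
  rw [Submodule.map_span] at h3
  simp only [LinearEquiv.coe_coe, LinearEquiv.symm_apply_apply] at h3
  refine Submodule.span_mono ?_ h3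
  rintro _ ⟨_, ⟨l, rfl⟩, rfl⟩
  exact ⟨e l, hw l, rfl⟩

theorem x5_anti (O : Type) [CommRing O] [Algebra O K] (v : Valuation K ℤᵐ⁰) {s t : ℕ}
    (h : s ≤ t) : vIdeal O v t ≤ vIdeal O v s :=
  Ideal.span_mono fun _ ha => le_trans ha (exp_le_exp.2 (by omega))

theorem x5_mul (O : Type) [CommRing O] [Algebra O K] {v : Valuation K ℤᵐ⁰} (hv : Over O v)
    {I J : Ideal O} {a b : ℕ} (hI : I ≤ vIdeal O v a) (hJ : J ≤ vIdeal O v b) :
    I * J ≤ vIdeal O v (a + b) := by
  refine Ideal.mul_le.2 fun x hx y hy => (mem_vIdeal O hv _ _).2 ?_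
  rw [map_mul, map_mul]
  refine (mul_le_mul' ((mem_vIdeal O hv _ _).1 (hI hx)) ((mem_vIdeal O hv _ _).1 (hJ hy))).trans_eq ?_
  rw [← exp_add]
  congr 1
  push_cast
  ring

theorem x5_taylor (O : Type) [CommRing O] [Algebra ℂ O] (y : Fin n → O)
    (P : MvPolynomial (Fin n) ℂ) :
    MvPolynomial.aeval y P - algebraMap ℂ O (MvPolynomial.constantCoeff P) -
      ∑ i, algebraMap ℂ O (P.coeff (Finsupp.single i 1)) * y i ∈
        Ideal.span (Set.range y) ^ 2 := by
  classical
  induction P using MvPolynomial.induction_on with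
  | C a =>
    have h : ∀ i : Fin n, ¬ (0 : Fin n →₀ ℕ) = Finsupp.single i 1 := fun i h =>
      one_ne_zero (Finsupp.single_eq_zero.1 h.symm)
    simp [MvPolynomial.coeff_C, h]
  | add p q hp hq =>
    have h := Ideal.add_mem _ hp hq
    simp only [map_add, MvPolynomial.coeff_add, add_mul, Finset.sum_add_distrib]
    refine (congrArg (· ∈ Ideal.span (Set.range y) ^ 2) ?_).mp h
    ring
  | mul_X p j hp =>
    have hy : ∀ i, y i ∈ Ideal.span (Set.range y) := fun i => Ideal.subset_span ⟨i, rfl⟩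
    have h1 : MvPolynomial.aeval y p - algebraMap ℂ O (MvPolynomial.constantCoeff p) ∈
        Ideal.span (Set.range y) := by
      have h2 := Ideal.add_mem _ (Ideal.pow_le_self two_ne_zero hp)
        (Ideal.sum_mem _ fun i (_ : i ∈ Finset.univ) =>
          Ideal.mul_mem_left _ (algebraMap ℂ O (p.coeff (Finsupp.single i 1))) (hy i))
      rwa [sub_add_cancel] at h2
    have h3 : ∑ i, algebraMap ℂ O ((p * MvPolynomial.X j).coeff (Finsupp.single i 1)) * y i =
        algebraMap ℂ O (MvPolynomial.constantCoeff p) * y j := by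
      rw [Finset.sum_eq_single j]
      · have h4 := MvPolynomial.coeff_mul_X 0 j p
        rw [zero_add] at h4
        rw [h4, MvPolynomial.constantCoeff_eq]
      · intro i _ hij
        rw [MvPolynomial.coeff_mul_X', if_neg (by simp [hij.symm]), map_zero,
          zero_mul]
      · exact fun h => absurd (Finset.mem_univ j) h
    rw [h3, map_mul, map_mul, MvPolynomial.aeval_X, MvPolynomial.constantCoeff_X, mul_zero,
      map_zero, sub_zero, ← sub_mul, pow_two]
    exact Ideal.mul_mem_mul h1 (hy j)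

/-- `P` is its linear part modulo `𝔫 ^ 2`, and `Q ^ 2 ≤ vIdeal (14 c)`. -/
theorem aeval_mem_wt (O : Type) [CommRing O] [Algebra ℂ O] [Algebra O K] {v : Valuation K ℤᵐ⁰}
    (hv : Over O v) (y : Fin n → O) (M : Matrix (Fin n) (Fin n) ℂ) {c : ℕ}
    (hQ : Ideal.span (Set.range y) ≤ vIdeal O v (7 * c))
    (hM : ∀ i, wt n i = 8 → (M.map (algebraMap ℂ O)).mulVec y i ∈ vIdeal O v (8 * c))
    (P : MvPolynomial (Fin n) ℂ) (h0 : MvPolynomial.constantCoeff P = 0)
    (hP : (fun i => P.coeff (Finsupp.single i 1)) ∈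
      Submodule.span ℂ ((fun i => M i) '' {i | wt n i = 8})) :
    MvPolynomial.aeval y P ∈ vIdeal O v (8 * c) := by
  have h1 : ∀ a ∈ Submodule.span ℂ ((fun i => M i) '' {i | wt n i = 8}),
      ∑ i, algebraMap ℂ O (a i) * y i ∈ vIdeal O v (8 * c) := by
    intro a ha
    induction ha using Submodule.span_induction with
    | mem x hx =>
      obtain ⟨i, hi, rfl⟩ := hx
      exact hM i hi
    | zero => simp
    | add a b _ _ ha hb =>
      simp only [Pi.add_apply, map_add, add_mul, Finset.sum_add_distrib]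
      exact Ideal.add_mem _ ha hb
    | smul r a _ ha =>
      simp only [Pi.smul_apply, smul_eq_mul, map_mul, mul_assoc, ← Finset.mul_sum]
      exact Ideal.mul_mem_left _ _ ha
  have h2 := x5_anti O v (by omega : 8 * c ≤ 7 * c * 2)
    (pow_le_vIdeal O hv hQ 2 (x5_taylor O y P))
  have h3 := Ideal.add_mem _ h2 (h1 _ hP)
  rwa [h0, map_zero, sub_zero, sub_add_cancel] at h3

/-- Induction on `μ ≤ 8 c`: `span (range u) ≤ vIdeal μ`, since for `μ < 8 c` the cube of `u i` has
value at least `min (8 c + 2 μ) (28 c) ≥ 3 μ + 1`. -/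
theorem val_four (O : Type) [CommRing O] [Algebra O K] {v : Valuation K ℤᵐ⁰} (hv : Over O v)
    {I Q : Ideal O} (u : Fin 4 → O) {c : ℕ} (hI : I ≤ vIdeal O v (8 * c))
    (hQ : Q ≤ vIdeal O v (7 * c))
    (hu : ∀ i, u i ^ 3 ∈ I * (Ideal.span (Set.range u) ⊔ I) ^ 2 ⊔ Q ^ 4) {τ : O}
    (hτ : τ ∈ (Ideal.span (Set.range u) ⊔ I) ^ 2 ⊔ Q ^ 4) : τ ∈ vIdeal O v (16 * c) := by
  have h4 : Q ^ 4 ≤ vIdeal O v (7 * c * 4) := pow_le_vIdeal O hv hQ 4
  have key : ∀ μ : ℕ, μ ≤ 8 * c → Ideal.span (Set.range u) ≤ vIdeal O v μ := by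
    intro μ
    induction μ with
    | zero => exact fun _ a _ => (mem_vIdeal O hv _ a).2 (by simpa using hv a)
    | succ μ ih =>
      intro hμ
      have hJ : Ideal.span (Set.range u) ⊔ I ≤ vIdeal O v μ :=
        sup_le (ih (by omega)) (hI.trans (x5_anti O v (by omega)))
      have h5 : I * (Ideal.span (Set.range u) ⊔ I) ^ 2 ⊔ Q ^ 4 ≤ vIdeal O v (3 * μ + 1) :=
        sup_le ((x5_mul O hv hI (pow_le_vIdeal O hv hJ 2)).trans (x5_anti O v (by omega)))
          (h4.trans (x5_anti O v (by omega)))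
      rw [Ideal.span_le]
      rintro _ ⟨i, rfl⟩
      have h6 := (mem_vIdeal O hv _ _).1 (h5 (hu i))
      refine (mem_vIdeal O hv _ _).2 ?_
      rw [map_pow, map_pow] at h6
      by_cases h0 : v (algebraMap O K (u i)) = 0
      · rw [h0]
        exact zero_le
      · rw [← exp_log h0] at h6 ⊢
        rw [← exp_nsmul, exp_le_exp, nsmul_eq_mul] at h6
        rw [exp_le_exp]
        push_cast at h6 ⊢
        omega
  have hJ : Ideal.span (Set.range u) ⊔ I ≤ vIdeal O v (8 * c) := sup_le (key _ le_rfl) hI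
  exact sup_le ((pow_le_vIdeal O hv hJ 2).trans (x5_anti O v (by omega)))
    (h4.trans (x5_anti O v (by omega))) hτ

end Vale.Agent.P282
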