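import Vale.Agent.P282.Defs2
import Vale.Agent.P282.W5
import Vale.Agent.P282.P1
import Vale.Agent.P282.P4
import Vale.Agent.P282.X3
import Vale.Agent.P282.X4
import Vale.Agent.P282.X5

/-! Gorenstein germs of small embedding codimension. -/

open scoped ENNReal WithZero
open WithZero Filter MvPolynomial IsLocalRing

noncomputable section

namespace Vale.Agent.P282

set_option linter.unusedSectionVars false

variable {K : Type} [Field K] [Algebra ℂ K] {n : ℕ}

theorem gor_cast {e s : ℕ} {w : ℝ≥0∞} (h : w ≤ e * ENNReal.ofReal (n - s / (1 : ℕ)) ^ n)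
    (h2 : e * (n - s) ^ n < 2 * (n - 1) ^ n) : w < 2 * ((n - 1 : ℕ) : ℝ≥0∞) ^ n := by
  have e1 : ENNReal.ofReal (n - s / (1 : ℕ)) = (n - s : ℕ) := by
    rw [Nat.cast_one, div_one, ENNReal.ofReal_sub _ (Nat.cast_nonneg _), ENNReal.ofReal_natCast,
      ENNReal.ofReal_natCast, ENNReal.natCast_sub]
  rw [e1] at h
  refine h.trans_lt ?_
  exact_mod_cast h2

theorem gor_cast_w (hn : 17 ≤ n) {e : ℕ} (he : e ≤ 6) {w : ℝ≥0∞}
    (h : w ≤ e * ENNReal.ofReal ((∑ i, wt n i : ℕ) - (16 : ℕ)) ^ n / (∏ i, wt n i : ℕ)) :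
    w < 2 * ((n - 1 : ℕ) : ℝ≥0∞) ^ n := by
  have e1 : ENNReal.ofReal ((∑ i, wt n i : ℕ) - (16 : ℕ)) = (7 * n : ℕ) := by
    rw [wt_sum hn, ← ENNReal.ofReal_natCast]
    congr 1
    push_cast
    ring
  have hP := wt_prod hn
  have hP0 : (∏ i, wt n i) ≠ 0 := by
    intro h0
    rw [h0] at hP
    exact absurd hP.symm (by positivity)
  have h2 : e * (7 * n) ^ n < 2 * (n - 1) ^ n * ∏ i, wt n i := by
    refine Nat.lt_of_mul_lt_mul_right (a := 7 ^ 16) ?_
    calc e * (7 * n) ^ n * 7 ^ 16 ≤ 6 * (7 * n) ^ n * 7 ^ 16 := by gcongr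
      _ = 6 * 7 ^ 16 * n ^ n * 7 ^ n := by
        rw [mul_pow]
        ring
      _ < 2 * 8 ^ 16 * (n - 1) ^ n * 7 ^ n := Nat.mul_lt_mul_of_pos_right (num_weight hn) (by positivity)
      _ = 2 * (n - 1) ^ n * (∏ i, wt n i) * 7 ^ 16 := by
        rw [mul_assoc (2 * (n - 1) ^ n), hP]
        ring
  rw [e1] at h
  refine h.trans_lt ((ENNReal.div_lt_iff (Or.inl ?_) (Or.inl ?_)).2 ?_)
  · exact_mod_cast hP0
  · exact ENNReal.natCast_ne_top _
  · exact_mod_cast h2

theorem gor_red {R O : Type} [CommRing R] [IsDomain R] [Algebra ℂ R]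
    [Algebra.FiniteType ℂ R] (m : Ideal R) [m.IsMaximal] [CommRing O] [IsLocalRing O]
    [IsNoetherianRing O] [Algebra R O] [IsLocalization.AtPrime O m] [Algebra ℂ O]
    [IsScalarTower ℂ R O] [Algebra R K] [IsFractionRing R K] [IsScalarTower ℂ R K]
    (hdim : Algebra.trdeg ℂ K = n) : (∀ a : O, ∃ c : ℂ, a - algebraMap ℂ O c ∈ maximalIdeal O) ∧
      ∃ (y : Fin n → O) (j : ℕ), (∀ i, y i ∈ maximalIdeal O) ∧
        maximalIdeal O ^ (j + 1) = Ideal.span (Set.range y) * maximalIdeal O ^ j := by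
  obtain ⟨u, hu, hfin⟩ := exists_noether0 (K := K) hdim m
  let _ : Algebra (MvPolynomial (Fin n) ℂ) R := (aeval u).toRingHom.toAlgebra
  have _ : IsScalarTower ℂ (MvPolynomial (Fin n) ℂ) R :=
    IsScalarTower.of_algebraMap_eq fun c => ((aeval u).commutes c).symm
  have _ : Module.Finite (MvPolynomial (Fin n) ℂ) R := hfin
  have h1 := finite_quot m.primeCompl (fun i => algebraMap R O (u i)) fun i => by
    congr 1
    exact (aeval_X u i).symm
  have hu' : ∀ i, algebraMap R O (u i) ∈ maximalIdeal O := fun i =>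
    (IsLocalization.AtPrime.to_map_mem_maximal_iff O m _).2 (hu i)
  refine ⟨fun a => ?_, exists_red _ hu'⟩
  have hle : Ideal.span (Set.range fun i => algebraMap R O (u i)) ≤ maximalIdeal O :=
    Ideal.span_le.2 (Set.range_subset_iff.2 hu')
  have h2 : Module.Finite ℂ (O ⧸ maximalIdeal O) :=
    Module.Finite.of_surjective (Ideal.Quotient.factorₐ ℂ hle).toLinearMap
      (Ideal.Quotient.factor_surjective hle)
  obtain ⟨c, hc⟩ := (IsAlgClosed.algebraMap_bijective_of_isIntegral (k := ℂ)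
    (K := O ⧸ maximalIdeal O)).2 (Ideal.Quotient.mk _ a)
  exact ⟨c, Ideal.Quotient.eq.1 hc.symm⟩

theorem main_gor {k : ℕ} {R O : Type} [CommRing R] [IsDomain R] [IsIntegrallyClosed R]
    [Algebra ℂ R] [Algebra.FiniteType ℂ R] (m : Ideal R) [m.IsMaximal] [CommRing O]
    [IsLocalRing O] [Algebra R O] [IsLocalization.AtPrime O m] [Algebra R K] [IsFractionRing R K]
    [IsScalarTower ℂ R K] [Algebra O K] [IsScalarTower R O K]
    (hdim : Algebra.trdeg ℂ K = (k + 2 : ℕ)) (D : Fin (k + 2) → Derivation ℂ K K)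
    (hD : LinearIndependent K D) (r : ℕ) (g : K) (hg : Generates O D r g)
    (hG : IsGorenstein O (k + 2)) (c : ℕ)
    (hc : Module.finrank (ResidueField O) (CotangentSpace O) = k + 2 + c) (h2 : 2 ≤ c)
    (h : c = 4 ∨ (c + 2) * (k + 2 - 2) ^ (k + 2) < 2 * (k + 2 - 1) ^ (k + 2)) :
    nvol O D r g < 2 * ((k + 2 - 1 : ℕ) : ℝ≥0∞) ^ (k + 2) := by
  have _ : IsNoetherianRing R := Algebra.FiniteType.isNoetherianRing ℂ R
  have _ : IsNoetherianRing O := IsLocalization.isNoetherianRing m.primeCompl O inferInstance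
  let _ : Algebra ℂ O := ((algebraMap R O).comp (algebraMap ℂ R)).toAlgebra
  have _ : IsScalarTower ℂ R O := IsScalarTower.of_algebraMap_eq fun _ => rfl
  obtain ⟨hres, y, j, hy, hred⟩ := gor_red (O := O) (K := K) m hdim
  have hQm : Ideal.span (Set.range y) ≤ maximalIdeal O :=
    Ideal.span_le.2 (Set.range_subset_iff.2 hy)
  have hj : maximalIdeal O ^ (j + 1) ≤ Ideal.span (Set.range y) := hred.le.trans Ideal.mul_le_left
  obtain ⟨hreg, hirr⟩ := hG y (le_antisymm
    ((Ideal.IsPrime.radical_le_iff inferInstance).2 hQm)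
    fun a ha => ⟨j + 1, hj (Ideal.pow_mem_pow ha _)⟩)
  have hq := qr_of_regular y hreg
  obtain ⟨x, hx⟩ := exists_compl hq hy hred hc
  have hxm : ∀ i, x i ∈ maximalIdeal O := fun i =>
    hx ▸ Ideal.mem_sup_right (Ideal.subset_span ⟨i, rfl⟩)
  have hsq : ¬maximalIdeal O ^ 2 ≤ Ideal.span (Set.range y) := by
    intro hs
    have hsoc : ∀ a ∈ maximalIdeal O, ∀ z ∈ maximalIdeal O, z * a ∈ Ideal.span (Set.range y) :=
      fun a ha z hz => hs (by rw [pow_two]; exact Ideal.mul_mem_mul hz ha)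
    obtain ⟨a, ha, h1⟩ : ∃ a ∈ maximalIdeal O,
        maximalIdeal O ≤ Ideal.span (Set.range y) ⊔ Ideal.span {a} := by
      by_cases h0 : maximalIdeal O ≤ Ideal.span (Set.range y)
      · exact ⟨0, zero_mem _, h0.trans le_sup_left⟩
      obtain ⟨a, ha, ha'⟩ := SetLike.not_le_iff_exists.1 h0
      refine ⟨a, ha, fun b hb => ?_⟩
      obtain ⟨t, ht⟩ := socle_simple hirr (hsoc a ha) (hsoc b hb) ha'
      rw [← sub_add_cancel b (t * a)]
      exact Submodule.add_mem_sup ht (Ideal.mul_mem_left _ _ (Ideal.mem_span_singleton_self a))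
    have h3 := finrank_cot_le (fun i : Option (Fin (k + 2)) => i.elim a y)
      (fun i => by cases i <;> simp [ha, hy]) (h1.trans (le_sup_of_le_left (sup_le
        (Ideal.span_mono (Set.range_subset_iff.2 fun i => ⟨some i, rfl⟩))
        (Ideal.span_mono (Set.singleton_subset_iff.2 ⟨none, rfl⟩)))))
    rw [hc, Fintype.card_option, Fintype.card_fin] at h3
    omega
  classical
  have hex : ∃ s, maximalIdeal O ^ (s + 3) ≤ Ideal.span (Set.range y) :=
    ⟨j, (Ideal.pow_le_pow_right (by omega)).trans hj⟩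
  obtain ⟨s, hs, hs'⟩ : ∃ s, maximalIdeal O ^ (s + 3) ≤ Ideal.span (Set.range y) ∧
      ¬maximalIdeal O ^ (s + 2) ≤ Ideal.span (Set.range y) := by
    refine ⟨Nat.find hex, Nat.find_spec hex, ?_⟩
    rcases h0 : Nat.find hex with _ | s
    · exact hsq
    · exact Nat.find_min hex (h0 ▸ Nat.lt_succ_self s)
  have hl := length_gor hirr x hx (s + 1) hs
  obtain ⟨e, he⟩ := ENat.ne_top_iff_exists.1 (ne_top_of_le_ne_top (ENat.natCast_ne_top _) hl)
  obtain ⟨b, hb, hb'⟩ := SetLike.not_le_iff_exists.1 hs'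
  have hmain := main_qr (k := k + 1) m hdim D hD r g hg y hq hred e he.symm b hb' (s + 2) 1 one_pos
    (by rwa [pow_one])
  have he1 : e ≤ (c + (s + 1)).choose c + 1 := by
    rw [← he] at hl
    exact_mod_cast hl
  have hA : (c + 2) * (k + 2 - 2) ^ (k + 2) < 2 * (k + 2 - 1) ^ (k + 2) →
      nvol O D r g < 2 * ((k + 2 - 1 : ℕ) : ℝ≥0∞) ^ (k + 2) := fun h =>
    gor_cast hmain ((Nat.mul_le_mul_right _ he1).trans_lt (num_gor (by omega) h s))
  rcases h with rfl | h
  swap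
  · exact hA h
  by_cases hn : k + 2 ≤ 16
  · exact hA (num_six (by omega) hn)
  rcases s with _ | s
  swap
  · have hl' := length_gor' hirr x hx (s + 1) hs
    have he2 : e ≤ (4 + (s + 1)).choose 4 + 4 + 1 := by
      rw [← he] at hl'
      exact_mod_cast hl'
    exact gor_cast hmain ((Nat.mul_le_mul_right _ he2).trans_lt
      (num_four (by omega) (five_lt k) s))
  have hn' : 17 ≤ k + 2 := by omega
  obtain ⟨v, σ, hv, hσ, hvv, hsp, hind⟩ := exists_frame hres y hirr x hx hc hs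
  obtain ⟨u, τ, C, hC, hτ, hu, hτ'⟩ := exists_rel_four hq _ v σ hv hσ hs hvv hsp hind 4
  obtain ⟨M, N, hMN, hM⟩ := exists_coord hn' fun l i => (C l).coeff (Finsupp.single i 1)
  obtain ⟨hq', hQ⟩ := hq.mulVec (M.map (algebraMap ℂ O)) (N.map (algebraMap ℂ O)) (by
    rw [← Matrix.map_mul, hMN, Matrix.map_one _ (map_zero _) (map_one _)])
  have hw : ∀ i, 7 ≤ wt (k + 2) i := fun i => by
    unfold wt
    split_ifs <;> omega
  refine gor_cast_w hn' (he1.trans (by decide)) (main_w m hdim D hD r g hg _ hq' (j := j)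
    (by rwa [hQ]) e (by rw [hQ, he]) τ (by rwa [hQ]) (wt (k + 2)) (by simp [wt])
    (fun i => by have := hw i; omega) 16 fun w c hw' hc => ?_)
  have h7 : Ideal.span (Set.range y) ≤ vIdeal O w (7 * c) := by
    rw [← hQ]
    refine Ideal.span_le.2 (Set.range_subset_iff.2 fun i => ?_)
    refine (mem_vIdeal O hw'.1 _ _).2 ((hc i).trans (exp_le_exp.2 ?_))
    have := Nat.mul_le_mul_left c (hw i)
    omega
  have h8 : Ideal.span (Set.range fun l => aeval y (C l)) ≤ vIdeal O w (8 * c) := by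
    refine Ideal.span_le.2 (Set.range_subset_iff.2 fun l => ?_)
    refine aeval_mem_wt O hw'.1 y M h7 (fun i hi => ?_) (C l) (hC l) (hM l)
    refine (mem_vIdeal O hw'.1 _ _).2 ((hc i).trans (le_of_eq ?_))
    rw [hi, mul_comm]
  have h9 := (mem_vIdeal O hw'.1 _ _).1 (val_four O hw'.1 u h8 h7 hu hτ')
  rwa [mul_comm] at h9

end Vale.Agent.P282
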