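import Vale.Agent.P282.Defs

/-! Noether normalization with prescribed jets. -/

open scoped ENNReal WithZero
open WithZero Filter

noncomputable section

namespace Vale.Agent.P282

set_option linter.unusedSectionVars false

variable {K : Type} [Field K] [Algebra ℂ K] {n : ℕ}

/-- `exists_finite_inj_algHom_of_fg`; the number of variables is `n` by `trdeg_add_eq`,
`MvPolynomial.trdeg_of_isDomain`, `trdeg_eq_zero`; subtract constants (`R ⧸ m` is finite over
`ℂ`, `finite_of_finite_type_of_isJacobsonRing`, `IsAlgClosed.algebraMap_bijective_of_isIntegral`),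
which does not change the range of `aeval`. -/
theorem exists_noether0 {R : Type} [CommRing R] [IsDomain R] [Algebra ℂ R] [Algebra.FiniteType ℂ R]
    [Algebra R K] [IsFractionRing R K] [IsScalarTower ℂ R K] (hn : Algebra.trdeg ℂ K = n)
    (m : Ideal R) [m.IsMaximal] : ∃ u : Fin n → R, (∀ i, u i ∈ m) ∧
      (MvPolynomial.aeval u : MvPolynomial (Fin n) ℂ →ₐ[ℂ] R).toRingHom.Finite := by
  obtain ⟨s, g, hi, hf⟩ := exists_finite_inj_algHom_of_fg ℂ R
  have e1 : Algebra.trdeg ℂ R = s := by
    let := g.toRingHom.toAlgebra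
    have : IsScalarTower ℂ (MvPolynomial (Fin s) ℂ) R :=
      IsScalarTower.of_algebraMap_eq fun c => (g.commutes c).symm
    have : FaithfulSMul (MvPolynomial (Fin s) ℂ) R :=
      (faithfulSMul_iff_algebraMap_injective _ _).2 hi
    have : Module.Finite (MvPolynomial (Fin s) ℂ) R := hf
    rw [← trdeg_add_eq ℂ (MvPolynomial (Fin s) ℂ) (A := R), trdeg_eq_zero (A := R), add_zero,
      MvPolynomial.trdeg_of_isDomain]
    simp
  have e2 : s = n := by
    have : Algebra.IsAlgebraic R K := IsLocalization.isAlgebraic K (nonZeroDivisors R)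
    rw [← trdeg_add_eq ℂ R (A := K), trdeg_eq_zero (A := K), add_zero, e1] at hn
    exact_mod_cast hn
  subst e2
  let := Ideal.Quotient.field m
  have : Module.Finite ℂ (R ⧸ m) := finite_of_finite_type_of_isJacobsonRing ℂ (R ⧸ m)
  choose c hc using fun i => (IsAlgClosed.algebraMap_bijective_of_isIntegral (k := ℂ)
    (K := R ⧸ m)).2 (Ideal.Quotient.mk m (g (MvPolynomial.X i)))
  refine ⟨fun i => g (MvPolynomial.X i) - algebraMap ℂ R (c i),
    fun i => Ideal.Quotient.eq.1 (hc i).symm, ?_⟩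
  refine AlgHom.Finite.of_comp_finite
    (f := MvPolynomial.aeval fun i => MvPolynomial.X i + MvPolynomial.C (c i)) ?_
  have : (MvPolynomial.aeval fun i => g (MvPolynomial.X i) - algebraMap ℂ R (c i)).comp
      (MvPolynomial.aeval fun i => MvPolynomial.X i + MvPolynomial.C (c i)) = g := by
    ext i
    simp
  rwa [this]

theorem n1_iff {P R : Type} [CommRing P] [CommRing R] [Algebra ℂ P] [Algebra ℂ R]
    {f : P →ₐ[ℂ] R} : f.toRingHom.Finite ↔ Module.Finite f.range R := by
  rw [← RingHom.finite_algebraMap]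
  exact ⟨fun h => AlgHom.Finite.of_comp_finite (f := f.rangeRestrict) (g := f.range.val) h,
    fun h => AlgHom.Finite.comp (f := f.rangeRestrict) (g := f.range.val) h
      (AlgHom.Finite.of_surjective _ f.rangeRestrict_surjective)⟩

section
variable {R : Type} [CommRing R] [Algebra ℂ R] (u : Fin n → R) (s : Finset R)

/-- Monomials. -/
def n1_mon (α : Fin n → ℕ) : R := ∏ i, u i ^ α i

/-- The filtration by the degree. -/
def n1_F (k : ℕ) : Submodule ℂ R :=
  Submodule.span ℂ {a | ∃ (α : Fin n → ℕ) (x : R), ∑ i, α i ≤ k ∧ x ∈ s ∧ n1_mon u α * x = a}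

theorem n1_add (α β : Fin n → ℕ) : n1_mon u (α + β) = n1_mon u α * n1_mon u β := by
  simp [n1_mon, pow_add, Finset.prod_mul_distrib]

theorem n1_single (i : Fin n) (T : ℕ) : n1_mon u (Pi.single i T) = u i ^ T := by
  simp [n1_mon, Pi.single_apply, pow_ite]

theorem n1_mono {k l : ℕ} (h : k ≤ l) : n1_F u s k ≤ n1_F u s l :=
  Submodule.span_mono fun _ ⟨α, x, h1, h2, h3⟩ => ⟨α, x, h1.trans h, h2, h3⟩

theorem n1_mul (β : Fin n → ℕ) {k : ℕ} {a : R} (h : a ∈ n1_F u s k) :
    n1_mon u β * a ∈ n1_F u s (k + ∑ j, β j) := by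
  induction h using Submodule.span_induction with
  | mem a ha =>
    obtain ⟨α, x, h1, h2, rfl⟩ := ha
    refine Submodule.subset_span ⟨α + β, x, ?_, h2, by rw [n1_add]; ring⟩
    simp only [Pi.add_apply, Finset.sum_add_distrib]
    omega
  | zero => simp
  | add a b _ _ ha hb =>
    rw [mul_add]
    exact add_mem ha hb
  | smul c a _ ha =>
    rw [mul_smul_comm]
    exact Submodule.smul_mem _ c ha

theorem n1_plus {a b : R} (ha : ∃ k, a ∈ n1_F u s k) (hb : ∃ k, b ∈ n1_F u s k) :
    ∃ k, a + b ∈ n1_F u s k := by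
  obtain ⟨k, hk⟩ := ha
  obtain ⟨l, hl⟩ := hb
  exact ⟨k + l, add_mem (n1_mono u s (by omega) hk) (n1_mono u s (by omega) hl)⟩

theorem n1_poly (p : MvPolynomial (Fin n) ℂ) :
    ∀ a, (∃ k, a ∈ n1_F u s k) → ∃ k, MvPolynomial.aeval u p * a ∈ n1_F u s k := by
  induction p using MvPolynomial.induction_on with
  | C c =>
    rintro a ⟨k, hk⟩
    rw [MvPolynomial.aeval_C, ← Algebra.smul_def]
    exact ⟨k, Submodule.smul_mem _ c hk⟩
  | add p q hp hq =>
    intro a ha
    rw [map_add, add_mul]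
    exact n1_plus u s (hp a ha) (hq a ha)
  | mul_X p i hp =>
    rintro a ⟨k, hk⟩
    rw [map_mul, MvPolynomial.aeval_X, mul_assoc, ← pow_one (u i), ← n1_single]
    exact hp _ ⟨_, n1_mul u s _ hk⟩

theorem n1_all (hs : Submodule.span (MvPolynomial.aeval (R := ℂ) u).range (s : Set R) = ⊤)
    (a : R) : ∃ k, a ∈ n1_F u s k := by
  have ha : a ∈ Submodule.span (MvPolynomial.aeval (R := ℂ) u).range (s : Set R) :=
    hs ▸ Submodule.mem_top
  induction ha using Submodule.span_induction with
  | mem x hx => exact ⟨0, Submodule.subset_span ⟨0, x, by simp, hx, by simp [n1_mon]⟩⟩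
  | zero => exact ⟨0, zero_mem _⟩
  | add a b _ _ ha hb => exact n1_plus u s ha hb
  | smul c a _ ha =>
    obtain ⟨_, p, rfl⟩ := c
    exact n1_poly u s p a ha

end


/-- Let `r j` generate `R` over `ℂ[u]` and let `F k` be the `ℂ`-span of the `u ^ α * r j`,
`degree α ≤ k`. Choose `d` with `y i * r j ∈ F d`, so `y i * F k ≤ F (k + d)`. By strong induction
`F k` lies in the `ℂ[y + u ^ T]`-span of the finitely many `u ^ α * r j` with all `α i < T`:
if `α i ≥ T` then `u ^ α = (y i + u i ^ T) * u ^ β - y i * u ^ β`, `β = α - single i T`. -/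
theorem finite_perturb {R : Type} [CommRing R] [Algebra ℂ R] (u y : Fin n → R)
    (hu : (MvPolynomial.aeval u : MvPolynomial (Fin n) ℂ →ₐ[ℂ] R).toRingHom.Finite) :
    ∃ d : ℕ, ∀ T > d, (MvPolynomial.aeval (fun i => y i + u i ^ T) :
      MvPolynomial (Fin n) ℂ →ₐ[ℂ] R).toRingHom.Finite := by
  classical
  obtain ⟨s, hs⟩ := Module.Finite.fg_top (R := (MvPolynomial.aeval (R := ℂ) u).range) (M := R)
    (self := n1_iff.1 hu)
  have h1 := n1_all u s hs
  choose k hk using fun q : Fin n × s => h1 (y q.1 * q.2)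
  obtain ⟨d, hd⟩ := Finite.bddAbove_range k
  have h2 : ∀ i (β : Fin n → ℕ), ∀ x ∈ s, y i * (n1_mon u β * x) ∈ n1_F u s (d + ∑ j, β j) := by
    intro i β x hx
    rw [mul_left_comm]
    exact n1_mul u s β (n1_mono u s (hd ⟨(i, ⟨x, hx⟩), rfl⟩) (hk (i, ⟨x, hx⟩)))
  refine ⟨d, fun T hT => n1_iff.2 ?_⟩
  set A := (MvPolynomial.aeval (R := ℂ) fun i => y i + u i ^ T).range with hA
  let S : Finset R := ((Fintype.piFinset fun _ : Fin n => Finset.range T) ×ˢ s).image
    fun q => n1_mon u q.1 * q.2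
  have key : ∀ k, n1_F u s k ≤ (Submodule.span A (S : Set R)).restrictScalars ℂ := by
    intro k
    induction k using Nat.strong_induction_on with
    | _ k ih =>
      refine Submodule.span_le.2 ?_
      rintro _ ⟨α, x, hα, hx, rfl⟩
      change n1_mon u α * x ∈ Submodule.span A (S : Set R)
      by_cases h : ∀ i, α i < T
      · refine Submodule.subset_span (Finset.mem_coe.2 (Finset.mem_image.2 ⟨(α, x), ?_, rfl⟩))
        simp [h, hx]
      · push Not at h
        obtain ⟨i, hi⟩ := h
        obtain ⟨β, rfl⟩ : ∃ β : Fin n → ℕ, α = β + Pi.single i T := by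
          refine ⟨α - Pi.single i T, funext fun j => ?_⟩
          rcases eq_or_ne j i with rfl | hj
          · simp [hi]
          · simp [hj]
        have e : ∑ j, (β + Pi.single i T : Fin n → ℕ) j = ∑ j, β j + T := by
          simp [Finset.sum_add_distrib]
        have a1 : n1_mon u β * x ∈ Submodule.span A (S : Set R) :=
          ih (∑ j, β j) (by omega) (Submodule.subset_span ⟨β, x, le_rfl, hx, rfl⟩)
        have a2 : y i * (n1_mon u β * x) ∈ Submodule.span A (S : Set R) :=
          ih (d + ∑ j, β j) (by omega) (h2 i β x hx)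
        have a3 := Submodule.smul_mem _
          (⟨y i + u i ^ T, MvPolynomial.X i, MvPolynomial.aeval_X _ i⟩ : A) a1
        have a4 := Submodule.sub_mem _ a3 a2
        have e2 : (y i + u i ^ T) * (n1_mon u β * x) - y i * (n1_mon u β * x) =
            n1_mon u (β + Pi.single i T) * x := by
          rw [n1_add, n1_single]
          ring
        rw [← e2]
        exact a4
  refine ⟨⟨S, eq_top_iff.2 fun a _ => ?_⟩⟩
  obtain ⟨k, hk⟩ := h1 a
  exact key k hk

theorem exists_noether {R : Type} [CommRing R] [IsDomain R] [Algebra ℂ R] [Algebra.FiniteType ℂ R]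
    [Algebra R K] [IsFractionRing R K] [IsScalarTower ℂ R K] (hn : Algebra.trdeg ℂ K = n)
    (m : Ideal R) [m.IsMaximal] (y : Fin n → R) (N : ℕ) : ∃ y' : Fin n → R,
      (∀ i, y' i - y i ∈ m ^ N) ∧
      (MvPolynomial.aeval y' : MvPolynomial (Fin n) ℂ →ₐ[ℂ] R).toRingHom.Finite := by
  obtain ⟨u, hu, hf⟩ := exists_noether0 (K := K) hn m
  obtain ⟨d, hd⟩ := finite_perturb u y hf
  refine ⟨fun i => y i + u i ^ (d + 1 + N), fun i => ?_, hd _ (by omega)⟩
  rw [add_sub_cancel_left, pow_add]
  exact Ideal.mul_mem_left _ _ (Ideal.pow_mem_pow (hu i) N)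

end Vale.Agent.P282
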