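import Vale.Agent.P282.N0

/-! Regular sequences are quasi-regular. -/

open scoped ENNReal WithZero
open WithZero Filter

noncomputable section

namespace Vale.Agent.P282

set_option linter.unusedSectionVars false

variable {K : Type} [Field K] [Algebra ℂ K] {n : ℕ}

open MvPolynomial in
theorem n2_mul {O : Type} [CommRing O] (y : Fin n → O) (I : Ideal O) (i : ℕ) {a : O}
    (ha : a ∈ I * Ideal.span (Set.range y) ^ i) : ∃ F : MvPolynomial (Fin n) O,
      F.IsHomogeneous i ∧ (∀ α, F.coeff α ∈ I) ∧ eval y F = a := by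
  refine Submodule.mul_induction_on ha (fun q hq b hb => ?_) ?_
  · obtain ⟨F, h1, rfl⟩ := (mem_pow_iff y i b).1 hb
    exact ⟨C q * F, h1.C_mul q, fun α => by rw [coeff_C_mul]; exact I.mul_mem_right _ hq, by simp⟩
  · rintro _ _ ⟨F, h1, h2, rfl⟩ ⟨G, h3, h4, rfl⟩
    exact ⟨F + G, h1.add h3, fun α => by rw [coeff_add]; exact I.add_mem (h2 α) (h4 α), by simp⟩

open MvPolynomial in
theorem n2_map {O σ : Type} [CommRing O] (I : Ideal O) (F : MvPolynomial σ O) :
    (∀ α, F.coeff α ∈ I) ↔ map (Ideal.Quotient.mk I) F = 0 := by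
  simp only [MvPolynomial.ext_iff, coeff_map, coeff_zero, Ideal.Quotient.eq_zero_iff_mem]

open MvPolynomial in
theorem n2_split {O : Type} [CommRing O] {F : MvPolynomial (Fin (n + 1)) O} {i : ℕ}
    (hF : F.IsHomogeneous (i + 1)) : ∃ G H, G.IsHomogeneous (i + 1) ∧ H.IsHomogeneous i ∧
      F = rename Fin.succ G + X 0 * H := by
  rw [F.as_sum]
  refine Finset.sum_induction _ (fun F : MvPolynomial (Fin (n + 1)) O => ∃ G H,
    G.IsHomogeneous (i + 1) ∧ H.IsHomogeneous i ∧ F = rename Fin.succ G + X 0 * H) ?_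
    ⟨0, 0, isHomogeneous_zero _ _ _, isHomogeneous_zero _ _ _, by simp⟩ fun d hd => ?_
  · rintro _ _ ⟨G, H, h1, h2, rfl⟩ ⟨G', H', h3, h4, rfl⟩
    exact ⟨G + G', H + H', h1.add h3, h2.add h4, by rw [map_add]; ring⟩
  have h1 : d.degree = i + 1 := by
    by_contra h
    exact mem_support_iff.1 hd (hF.coeff_eq_zero h)
  by_cases h0 : d 0 = 0
  · have e : rename Fin.succ (monomial d.tail (F.coeff d)) = monomial d (F.coeff d) := by
      rw [rename_monomial]
      congr 2
      ext j
      refine Fin.cases ?_ (fun j => ?_) j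
      · rw [Finsupp.mapDomain_of_notMem_range _ _ (by simp), h0]
      · rw [Finsupp.mapDomain_apply (Fin.succ_injective _), Finsupp.tail_apply]
    refine ⟨_, 0, (IsHomogeneous.rename_isHomogeneous_iff (Fin.succ_injective _)).1 ?_,
      isHomogeneous_zero _ _ _, by rw [e, mul_zero, add_zero]⟩
    rw [e]
    exact isHomogeneous_monomial _ h1
  · have e : Finsupp.single 0 1 + (d - Finsupp.single 0 1) = d :=
      add_tsub_cancel_of_le (Finsupp.single_le_iff.2 (Nat.one_le_iff_ne_zero.2 h0))
    refine ⟨0, monomial (d - Finsupp.single 0 1) (F.coeff d), isHomogeneous_zero _ _ _,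
      isHomogeneous_monomial _ ?_, by rw [map_zero, zero_add, X, monomial_mul, one_mul, e]⟩
    rw [← e, map_add, Finsupp.degree_single] at h1
    omega

/-- Matsumura 16.2. Use `qr_of_zero`, induction on the degree `ν`. Write
`F = rename Fin.succ G + X 0 * H` with `G`, `H` forms of degree `ν`, `ν - 1` (split the monomials,
or `MvPolynomial.finSuccEquiv`, or `divMonomial`/`modMonomial`). With `J` the ideal of the tail,
`y 0 * H(y) ∈ J ^ ν`, so `H(y) ∈ J ^ ν` (`QR.colon`), `H(y) = h(tail y)` with `h` a form of degree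
`ν` (`mem_pow_iff`); by induction (subtract a form with coefficients in `Q`, as in `qr_of_zero`)
`H` has coefficients in `Q`, and `G + C (y 0) * h` vanishes at the tail, so it has
coefficients in `J`. -/
theorem qr_cons {O : Type} [CommRing O] (y : Fin (n + 1) → O) (h : QR fun i : Fin n => y i.succ)
    (h0 : ∀ a, y 0 * a ∈ Ideal.span (Set.range fun i : Fin n => y i.succ) →
      a ∈ Ideal.span (Set.range fun i : Fin n => y i.succ)) : QR y := by
  have hJ : Ideal.span (Set.range fun i : Fin n => y i.succ) ≤ Ideal.span (Set.range y) :=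
    Ideal.span_mono (Set.range_subset_iff.2 fun i => ⟨_, rfl⟩)
  refine qr_of_zero y fun F i => ?_
  induction i generalizing F with
  | zero =>
    intro hF e α
    rw [← MvPolynomial.totalDegree_zero_iff_isHomogeneous,
      MvPolynomial.totalDegree_eq_zero_iff_eq_C] at hF
    rw [hF, MvPolynomial.eval_C] at e
    rw [hF, e, map_zero]
    exact Ideal.zero_mem _
  | succ i ih =>
    intro hF e
    obtain ⟨G, H, hG, hH, rfl⟩ := n2_split hF
    rw [map_add, map_mul, MvPolynomial.eval_X, MvPolynomial.eval_rename] at e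
    have h1 := h.colon h0 (i + 1) (MvPolynomial.eval y H) (by
      rw [eq_neg_of_add_eq_zero_right e]
      exact neg_mem ((mem_pow_iff _ _ _).2 ⟨G, hG, rfl⟩))
    obtain ⟨k, k1, k2⟩ := (mem_pow_iff _ _ _).1 h1
    obtain ⟨H', g1, g2, g3⟩ := n2_mul y _ i (pow_succ' (Ideal.span (Set.range y)) i ▸
      Ideal.pow_right_mono hJ (i + 1) h1)
    have h2 : ∀ α, H.coeff α ∈ Ideal.span (Set.range y) := fun α => by
      have := add_mem (ih (H - H') (hH.sub g1) (by rw [map_sub, g3, sub_self]) α) (g2 α)
      rwa [MvPolynomial.coeff_sub, sub_add_cancel] at this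
    have h3 : ∀ α, G.coeff α ∈ Ideal.span (Set.range y) := fun α => by
      have := sub_mem (hJ (h (G + MvPolynomial.C (y 0) * k) (i + 1) (hG.add (k1.C_mul _)) (by
        rw [map_add, map_mul, MvPolynomial.eval_C, k2]
        exact Set.mem_of_eq_of_mem e (Ideal.zero_mem _)) α))
        (Ideal.mul_mem_right (k.coeff α) _ (Ideal.subset_span ⟨0, rfl⟩))
      rwa [MvPolynomial.coeff_add, MvPolynomial.coeff_C_mul, add_sub_cancel_right] at this
    rw [n2_map] at h2 h3 ⊢
    rw [map_add, map_mul, MvPolynomial.map_rename, h2, h3, map_zero, mul_zero, add_zero]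

/-- Induction on `n`: `List.ofFn_succ`, `List.reverse_cons`, `isWeaklyRegular_append_iff`,
`isWeaklyRegular_singleton_iff`. For `n = 0` a form with value zero is zero. -/
theorem qr_of_rev {O : Type} [CommRing O] (y : Fin n → O)
    (h : RingTheory.Sequence.IsWeaklyRegular O (List.ofFn y).reverse) : QR y := by
  induction n with
  | zero =>
    refine qr_of_zero y fun F i _ e α => ?_
    rw [F.eq_C_of_isEmpty, MvPolynomial.eval_C] at e
    rw [F.eq_C_of_isEmpty, e, map_zero]
    exact Ideal.zero_mem _
  | succ n ih =>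
    rw [List.ofFn_succ, List.reverse_cons, RingTheory.Sequence.isWeaklyRegular_append_iff,
      RingTheory.Sequence.isWeaklyRegular_singleton_iff,
      isSMulRegular_quotient_iff_mem_of_smul_mem] at h
    have e : (Ideal.ofList (List.ofFn fun i : Fin n => y i.succ).reverse • ⊤ : Submodule O O) =
        Ideal.span (Set.range fun i : Fin n => y i.succ) := by
      rw [smul_eq_mul, Ideal.mul_top, Ideal.ofList]
      congr 1
      ext a
      simp [List.mem_ofFn']
    rw [e] at h
    exact qr_cons y (ih _ h.1) h.2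

/-- `IsLocalRing.isRegular_of_perm`. -/
theorem qr_of_regular {O : Type} [CommRing O] [IsLocalRing O] [IsNoetherianRing O] (y : Fin n → O)
    (h : RingTheory.Sequence.IsRegular O (List.ofFn y)) : QR y := by
  exact qr_of_rev y (IsLocalRing.isRegular_of_perm h (List.reverse_perm _).symm).toIsWeaklyRegular

end Vale.Agent.P282
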