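import Vale.Agent.P282.Core
import Vale.Agent.P282.N1
import Vale.Agent.P282.N2
import Vale.Agent.P282.N4

/-! The bound for a reduction generated by a regular sequence. -/

open scoped ENNReal WithZero
open WithZero Filter MvPolynomial

noncomputable section

namespace Vale.Agent.P282

set_option linter.unusedSectionVars false

variable {K : Type} [Field K] [Algebra ℂ K] {n : ℕ}

theorem main_qr {k : ℕ} {R O : Type} [CommRing R] [IsDomain R] [IsIntegrallyClosed R] [Algebra ℂ R]
    [Algebra.FiniteType ℂ R] (m : Ideal R) [m.IsMaximal] [CommRing O] [IsLocalRing O]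
    [Algebra R O] [IsLocalization.AtPrime O m] [Algebra R K] [IsFractionRing R K]
    [IsScalarTower ℂ R K] [Algebra O K] [IsScalarTower R O K]
    (hdim : Algebra.trdeg ℂ K = (k + 1 : ℕ)) (D : Fin (k + 1) → Derivation ℂ K K)
    (hD : LinearIndependent K D) (r : ℕ) (g : K) (hg : Generates O D r g) (y : Fin (k + 1) → O)
    (hq : QR y) {j : ℕ} (hred : IsLocalRing.maximalIdeal O ^ (j + 1) =
      Ideal.span (Set.range y) * IsLocalRing.maximalIdeal O ^ j)
    (e : ℕ) (he : Module.length O (O ⧸ Ideal.span (Set.range y)) = e) (b : O)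
    (hb : b ∉ Ideal.span (Set.range y)) (p q : ℕ) (hq0 : 0 < q)
    (hbp : b ^ q ∈ IsLocalRing.maximalIdeal O ^ p) :
    nvol O D r g ≤ e * ENNReal.ofReal ((k + 1 : ℕ) - p / q) ^ (k + 1) := by
  have _ : IsNoetherianRing R := Algebra.FiniteType.isNoetherianRing ℂ R
  have _ : IsNoetherianRing O := IsLocalization.isNoetherianRing m.primeCompl O inferInstance
  have _ : IsDomain O := IsLocalization.isDomain_of_atPrime O m
  have _ : IsIntegrallyClosed O :=
    isIntegrallyClosed_of_isLocalization O m.primeCompl m.primeCompl_le_nonZeroDivisors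
  have _ : IsFractionRing O K :=
    IsFractionRing.isFractionRing_of_isDomain_of_isLocalization m.primeCompl O K
  let _ : Algebra ℂ O := ((algebraMap R O).comp (algebraMap ℂ R)).toAlgebra
  have _ : IsScalarTower ℂ R O := IsScalarTower.of_algebraMap_eq fun _ => rfl
  have _ : IsScalarTower ℂ O K := IsScalarTower.of_algebraMap_eq fun c => by
    rw [IsScalarTower.algebraMap_apply ℂ R O, ← IsScalarTower.algebraMap_apply R O K,
      ← IsScalarTower.algebraMap_apply]
  choose a s has using fun i => IsLocalization.exists_mk'_eq m.primeCompl (y i)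
  obtain ⟨y', hy', hfin⟩ := exists_noether (K := K) hdim m a (j + 2)
  obtain ⟨hq', hQ⟩ := hq.change (y' := fun i => algebraMap R O (y' i)) fun i => by
    refine ⟨algebraMap R O (s i), IsLocalization.map_units O (s i), ?_⟩
    rw [← has i, IsLocalization.mk'_spec', ← map_sub]
    have h1 := Ideal.mem_map_of_mem (algebraMap R O) (hy' i)
    rw [Ideal.map_pow, IsLocalization.AtPrime.map_eq_maximalIdeal, pow_succ', hred] at h1
    exact Ideal.mul_mono_right Ideal.mul_le_left h1
  let _ : Algebra (MvPolynomial (Fin (k + 1)) ℂ) R := (aeval y').toRingHom.toAlgebra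
  have _ : IsScalarTower ℂ (MvPolynomial (Fin (k + 1)) ℂ) R :=
    IsScalarTower.of_algebraMap_eq fun c => ((aeval y').commutes c).symm
  have _ : Module.Finite (MvPolynomial (Fin (k + 1)) ℂ) R := hfin
  have hae : ∀ P : MvPolynomial (Fin (k + 1)) ℂ,
      algebraMap R O (algebraMap _ R P) = aeval (fun i => algebraMap R O (y' i)) P :=
    fun P => (aeval_algebraMap_apply O y' P).symm
  have hinj := hq'.inj (by
    rw [hQ]
    exact fun h => hb (h ▸ Submodule.mem_top))
  have _ : FaithfulSMul (MvPolynomial (Fin (k + 1)) ℂ) R :=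
    (faithfulSMul_iff_algebraMap_injective _ _).2 fun P P' h => hinj (by rw [← hae, ← hae, h])
  let _ : Algebra (MvPolynomial (Fin (k + 1)) ℂ) K :=
    ((algebraMap R K).comp (algebraMap _ R)).toAlgebra
  have _ : IsScalarTower (MvPolynomial (Fin (k + 1)) ℂ) R K :=
    IsScalarTower.of_algebraMap_eq fun _ => rfl
  have _ : IsScalarTower ℂ (MvPolynomial (Fin (k + 1)) ℂ) K :=
    IsScalarTower.of_algebraMap_eq fun c => by
      rw [IsScalarTower.algebraMap_apply (MvPolynomial (Fin (k + 1)) ℂ) R K,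
        ← IsScalarTower.algebraMap_apply ℂ (MvPolynomial (Fin (k + 1)) ℂ) R,
        ← IsScalarTower.algebraMap_apply]
  have _ : FaithfulSMul (MvPolynomial (Fin (k + 1)) ℂ) K :=
    (faithfulSMul_iff_algebraMap_injective _ _).2
      ((IsFractionRing.injective R K).comp (FaithfulSMul.algebraMap_injective _ R))
  let _ := FractionRing.liftAlgebra (MvPolynomial (Fin (k + 1)) ℂ) K
  have _ := FractionRing.isScalarTower_liftAlgebra (MvPolynomial (Fin (k + 1)) ℂ) K
  have _ : IsScalarTower ℂ (FractionRing (MvPolynomial (Fin (k + 1)) ℂ)) K :=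
    IsScalarTower.of_algebraMap_eq fun c => by
      rw [IsScalarTower.algebraMap_apply ℂ (MvPolynomial (Fin (k + 1)) ℂ) (FractionRing _),
        ← IsScalarTower.algebraMap_apply (MvPolynomial (Fin (k + 1)) ℂ) _ K,
        ← IsScalarTower.algebraMap_apply]
  have hy : ∀ i, algebraMap R O (y' i) =
      algebraMap R O (algebraMap (MvPolynomial (Fin (k + 1)) ℂ) R (X i)) := fun i => by
    rw [hae, aeval_X]
  have _ := finite_quot m.primeCompl (fun i => algebraMap R O (y' i)) hy
  obtain ⟨_, φ, hφ⟩ := exists_forms (fun i => algebraMap R O (y' i)) hae hq'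
  rw [← hQ] at hred he hb
  exact core (FractionRing (MvPolynomial (Fin (k + 1)) ℂ)) m _ hy hred e he φ hφ D hD r g hg b hb
    p q hq0 hbp

theorem five_lt (k : ℕ) : 5 * k ^ (k + 2) < 2 * (k + 1) ^ (k + 2) := by
  have h : ∀ i : ℕ, 2 * k ^ (i + 2) + 2 * (i + 2) * k ^ (i + 1) + (i + 2) * (i + 1) * k ^ i ≤
      2 * (k + 1) ^ (i + 2) := by
    intro i
    induction i with
    | zero => exact le_of_eq (by ring)
    | succ i ih =>
      have e : 2 * (k + 1) ^ (i + 1 + 2) = (k + 1) * (2 * (k + 1) ^ (i + 2)) := by ring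
      rw [e]
      refine le_trans ?_ (Nat.mul_le_mul_left _ ih)
      have : (k + 1) * (2 * k ^ (i + 2) + 2 * (i + 2) * k ^ (i + 1) + (i + 2) * (i + 1) * k ^ i) =
          2 * k ^ (i + 1 + 2) + 2 * (i + 1 + 2) * k ^ (i + 1 + 1) +
            (i + 1 + 2) * (i + 1 + 1) * k ^ (i + 1) + (i + 2) * (i + 1) * k ^ i := by ring
      rw [this]
      exact Nat.le_add_right _ _
  refine lt_of_lt_of_le ?_ (h k)
  rcases Nat.eq_zero_or_pos k with rfl | hk
  · simp
  have h1 : 0 < k ^ k := by positivity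
  have e1 : k ^ (k + 2) = k ^ k * k * k := by ring
  have e2 : k ^ (k + 1) = k ^ k * k := by ring
  rw [e1, e2]
  nlinarith [Nat.mul_pos h1 hk]

theorem gap_of_le {e k : ℕ} {w : ℝ≥0∞}
    (h : w ≤ e * ENNReal.ofReal ((k + 2 : ℕ) - (2 : ℕ) / (1 : ℕ)) ^ (k + 2))
    (he : e ≤ 5 ∨ k + 2 = 4 ∧ e ≤ 10) : w < 2 * ((k + 2 - 1 : ℕ) : ℝ≥0∞) ^ (k + 2) := by
  have e1 : ENNReal.ofReal ((k + 2 : ℕ) - (2 : ℕ) / (1 : ℕ)) = k := by
    rw [← ENNReal.ofReal_natCast]
    congr 1
    push_cast
    ring
  rw [e1] at h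
  refine h.trans_lt ?_
  have h2 : e * k ^ (k + 2) < 2 * (k + 2 - 1) ^ (k + 2) := by
    rcases he with he | ⟨hk, he⟩
    · exact (Nat.mul_le_mul_right _ he).trans_lt (five_lt k)
    · obtain rfl : k = 2 := by omega
      norm_num
      omega
  exact_mod_cast h2

end Vale.Agent.P282
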