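import Vale.Agent.P282.Defs

/-! Quasi-regular sequences. -/

open scoped ENNReal WithZero
open WithZero Filter

noncomputable section

namespace Vale.Agent.P282

set_option linter.unusedSectionVars false

variable {K : Type} [Field K] [Algebra ℂ K] {n : ℕ}

/-- A form of degree `i` with value in `Q ^ (i + 1)` has its coefficients in `Q`. -/
def QR {O : Type} [CommRing O] (y : Fin n → O) : Prop :=
  ∀ (F : MvPolynomial (Fin n) O) (i : ℕ), F.IsHomogeneous i →
    MvPolynomial.eval y F ∈ Ideal.span (Set.range y) ^ (i + 1) →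
      ∀ α, F.coeff α ∈ Ideal.span (Set.range y)

theorem n0_eval {O : Type} [CommRing O] (y : Fin n → O) (I : Ideal O) (i : ℕ)
    (F : MvPolynomial (Fin n) O) (hF : F.IsHomogeneous i) (h : ∀ α, F.coeff α ∈ I) :
    MvPolynomial.eval y F ∈ I * Ideal.span (Set.range y) ^ i := by
  rw [MvPolynomial.eval_eq]
  refine Ideal.sum_mem _ fun d hd => Ideal.mul_mem_mul (h d) ?_
  rw [hF.degree_eq_sum_deg_support hd, ← Finset.prod_pow_eq_pow_sum]
  exact Ideal.prod_mem_prod fun j _ =>
    Ideal.pow_mem_pow (Ideal.subset_span (Set.mem_range_self j)) _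

/-- Induction on `i` (`Submodule.mul_induction_on`, `Submodule.span_induction`; or
`Ideal.mem_span_range_iff_exists_fun`). -/
theorem mem_pow_iff {O : Type} [CommRing O] (y : Fin n → O) (i : ℕ) (a : O) :
    a ∈ Ideal.span (Set.range y) ^ i ↔
      ∃ F : MvPolynomial (Fin n) O, F.IsHomogeneous i ∧ MvPolynomial.eval y F = a := by
  constructor
  · intro ha
    induction i generalizing a with
    | zero => exact ⟨MvPolynomial.C a, MvPolynomial.isHomogeneous_C _ _, by simp⟩
    | succ i ih =>
      rw [pow_succ] at ha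
      refine Submodule.mul_induction_on ha (fun m hm k hk => ?_) (fun u v hu hv => ?_)
      · obtain ⟨F, hF, rfl⟩ := ih m hm
        obtain ⟨c, rfl⟩ := Ideal.mem_span_range_iff_exists_fun.1 hk
        refine ⟨F * ∑ j, MvPolynomial.C (c j) * MvPolynomial.X j, hF.mul ?_, by simp⟩
        exact MvPolynomial.IsHomogeneous.sum _ _ _ fun j _ =>
          MvPolynomial.isHomogeneous_C_mul_X _ _
      · obtain ⟨F, hF, rfl⟩ := hu
        obtain ⟨G, hG, rfl⟩ := hv
        exact ⟨F + G, hF.add hG, by simp⟩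
  · rintro ⟨F, hF, rfl⟩
    have := n0_eval y ⊤ i F hF fun _ => Submodule.mem_top
    rwa [Ideal.top_mul] at this

/-- The value of a form of degree `i` with coefficients in `I`. -/
theorem eval_mem_mul {O : Type} [CommRing O] (y : Fin n → O) (I : Ideal O) (i : ℕ)
    (F : MvPolynomial (Fin n) O) (hF : F.IsHomogeneous i) (h : ∀ α, F.coeff α ∈ I) :
    MvPolynomial.eval y F ∈ I * Ideal.span (Set.range y) ^ i := by
  exact n0_eval y I i F hF h

theorem n0_mem_mul {O : Type} [CommRing O] (y : Fin n → O) (I : Ideal O) (i : ℕ) (a : O)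
    (ha : a ∈ I * Ideal.span (Set.range y) ^ i) :
    ∃ G : MvPolynomial (Fin n) O, G.IsHomogeneous i ∧ (∀ α, G.coeff α ∈ I) ∧
      MvPolynomial.eval y G = a := by
  refine Submodule.mul_induction_on ha (fun m hm k hk => ?_) (fun u v hu hv => ?_)
  · obtain ⟨F, hF, rfl⟩ := (mem_pow_iff y i k).1 hk
    refine ⟨MvPolynomial.C m * F, hF.C_mul m, fun α => ?_, by simp⟩
    rw [MvPolynomial.coeff_C_mul]
    exact I.mul_mem_right _ hm
  · obtain ⟨F, hF, hF', rfl⟩ := hu
    obtain ⟨G, hG, hG', rfl⟩ := hv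
    refine ⟨F + G, hF.add hG, fun α => ?_, by simp⟩
    rw [MvPolynomial.coeff_add]
    exact I.add_mem (hF' α) (hG' α)

/-- It is enough to test forms with value zero: an element of `Q ^ (i + 1) = Q * Q ^ i` is the
value of a form of degree `i` with coefficients in `Q`. -/
theorem qr_of_zero {O : Type} [CommRing O] (y : Fin n → O)
    (h : ∀ (F : MvPolynomial (Fin n) O) (i : ℕ), F.IsHomogeneous i → MvPolynomial.eval y F = 0 →
      ∀ α, F.coeff α ∈ Ideal.span (Set.range y)) : QR y := by
  intro F i hF hv α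
  rw [pow_succ'] at hv
  obtain ⟨G, hG, hG', hGF⟩ := n0_mem_mul y _ i _ hv
  have h1 := h (F - G) i (hF.sub hG) (by rw [map_sub, hGF, sub_self]) α
  rw [MvPolynomial.coeff_sub] at h1
  have h2 := Ideal.add_mem _ h1 (hG' α)
  rwa [sub_add_cancel] at h2

/-- Matsumura 16.1: induction on `ν`; write `a ∈ Q ^ ν` as the value of a form `F`, then
`C x * F` has value in `Q ^ (ν + 1)`. -/
theorem QR.colon {O : Type} [CommRing O] {y : Fin n → O} (hy : QR y) {x : O}
    (hx : ∀ a, x * a ∈ Ideal.span (Set.range y) → a ∈ Ideal.span (Set.range y)) (ν : ℕ) (a : O)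
    (h : x * a ∈ Ideal.span (Set.range y) ^ ν) : a ∈ Ideal.span (Set.range y) ^ ν := by
  induction ν with
  | zero => simp
  | succ ν ih =>
    have h0 : x * a ∈ Ideal.span (Set.range y) ^ ν :=
      Ideal.pow_le_pow_right (Nat.le_succ ν) h
    obtain ⟨F, hF, rfl⟩ := (mem_pow_iff y ν a).1 (ih h0)
    have h1 := hy (MvPolynomial.C x * F) ν (hF.C_mul x) (by simpa using h)
    rw [pow_succ']
    refine eval_mem_mul y _ ν F hF fun α => hx _ ?_
    have := h1 α
    rwa [MvPolynomial.coeff_C_mul] at this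

end Vale.Agent.P282
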