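import Vale.Agent.P282.N0

/-! Change of generators, and algebraic independence. -/

open scoped ENNReal WithZero
open WithZero Filter

noncomputable section

namespace Vale.Agent.P282

set_option linter.unusedSectionVars false

variable {K : Type} [Field K] [Algebra ℂ K] {n : ℕ}

theorem n3_le {O : Type} [CommRing O] (y : Fin n → O) (M : Matrix (Fin n) (Fin n) O) :
    Ideal.span (Set.range (M.mulVec y)) ≤ Ideal.span (Set.range y) :=
  Ideal.span_le.2 (Set.range_subset_iff.2 fun i => (Ideal.sum_mem _ fun j _ =>
    Ideal.mul_mem_left _ _ (Ideal.subset_span (Set.mem_range_self j)) :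
      ∑ j, M i j * y j ∈ Ideal.span (Set.range y)))

open MvPolynomial in
theorem n3_eval {O : Type} [CommRing O] (y : Fin n → O) (M : Matrix (Fin n) (Fin n) O)
    (F : MvPolynomial (Fin n) O) :
    eval y (aeval (fun i => ∑ j, C (M i j) * X j) F) = eval (M.mulVec y) F := by
  induction F using MvPolynomial.induction_on <;>
    simp [-aeval_eq_bind₁, *, Matrix.mulVec, dotProduct]

open MvPolynomial in
theorem n3_inv {O : Type} [CommRing O] {M N : Matrix (Fin n) (Fin n) O} (h : M * N = 1)
    (F : MvPolynomial (Fin n) O) :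
    aeval (fun i => (∑ j, C (N i j) * X j : MvPolynomial (Fin n) O))
      (aeval (fun i => (∑ j, C (M i j) * X j : MvPolynomial (Fin n) O)) F) = F := by
  have h1 : ∀ i, aeval (fun i => (∑ j, C (N i j) * X j : MvPolynomial (Fin n) O))
      (∑ j, C (M i j) * X j : MvPolynomial (Fin n) O) = X i := fun i => by
    have : ∀ k, ∑ j, C (M i j) * (C (N j k) * X k) =
        (C ((M * N) i k) * X k : MvPolynomial (Fin n) O) := fun k => by
      simp [Matrix.mul_apply, Finset.sum_mul, mul_assoc]
    simp only [aeval_X, map_sum, map_mul, aeval_C, algebraMap_eq, Finset.mul_sum]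
    rw [Finset.sum_comm]
    simp [this, h, Matrix.one_apply, apply_ite (C : O → MvPolynomial (Fin n) O)]
  induction F using MvPolynomial.induction_on with
  | C a => rw [aeval_C, algebraMap_eq, aeval_C, algebraMap_eq]
  | add p q hp hq => rw [map_add, map_add, hp, hq]
  | mul_X p i hp => rw [map_mul, map_mul, hp, aeval_X, h1]

open MvPolynomial in
/-- Substitute linear forms: `F' = aeval (fun i => ∑ j, C (M i j) * X j) F` is homogeneous
(`IsHomogeneous.aeval`), `eval y F' = eval (M *ᵥ y) F`; substituting with `N` gives back `F`;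
having coefficients in `Q` means lying in `Q.map C` (`MvPolynomial.mem_map_C_iff`). -/
theorem QR.mulVec {O : Type} [CommRing O] {y : Fin n → O} (hy : QR y)
    (M N : Matrix (Fin n) (Fin n) O) (h : M * N = 1) :
    QR (M.mulVec y) ∧ Ideal.span (Set.range (M.mulVec y)) = Ideal.span (Set.range y) := by
  have e : Ideal.span (Set.range (M.mulVec y)) = Ideal.span (Set.range y) := by
    refine le_antisymm (n3_le y M) (le_of_eq_of_le ?_ (n3_le (M.mulVec y) N))
    rw [Matrix.mulVec_mulVec, mul_eq_one_comm.1 h, Matrix.one_mulVec]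
  refine ⟨fun F i hF hv => ?_, e⟩
  rw [e, ← n3_eval] at hv
  have h3 := hF.aeval (n := 1) (fun i => ∑ j, C (M i j) * X j) fun i =>
    IsHomogeneous.sum _ _ _ fun j _ => (isHomogeneous_X O j).C_mul _
  rw [one_mul] at h3
  have h5 : (Ideal.span (Set.range y)).map C ≤ ((Ideal.span (Set.range y)).map C).comap
      (aeval fun i => ∑ j, C (N i j) * X j : MvPolynomial (Fin n) O →ₐ[O] _) :=
    Ideal.map_le_iff_le_comap.2 fun a ha => by
      rw [Ideal.mem_comap, Ideal.mem_comap, aeval_C]
      exact Ideal.mem_map_of_mem (C : O →+* MvPolynomial (Fin n) O) ha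
  have h6 := h5 (mem_map_C_iff.2 (hy _ i h3 hv))
  rw [Ideal.mem_comap, n3_inv h] at h6
  rw [e]
  exact mem_map_C_iff.1 h6

/-- `y' = M *ᵥ y` with `M` congruent to a diagonal matrix of units modulo the maximal ideal, so
`det M` is a unit (`RingHom.map_det` with `IsLocalRing.residue`). -/
theorem QR.change {O : Type} [CommRing O] [IsLocalRing O] {y y' : Fin n → O} (hy : QR y)
    (h : ∀ i, ∃ s, IsUnit s ∧
      y' i - s * y i ∈ IsLocalRing.maximalIdeal O * Ideal.span (Set.range y)) :
    QR y' ∧ Ideal.span (Set.range y') = Ideal.span (Set.range y) := by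
  choose s hs h1 using h
  choose a ha h2 using fun i => (Submodule.mem_ideal_smul_span_iff_exists_sum _ y _).1 (h1 i)
  let M : Matrix (Fin n) (Fin n) O := Matrix.diagonal s + Matrix.of fun i j => a i j
  have e : M.mulVec y = y' := funext fun i => by
    have := h2 i
    rw [Finsupp.sum_fintype _ _ (by simp), eq_sub_iff_add_eq'] at this
    rw [Matrix.add_mulVec, Pi.add_apply, Matrix.mulVec_diagonal]
    exact this
  have hd : IsUnit M.det := by
    have e' : (IsLocalRing.residue O).mapMatrix M =
        Matrix.diagonal fun i => IsLocalRing.residue O (s i) := by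
      ext i j
      simp [M, (IsLocalRing.residue_eq_zero_iff _).2 (ha i j), Matrix.diagonal_apply,
        apply_ite (IsLocalRing.residue O)]
    rw [← IsLocalRing.residue_ne_zero_iff_isUnit, RingHom.map_det, e', Matrix.det_diagonal]
    exact Finset.prod_ne_zero_iff.2 fun i _ => (IsLocalRing.residue_ne_zero_iff_isUnit _).2 (hs i)
  exact e ▸ hy.mulVec M M⁻¹ (Matrix.mul_nonsing_inv M hd)

open MvPolynomial in
/-- Let `x j` be linearly independent over `ℂ` modulo `Q`. Induction on `k`: all `s j` lie in
`𝔫 ^ k`; the form `∑ j, C (x j) * map _ (homogeneousComponent k (s j))` has its value in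
`Q ^ (k + 1)`, so its coefficients `∑ j, coeff α (s j) • x j` lie in `Q` and vanish
(`MvPolynomial.mem_pow_idealOfVars_iff`-type description of `𝔫 ^ k` by degrees). -/
theorem QR.indep {O ι : Type} [CommRing O] [Algebra ℂ O] [Fintype ι] {y : Fin n → O} (hy : QR y)
    (x : ι → O) (hx : ∀ c : ι → ℂ, ∑ j, c j • x j ∈ Ideal.span (Set.range y) → c = 0) (k : ℕ)
    (s : ι → MvPolynomial (Fin n) ℂ)
    (h : ∑ j, MvPolynomial.aeval y (s j) * x j ∈ Ideal.span (Set.range y) ^ k) (j : ι) :
    s j ∈ Ideal.span (Set.range (MvPolynomial.X : Fin n → MvPolynomial (Fin n) ℂ)) ^ k := by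
  induction k generalizing j with
  | zero => simp
  | succ k ih =>
    have h1 : ∀ j, s j - homogeneousComponent k (s j) ∈ Ideal.span (Set.range X) ^ (k + 1) :=
      fun j => (mem_pow_idealOfVars_iff' _ _).2 fun α hα => by
        rw [coeff_sub, coeff_homogeneousComponent]
        split_ifs with e
        · exact sub_self _
        · rw [(mem_pow_idealOfVars_iff' _ _).1
            (ih (Ideal.pow_le_pow_right k.le_succ h) j) α (by omega), sub_zero]
    have h2 : ∀ P ∈ Ideal.span (Set.range (X : Fin n → MvPolynomial (Fin n) ℂ)) ^ (k + 1),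
        aeval y P ∈ Ideal.span (Set.range y) ^ (k + 1) := fun P hP => by
      have := Ideal.mem_map_of_mem (aeval y : MvPolynomial (Fin n) ℂ →ₐ[ℂ] O) hP
      rwa [Ideal.map_pow, Ideal.map_span, ← Set.range_comp, show (aeval y ∘ X) = y from
        funext (aeval_X y)] at this
    have h3 := hy (∑ j, C (x j) * map (algebraMap ℂ O) (homogeneousComponent k (s j))) k
      (IsHomogeneous.sum _ _ _ fun j _ =>
        ((homogeneousComponent_isHomogeneous k (s j)).map _).C_mul _) (by
        have := sub_mem h (Ideal.sum_mem _ fun j (_ : j ∈ Finset.univ) =>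
          Ideal.mul_mem_right (x j) _ (h2 _ (h1 j)))
        rw [← Finset.sum_sub_distrib] at this
        simpa [← sub_mul, mul_comm (x _), eval_map, ← aeval_def] using this)
    have h4 : homogeneousComponent k (s j) = 0 := MvPolynomial.ext _ _ fun α =>
      congrFun (hx (fun j => coeff α (homogeneousComponent k (s j))) (by
        simpa [coeff_sum, coeff_map, Algebra.smul_def, mul_comm (x _)] using h3 α)) j
    simpa [h4] using h1 j

/-- `QR.indep` with the single element `1`, and Krull's intersection theorem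
(`Ideal.iInf_pow_eq_bot_of_isDomain`). -/
theorem QR.inj {O : Type} [CommRing O] [Algebra ℂ O] {y : Fin n → O} (hy : QR y)
    (h : Ideal.span (Set.range y) ≠ ⊤) :
    Function.Injective (MvPolynomial.aeval y : MvPolynomial (Fin n) ℂ →ₐ[ℂ] O) := by
  refine (injective_iff_map_eq_zero _).2 fun P hP => MvPolynomial.ext _ _ fun α => ?_
  refine (MvPolynomial.mem_pow_idealOfVars_iff' _ _).1 (hy.indep (ι := Unit) (fun _ => 1)
    (fun c hc => ?_) (α.degree + 1) (fun _ => P) (by simp [hP]) ()) α (Nat.lt_succ_self _)
  by_contra h0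
  refine h (Ideal.eq_top_of_isUnit_mem _ hc ?_)
  rw [Fintype.sum_unique, ← Algebra.algebraMap_eq_smul_one]
  exact (IsUnit.mk0 _ fun e => h0 (funext fun _ => e)).map _

end Vale.Agent.P282
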