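import Vale.Agent.P282.Defs

/-! Orthonormalization, and Frobenius algebras of rank six. -/

open scoped ENNReal WithZero
open WithZero Filter IsLocalRing

noncomputable section

namespace Vale.Agent.P282

set_option linter.unusedSectionVars false

variable {K : Type} [Field K] [Algebra ℂ K] {n : ℕ}

theorem x1_mul {A ι : Type} [CommRing A] [Fintype ι] {I J : Ideal A} {M M' : Matrix ι ι A}
    (h : ∀ i j, M i j ∈ I) (h' : ∀ i j, M' i j ∈ J) (i j : ι) : (M * M') i j ∈ I * J := by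
  rw [Matrix.mul_apply]
  exact Ideal.sum_mem _ fun k _ => Ideal.mul_mem_mul (h i k) (h' k j)

theorem x1_mul_left {A ι : Type} [CommRing A] [Fintype ι] {I : Ideal A} {M : Matrix ι ι A}
    (h : ∀ i j, M i j ∈ I) (M' : Matrix ι ι A) (i j : ι) : (M * M') i j ∈ I := by
  rw [Matrix.mul_apply]
  exact Ideal.sum_mem _ fun k _ => I.mul_mem_right _ (h i k)

theorem x1_half (A : Type) [CommRing A] [Algebra ℂ A] : ∃ c : A, 2 * c = 1 := by
  refine ⟨algebraMap ℂ A (1 / 2), ?_⟩
  rw [← map_ofNat (algebraMap ℂ A) 2, ← map_mul]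
  norm_num

theorem x1_step {A ι : Type} [CommRing A] [Fintype ι] [DecidableEq ι] {c : A} (hc : 2 * c = 1)
    (H : Matrix ι ι A) : (1 - c • H) * (1 + H) * (1 - c • H) - 1 =
      H * H * ((c ^ 2 - 2 * c) • (1 : Matrix ι ι A) + c ^ 2 • H) := by
  have h1 : H = (2 * c) • H := by rw [hc, one_smul]
  simp only [mul_sub, sub_mul, mul_add, add_mul, mul_one, one_mul, smul_mul_assoc, mul_smul_comm,
    smul_sub, smul_add, smul_smul]
  linear_combination (norm := module) h1

theorem x1_approx {A ι : Type} [CommRing A] [Algebra ℂ A] [Fintype ι] [DecidableEq ι]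
    (𝔫 : Ideal A) (G : Matrix ι ι A) (hs : G.IsSymm) (h : ∀ i j, (G - 1) i j ∈ 𝔫) (k : ℕ) :
    ∃ P : Matrix ι ι A, (∀ i j, (P - 1) i j ∈ 𝔫) ∧
      ∀ i j, (P * G * P.transpose - 1) i j ∈ 𝔫 ^ (k + 1) := by
  obtain ⟨c, hc⟩ := x1_half A
  induction k with
  | zero => exact ⟨1, by simp, by simpa using h⟩
  | succ k ih =>
    obtain ⟨P, hP, hH⟩ := ih
    set H := P * G * P.transpose - 1 with hHd
    have hHs : H.transpose = H := by
      rw [hHd, Matrix.transpose_sub, Matrix.transpose_one, Matrix.transpose_mul,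
        Matrix.transpose_mul, Matrix.transpose_transpose, hs.eq, Matrix.mul_assoc]
    have hle : 𝔫 ^ (k + 1) ≤ 𝔫 := Ideal.pow_le_self (Nat.succ_ne_zero k)
    refine ⟨(1 - c • H) * P, fun i j => ?_, fun i j => ?_⟩
    · have : (1 - c • H) * P - 1 = (P - 1) - c • (H * P) := by
        rw [sub_mul, one_mul, smul_mul_assoc]
        abel
      rw [this, Matrix.sub_apply, Matrix.smul_apply, smul_eq_mul]
      exact 𝔫.sub_mem (hP i j) (𝔫.mul_mem_left _ (hle (x1_mul_left hH P i j)))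
    · have h2 : P * G * P.transpose = 1 + H := by
        rw [hHd]
        abel
      have : (1 - c • H) * P * G * ((1 - c • H) * P).transpose =
          (1 - c • H) * (1 + H) * (1 - c • H) := by
        rw [Matrix.transpose_mul, Matrix.transpose_sub, Matrix.transpose_one,
          Matrix.transpose_smul, hHs, ← h2]
        simp only [Matrix.mul_assoc]
      rw [this, x1_step hc]
      refine x1_mul_left (fun i j => ?_) _ i j
      rw [pow_succ 𝔫 (k + 1)]
      exact x1_mul hH (fun i j => hle (hH i j)) i j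

/-- Induction on `k`: there is `P ≡ 1` with `P * G * Pᵀ ≡ 1` modulo `𝔫 ^ (k + 1)`; if
`G' = 1 + H` is symmetric, `(1 - H / 2) * G' * (1 - H / 2)ᵀ = 1 + H * H * (…)`. At the end
`P' = G * Pᵀ` is a right inverse, hence a left inverse (`mul_eq_one_comm`). -/
theorem exists_sqrt_inv {A ι : Type} [CommRing A] [Algebra ℂ A] [Fintype ι] [DecidableEq ι]
    (𝔫 : Ideal A) {N : ℕ} (hN : 𝔫 ^ N = ⊥) (G : Matrix ι ι A) (hs : G.IsSymm)
    (h : ∀ i j, (G - 1) i j ∈ 𝔫) : ∃ P P' : Matrix ι ι A, P' * P = 1 ∧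
      (∀ i j, (P - 1) i j ∈ 𝔫) ∧ P * G * P.transpose = 1 := by
  obtain ⟨P, hP, hH⟩ := x1_approx 𝔫 G hs h N
  have h1 : P * G * P.transpose = 1 := by
    rw [← sub_eq_zero]
    ext i j
    have := Ideal.pow_le_pow_right (Nat.le_succ N) (hH i j)
    rw [hN] at this
    exact this
  refine ⟨P, G * P.transpose, ?_, hP, h1⟩
  rw [mul_eq_one_comm, ← Matrix.mul_assoc, h1]

/-- `LinearMap.BilinForm.exists_orthogonal_basis` for `Matrix.toBilin' G`; the diagonal values are
nonzero, divide by their square roots (`IsAlgClosed.exists_pow_nat_eq`). -/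
theorem exists_orth {ι : Type} [Fintype ι] [DecidableEq ι] (G : Matrix ι ι ℂ) (hs : G.IsSymm)
    (hd : G.det ≠ 0) : ∃ P : Matrix ι ι ℂ, P * G * P.transpose = 1 := by
  obtain ⟨v, hv⟩ := LinearMap.BilinForm.exists_orthogonal_basis
    (LinearMap.BilinForm.isSymm_iff.1 (Matrix.isSymm_toBilin'_iff_isSymm.2 hs))
  have e : Fin (Module.finrank ℂ (ι → ℂ)) ≃ ι :=
    Fintype.equivOfCardEq (by simp)
  let w := v.reindex e
  have hw : ∀ i j, i ≠ j → Matrix.toBilin' G (w i) (w j) = 0 := fun i j hij => by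
    simp only [w, Module.Basis.reindex_apply]
    exact LinearMap.isOrthoᵢ_def.1 hv _ _ (e.symm.injective.ne hij)
  have hne : ∀ i, Matrix.toBilin' G (w i) (w i) ≠ 0 := fun i h0 => by
    have h1 : Matrix.toBilin' G (w i) = 0 := w.ext fun j => by
      by_cases hij : i = j
      · subst hij
        exact h0
      · exact hw i j hij
    refine w.ne_zero i (Matrix.eq_zero_of_vecMul_eq_zero hd (funext fun j => ?_))
    have h2 : Matrix.toBilin' G (w i) (Pi.single j 1) = 0 := by rw [h1, LinearMap.zero_apply]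
    rw [Matrix.toBilin'_apply', Matrix.dotProduct_mulVec] at h2
    simpa using h2
  choose r hr using fun i => IsAlgClosed.exists_pow_nat_eq (Matrix.toBilin' G (w i) (w i))
    (by norm_num : 0 < 2)
  have hr0 : ∀ i, r i ≠ 0 := fun i h0 => hne i (by rw [← hr i, h0]; simp)
  refine ⟨Matrix.of fun i j => ((r i)⁻¹ • w i) j, ?_⟩
  ext i j
  have : (Matrix.of (fun i j => ((r i)⁻¹ • w i) j) * G *
      (Matrix.of fun i j => ((r i)⁻¹ • w i) j).transpose) i j =
      Matrix.toBilin' G ((r i)⁻¹ • w i) ((r j)⁻¹ • w j) := by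
    rw [Matrix.toBilin'_apply', Matrix.mul_assoc]
    rfl
  rw [this]
  simp only [map_smul, LinearMap.smul_apply, smul_eq_mul]
  by_cases hij : i = j
  · subst hij
    rw [← hr i, Matrix.one_apply_eq]
    field_simp [hr0 i]
  · rw [hw i j hij, Matrix.one_apply_ne hij]
    simp

/-- Every `b` equals `φ (b * σ) + ∑ i, φ (b * v i) • v i + φ b • σ`. With `C i j l = φ (v i * v j * v l)`,
`q i j = φ (v i * v j * σ)`, `d i = φ (v i * σ * σ)`, expand
`φ ((v i * v j) * (v k * v l)) = δ i j * q k l + δ k l * q i j + ∑ m, C i j m * C k l m`.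
Comparing `(i j | k k)` with `(i k | j k)` for `k ∉ {i, j}`, `i ≠ j`, gives `q i j ∈ I ^ 2`;
comparing `(i i | k k)` with `(i k | i k)` gives `q i i + q k k ∈ I ^ 2`, and three indices give
`2 * q i i ∈ I ^ 2`. Comparing `φ ((v i * v j) * (v j * σ))` with `φ ((v i * σ) * (v j * v j))`,
`j ≠ i`, gives `d i ∈ I ^ 3`. -/
theorem frob_norm {A B : Type} [CommRing A] [Algebra ℂ A] [CommRing B] [Algebra A B]
    (φ : B →ₗ[A] A) (v : Fin 4 → B) (σ : B)
    (hsp : ∀ b : B, ∃ (a₀ a₂ : A) (a : Fin 4 → A),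
      b = algebraMap A B a₀ + ∑ i, a i • v i + a₂ • σ)
    (h1 : φ 1 = 0) (hv : ∀ i, φ (v i) = 0) (hσ : φ σ = 1)
    (hvv : ∀ i j, φ (v i * v j) = if i = j then 1 else 0) (hvσ : ∀ i, φ (v i * σ) = 0)
    (hσσ : φ (σ * σ) = 0) (I : Ideal A) (hI : ∀ i j l, φ (v i * v j * v l) ∈ I) :
    (∀ i, v i ^ 3 ∈ I.map (algebraMap A B) *
      (Ideal.span (Set.range v) ⊔ I.map (algebraMap A B)) ^ 2) ∧
    σ ∈ (Ideal.span (Set.range v) ⊔ I.map (algebraMap A B)) ^ 2 := by
  obtain ⟨c, hc⟩ := x1_half A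
  have hex : ∀ b : B, b = algebraMap A B (φ (b * σ)) + ∑ i, φ (b * v i) • v i + φ b • σ := by
    intro b
    obtain ⟨a₀, a₂, a, rfl⟩ := hsp b
    have e0 : φ ((algebraMap A B a₀ + ∑ i, a i • v i + a₂ • σ) * σ) = a₀ := by
      simp [add_mul, Finset.sum_mul, ← Algebra.smul_def, hσ, hvσ, hσσ]
    have e1 : ∀ j, φ ((algebraMap A B a₀ + ∑ i, a i • v i + a₂ • σ) * v j) = a j := by
      intro j
      have : φ (σ * v j) = 0 := by rw [mul_comm, hvσ]
      simp [add_mul, Finset.sum_mul, ← Algebra.smul_def, hv, hvv, this]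
    have e2 : φ (algebraMap A B a₀ + ∑ i, a i • v i + a₂ • σ) = a₂ := by
      simp [Algebra.algebraMap_eq_smul_one, h1, hv, hσ]
    rw [e0, e2]
    simp only [e1]
  have hbi : ∀ b b' : B, φ (b * b') =
      φ (b * σ) * φ b' + ∑ m, φ (b * v m) * φ (b' * v m) + φ b * φ (b' * σ) := by
    intro b b'
    conv_lhs => rw [hex b]
    simp only [add_mul, Finset.sum_mul, ← Algebra.smul_def, smul_mul_assoc, map_add, map_sum,
      map_smul, smul_eq_mul, mul_comm b']
  have hS : ∀ i j k l, ∑ m, φ (v i * v j * v m) * φ (v k * v l * v m) ∈ I ^ 2 := by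
    intro i j k l
    rw [pow_two]
    exact Ideal.sum_mem _ fun m _ => Ideal.mul_mem_mul (hI _ _ _) (hI _ _ _)
  have hq1 : ∀ i j, i ≠ j → φ (v i * v j * σ) ∈ I ^ 2 := by
    intro i j hij
    obtain ⟨k, hki, hkj⟩ : ∃ k : Fin 4, k ≠ i ∧ k ≠ j := by
      revert i j
      decide
    have a1 := hbi (v i * v j) (v k * v k)
    have a2 := hbi (v i * v k) (v j * v k)
    rw [show v i * v k * (v j * v k) = v i * v j * (v k * v k) by ring, a1] at a2
    simp only [hvv, if_neg hij, if_neg hki.symm, if_neg hkj.symm, if_true, mul_one, zero_mul,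
      mul_zero, add_zero, zero_add] at a2
    rw [eq_sub_of_add_eq a2]
    exact Ideal.sub_mem _ (hS _ _ _ _) (hS _ _ _ _)
  have hq2 : ∀ i k, i ≠ k → φ (v i * v i * σ) + φ (v k * v k * σ) ∈ I ^ 2 := by
    intro i k hik
    have a1 := hbi (v i * v i) (v k * v k)
    have a2 := hbi (v i * v k) (v i * v k)
    rw [show v i * v k * (v i * v k) = v i * v i * (v k * v k) by ring, a1] at a2
    simp only [hvv, if_neg hik, if_true, mul_one, one_mul, zero_mul,
      mul_zero, add_zero, zero_add] at a2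
    have : φ (v i * v i * σ) + φ (v k * v k * σ) =
        ∑ m, φ (v i * v k * v m) * φ (v i * v k * v m) -
          ∑ m, φ (v i * v i * v m) * φ (v k * v k * v m) := by
      linear_combination a2
    rw [this]
    exact Ideal.sub_mem _ (hS _ _ _ _) (hS _ _ _ _)
  have hq : ∀ i j, φ (v i * v j * σ) ∈ I ^ 2 := by
    intro i j
    by_cases hij : i = j
    · subst hij
      obtain ⟨j, k, h1, h2, h3⟩ : ∃ j k : Fin 4, i ≠ j ∧ i ≠ k ∧ j ≠ k := by
        revert i
        decide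
      have : φ (v i * v i * σ) = c * ((φ (v i * v i * σ) + φ (v j * v j * σ)) +
          (φ (v i * v i * σ) + φ (v k * v k * σ)) - (φ (v j * v j * σ) + φ (v k * v k * σ))) := by
        linear_combination (-φ (v i * v i * σ)) * hc
      rw [this]
      exact Ideal.mul_mem_left _ _
        (Ideal.sub_mem _ (Ideal.add_mem _ (hq2 _ _ h1) (hq2 _ _ h2)) (hq2 _ _ h3))
    · exact hq1 i j hij
  have hT : ∀ i j k, ∑ m, φ (v i * v j * v m) * φ (v k * σ * v m) ∈ I ^ 3 := by
    intro i j k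
    rw [pow_succ']
    refine Ideal.sum_mem _ fun m _ => Ideal.mul_mem_mul (hI _ _ _) ?_
    rw [mul_right_comm]
    exact hq _ _
  have hd : ∀ i, φ (v i * σ * σ) ∈ I ^ 3 := by
    intro i
    obtain ⟨j, hij⟩ : ∃ j : Fin 4, i ≠ j := by
      revert i
      decide
    have a1 := hbi (v j * v j) (v i * σ)
    have a2 := hbi (v i * v j) (v j * σ)
    rw [show v i * v j * (v j * σ) = v j * v j * (v i * σ) by ring, a1] at a2
    simp only [hvv, hvσ, if_neg hij, if_true, one_mul, zero_mul,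
      mul_zero, add_zero, zero_add] at a2
    rw [eq_sub_of_add_eq' a2]
    exact Ideal.sub_mem _ (hT _ _ _) (hT _ _ _)
  set J := I.map (algebraMap A B) with hJ
  set M := Ideal.span (Set.range v) ⊔ J with hM
  have hJM : J ≤ M := le_sup_right
  have hvM : ∀ i, v i ∈ M := fun i =>
    Ideal.mem_sup_left (Ideal.subset_span (Set.mem_range_self i))
  have hp : ∀ (k : ℕ) (a : A), a ∈ I ^ k → algebraMap A B a ∈ J ^ k := fun k a ha => by
    rw [hJ, ← Ideal.map_pow]
    exact Ideal.mem_map_of_mem _ ha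
  have hσM : σ ∈ M ^ 2 := by
    have a1 := hex (v 0 * v 0)
    rw [hvv, if_pos rfl, one_smul] at a1
    rw [eq_sub_of_add_eq' a1.symm]
    refine Ideal.sub_mem _ ?_ (Ideal.add_mem _ ?_ (Ideal.sum_mem _ fun m _ => ?_))
    · rw [pow_two]
      exact Ideal.mul_mem_mul (hvM 0) (hvM 0)
    · exact Ideal.pow_right_mono hJM 2 (hp 2 _ (hq 0 0))
    · rw [pow_two, Algebra.smul_def]
      exact Ideal.mul_mem_mul (hJM (Ideal.mem_map_of_mem _ (hI _ _ _))) (hvM m)
  refine ⟨fun i => ?_, hσM⟩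
  have h3 : v i ^ 3 = v i * v i * v i := by ring
  rw [h3, hex (v i * v i * v i)]
  refine Ideal.add_mem _ (Ideal.add_mem _ ?_ (Ideal.sum_mem _ fun m _ => ?_)) ?_
  · have : φ (v i * v i * v i * σ) ∈ I ^ 3 := by
      rw [mul_assoc (v i * v i), hbi, hvσ, mul_zero, zero_add]
      exact Ideal.add_mem _ (hT _ _ _) (Ideal.mul_mem_left _ _ (hd i))
    have h4 := hp 3 _ this
    rw [pow_succ'] at h4
    exact Ideal.mul_mono_right (Ideal.pow_right_mono hJM 2) h4
  · have : φ (v i * v i * v i * v m) ∈ I ^ 2 := by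
      rw [mul_assoc (v i * v i), hbi]
      exact Ideal.add_mem _ (Ideal.add_mem _ (Ideal.mul_mem_right _ _ (hq _ _)) (hS _ _ _ _))
        (Ideal.mul_mem_left _ _ (hq _ _))
    have h4 := hp 2 _ this
    rw [Algebra.smul_def, pow_two M, ← mul_assoc]
    rw [pow_two] at h4
    exact Ideal.mul_mem_mul (Ideal.mul_mono_right hJM h4) (hvM m)
  · rw [Algebra.smul_def]
    exact Ideal.mul_mem_mul (Ideal.mem_map_of_mem _ (hI _ _ _)) hσM

end Vale.Agent.P282
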