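import Vale.Agent.P282.X1

/-! Normalizing the basis of a Frobenius algebra of rank six. -/

open scoped ENNReal WithZero
open WithZero Filter IsLocalRing

noncomputable section

namespace Vale.Agent.P282

set_option linter.unusedSectionVars false

variable {K : Type} [Field K] [Algebra ℂ K] {n : ℕ}

/-- The sorted triples that are not constant. -/
def x2_f : Fin 16 → Fin 4 × Fin 4 × Fin 4 :=
  ![(0, 0, 1), (0, 0, 2), (0, 0, 3), (0, 1, 1), (0, 1, 2), (0, 1, 3), (0, 2, 2), (0, 2, 3),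
    (0, 3, 3), (1, 1, 2), (1, 1, 3), (1, 2, 2), (1, 2, 3), (1, 3, 3), (2, 2, 3), (2, 3, 3)]

theorem x2_dec : ∀ i j l : Fin 4, (j = i ∧ l = i) ∨ ∃ m, x2_f m = (i, j, l) ∨ x2_f m = (i, l, j) ∨
    x2_f m = (j, i, l) ∨ x2_f m = (j, l, i) ∨ x2_f m = (l, i, j) ∨ x2_f m = (l, j, i) := by
  decide

/-- A symmetric tensor on four indices with zero diagonal has `16` entries: enumerate the triples
`i ≤ j ≤ l` that are not constant (an explicit vector `![T 0 0 1, …]`, `fin_cases`). -/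
theorem exists_sixteen {A : Type} (z : A) (T : Fin 4 → Fin 4 → Fin 4 → A)
    (h1 : ∀ i j l, T i j l = T j i l) (h2 : ∀ i j l, T i j l = T i l j) (h0 : ∀ i, T i i i = z) :
    ∃ C : Fin 16 → A, (∀ m, ∃ i j l, C m = T i j l) ∧
      ∀ i j l, T i j l = z ∨ T i j l ∈ Set.range C := by
  refine ⟨fun m => T (x2_f m).1 (x2_f m).2.1 (x2_f m).2.2, fun m => ⟨_, _, _, rfl⟩,
    fun i j l => ?_⟩
  rcases x2_dec i j l with ⟨rfl, rfl⟩ | ⟨m, h⟩
  · exact Or.inl (h0 _)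
  · refine Or.inr ⟨m, ?_⟩
    rcases h with h | h | h | h | h | h <;> simp only [h]
    · exact h2 _ _ _
    · exact h1 _ _ _
    · exact (h2 _ _ _).trans (h1 _ _ _)
    · exact (h1 _ _ _).trans (h2 _ _ _)
    · exact (h1 _ _ _).trans ((h2 _ _ _).trans (h1 _ _ _))

section
variable {A B : Type} [CommRing A] [CommRing B] [Algebra A B] {𝔫 : Ideal A} {φ : B →ₗ[A] A}
  {v : Fin 4 → B} {σ : B}

/-- The hypotheses that are kept along the normalization. -/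
structure x2_St (𝔫 : Ideal A) (φ : B →ₗ[A] A) (v : Fin 4 → B) (σ : B) : Prop where
  sp : ∀ b : B, ∃ (a₀ a₂ : A) (a : Fin 4 → A), b = algebraMap A B a₀ + ∑ i, a i • v i + a₂ • σ
  one : φ 1 = 0
  hv : ∀ i, φ (v i) = 0
  hσ : φ σ = 1
  vvv : ∀ i j l, φ (v i * v j * v l) ∈ 𝔫
  vσ : ∀ i, φ (v i * σ) ∈ 𝔫
  σσ : φ (σ * σ) ∈ 𝔫

theorem x2_one (h : x2_St 𝔫 φ v σ) {P P' : Matrix (Fin 4) (Fin 4) A} (hP : P' * P = 1)
    (hG : P * (Matrix.of fun i j => φ (v i * v j)) * P.transpose = 1) :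
    ∃ w : Fin 4 → B, x2_St 𝔫 φ w σ ∧ ∀ i j, φ (w i * w j) = if i = j then 1 else 0 := by
  refine ⟨fun i => ∑ j, P i j • v j, ⟨fun b => ?_, h.one, fun i => ?_, h.hσ, fun i j l => ?_,
    fun i => ?_, h.σσ⟩, fun i j => ?_⟩
  · obtain ⟨a₀, a₂, a, e⟩ := h.sp b
    refine ⟨a₀, a₂, Matrix.vecMul a P', e.trans ?_⟩
    have e' : ∀ j, ∑ i, Matrix.vecMul a P' i * P i j = a j := fun j => by
      have := congrFun (Matrix.vecMul_vecMul a P' P) j
      rwa [hP, Matrix.vecMul_one] at this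
    simp only [Finset.smul_sum, smul_smul]
    rw [Finset.sum_comm]
    simp only [← Finset.sum_smul, e']
  · simp only [map_sum, map_smul, h.hv, smul_zero, Finset.sum_const_zero]
  · simp only [Finset.sum_mul, Finset.mul_sum, smul_mul_assoc, mul_smul_comm, map_sum, map_smul]
    exact 𝔫.sum_mem fun _ _ => 𝔫.smul_mem _ (𝔫.sum_mem fun _ _ => 𝔫.smul_mem _
      (𝔫.sum_mem fun _ _ => 𝔫.smul_mem _ (h.vvv _ _ _)))
  · simp only [Finset.sum_mul, smul_mul_assoc, map_sum, map_smul]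
    exact 𝔫.sum_mem fun _ _ => 𝔫.smul_mem _ (h.vσ _)
  · rw [← Matrix.one_apply, ← hG]
    simp only [Finset.sum_mul, Finset.mul_sum, smul_mul_assoc, mul_smul_comm, map_sum, map_smul,
      Matrix.mul_apply, Matrix.of_apply, Matrix.transpose_apply, smul_eq_mul]
    exact Finset.sum_congr rfl fun _ _ => Finset.sum_congr rfl fun _ _ => by ring

theorem x2_two (h : x2_St 𝔫 φ v σ) (hvv : ∀ i j, φ (v i * v j) = if i = j then 1 else 0) {t : A}
    (ht : 3 * t = 1) : ∃ w : Fin 4 → B, x2_St 𝔫 φ w σ ∧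
      (∀ i j, φ (w i * w j) = if i = j then 1 else 0) ∧ ∀ i, φ (w i * w i * w i) = 0 := by
  obtain ⟨c, hc⟩ : ∃ c : Fin 4 → A, ∀ i, c i = t * φ (v i * v i * v i) := ⟨_, fun _ => rfl⟩
  have hn : ∀ i, c i ∈ 𝔫 := fun i => hc i ▸ 𝔫.mul_mem_left _ (h.vvv i i i)
  have e3 : ∀ i j l, φ ((v i - c i • 1) * (v j - c j • 1) * (v l - c l • 1)) =
      φ (v i * v j * v l) - φ (v i * v j) * c l - φ (v i * v l) * c j - φ (v j * v l) * c i :=
    fun i j l => by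
      simp only [sub_mul, mul_sub, smul_mul_assoc, mul_smul_comm, one_mul, mul_one, map_sub,
        map_smul, h.one, h.hv, smul_eq_mul]
      ring
  refine ⟨fun i => v i - c i • 1, ⟨fun b => ?_, h.one, fun i => ?_, h.hσ, fun i j l => ?_,
    fun i => ?_, h.σσ⟩, fun i j => ?_, fun i => ?_⟩
  · obtain ⟨a₀, a₂, a, e⟩ := h.sp b
    refine ⟨a₀ + ∑ i, a i * c i, a₂, a, e.trans ?_⟩
    simp only [Algebra.algebraMap_eq_smul_one, add_smul, Finset.sum_smul, smul_sub, smul_smul,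
      Finset.sum_sub_distrib]
    abel
  · simp only [map_sub, map_smul, h.hv, h.one, smul_zero, sub_zero]
  · rw [e3]
    exact 𝔫.sub_mem (𝔫.sub_mem (𝔫.sub_mem (h.vvv _ _ _) (𝔫.mul_mem_left _ (hn _)))
      (𝔫.mul_mem_left _ (hn _))) (𝔫.mul_mem_left _ (hn _))
  · simp only [sub_mul, smul_mul_assoc, one_mul, map_sub, map_smul, h.hσ, smul_eq_mul, mul_one]
    exact 𝔫.sub_mem (h.vσ i) (hn i)
  · simp only [sub_mul, mul_sub, smul_mul_assoc, mul_smul_comm, one_mul, mul_one, map_sub,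
      map_smul, h.one, h.hv, smul_zero, sub_zero, hvv]
  · rw [e3, hvv, if_pos rfl, hc]
    linear_combination (-φ (v i * v i * v i)) * ht

theorem x2_three (h : x2_St 𝔫 φ v σ) (hvv : ∀ i j, φ (v i * v j) = if i = j then 1 else 0) :
    ∃ τ, x2_St 𝔫 φ v τ ∧ (∀ i, φ (v i * τ) = 0) ∧ τ - σ ∈ 𝔫.map (algebraMap A B) := by
  have e1 : ∀ i, φ (v i * (σ - ∑ j, φ (v j * σ) • v j)) = 0 := fun i => by
    simp only [mul_sub, Finset.mul_sum, mul_smul_comm, map_sub, map_sum, map_smul, hvv,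
      smul_eq_mul, mul_ite, mul_one, mul_zero, Finset.sum_ite_eq, Finset.mem_univ, if_true,
      sub_self]
  refine ⟨σ - ∑ j, φ (v j * σ) • v j, ⟨fun b => ?_, h.one, h.hv, ?_, h.vvv,
    fun i => (e1 i).symm ▸ 𝔫.zero_mem, ?_⟩, e1, ?_⟩
  · obtain ⟨a₀, a₂, a, e⟩ := h.sp b
    refine ⟨a₀, a₂, fun i => a i + a₂ * φ (v i * σ), e.trans ?_⟩
    simp only [add_smul, Finset.smul_sum, smul_sub, smul_smul, Finset.sum_add_distrib]
    abel
  · simp only [map_sub, map_sum, map_smul, h.hv, h.hσ, smul_zero, Finset.sum_const_zero, sub_zero]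
  · rw [sub_mul, Finset.sum_mul]
    simp only [smul_mul_assoc, map_sub, map_sum, map_smul, e1, smul_zero, Finset.sum_const_zero,
      sub_zero]
    simp only [mul_sub, Finset.mul_sum, mul_smul_comm, map_sub, map_sum, map_smul, smul_eq_mul]
    exact 𝔫.sub_mem h.σσ (𝔫.sum_mem fun j _ => 𝔫.mul_mem_right _ (h.vσ j))
  · rw [sub_sub_cancel_left]
    refine neg_mem (Ideal.sum_mem _ fun j _ => ?_)
    rw [Algebra.smul_def]
    exact Ideal.mul_mem_right _ _ (Ideal.mem_map_of_mem _ (h.vσ j))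

theorem x2_four (h : x2_St 𝔫 φ v σ) (hvσ : ∀ i, φ (v i * σ) = 0) {t : A} (ht : 2 * t = 1) :
    ∃ τ, x2_St 𝔫 φ v τ ∧ (∀ i, φ (v i * τ) = 0) ∧ φ (τ * τ) = 0 ∧
      τ - σ ∈ 𝔫.map (algebraMap A B) := by
  have e1 : ∀ i, φ (v i * (σ - (t * φ (σ * σ)) • 1)) = 0 := fun i => by
    simp only [mul_sub, mul_smul_comm, mul_one, map_sub, map_smul, h.hv, hvσ, smul_zero, sub_zero]
  have e2 : φ ((σ - (t * φ (σ * σ)) • 1) * (σ - (t * φ (σ * σ)) • 1)) = 0 := by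
    simp only [sub_mul, mul_sub, smul_mul_assoc, mul_smul_comm, one_mul, mul_one, map_sub,
      map_smul, h.one, h.hσ, smul_eq_mul]
    linear_combination (-φ (σ * σ)) * ht
  refine ⟨σ - (t * φ (σ * σ)) • 1, ⟨fun b => ?_, h.one, h.hv, ?_, h.vvv,
    fun i => (e1 i).symm ▸ 𝔫.zero_mem, e2.symm ▸ 𝔫.zero_mem⟩, e1, e2, ?_⟩
  · obtain ⟨a₀, a₂, a, e⟩ := h.sp b
    refine ⟨a₀ + a₂ * (t * φ (σ * σ)), a₂, a, e.trans ?_⟩
    simp only [Algebra.algebraMap_eq_smul_one, add_smul, smul_sub, smul_smul]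
    abel
  · simp only [map_sub, map_smul, h.hσ, h.one, smul_zero, sub_zero]
  · rw [sub_sub_cancel_left, ← Algebra.algebraMap_eq_smul_one]
    exact neg_mem (Ideal.mem_map_of_mem _ (𝔫.mul_mem_left _ h.σσ))

end

/-- Replace `v` by `v¹ = P v` (`exists_sqrt_inv` for `G i j = φ (v i * v j)`), then by
`u i = v¹ i - φ (v¹ i ^ 3) / 3`, then `σ` by `σ¹ = σ - ∑ i, φ (u i * σ) • u i` and
`τ = σ¹ - φ (σ¹ * σ¹) / 2`; all corrections have coefficients in `𝔫` (reduce modulo `𝔫`: note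
`φ` maps `𝔫.map _` into `𝔫`). Apply `frob_norm` and `exists_sixteen`. -/
theorem frob_four {A B : Type} [CommRing A] [Algebra ℂ A] [CommRing B] [Algebra A B]
    (𝔫 : Ideal A) {N : ℕ} (hN : 𝔫 ^ N = ⊥) (φ : B →ₗ[A] A) (v : Fin 4 → B) (σ : B)
    (hsp : ∀ b : B, ∃ (a₀ a₂ : A) (a : Fin 4 → A),
      b = algebraMap A B a₀ + ∑ i, a i • v i + a₂ • σ)
    (h1 : φ 1 = 0) (hv : ∀ i, φ (v i) = 0) (hσ : φ σ = 1)
    (hvv : ∀ i j, φ (v i * v j) - (if i = j then 1 else 0) ∈ 𝔫)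
    (hvvv : ∀ i j l, φ (v i * v j * v l) ∈ 𝔫) (hvσ : ∀ i, φ (v i * σ) ∈ 𝔫)
    (hσσ : φ (σ * σ) ∈ 𝔫) :
    ∃ (u : Fin 4 → B) (τ : B) (C : Fin 16 → A), (∀ l, C l ∈ 𝔫) ∧
      τ - σ ∈ 𝔫.map (algebraMap A B) ∧
      (∀ i, u i ^ 3 ∈ Ideal.span (Set.range fun l => algebraMap A B (C l)) *
        (Ideal.span (Set.range u) ⊔ Ideal.span (Set.range fun l => algebraMap A B (C l))) ^ 2) ∧
      τ ∈ (Ideal.span (Set.range u) ⊔
        Ideal.span (Set.range fun l => algebraMap A B (C l))) ^ 2 := by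
  have ht : ∀ m : ℕ, m ≠ 0 → (m : A) * algebraMap ℂ A (m : ℂ)⁻¹ = 1 := fun m hm => by
    rw [← map_natCast (algebraMap ℂ A), ← map_mul, mul_inv_cancel₀ (Nat.cast_ne_zero.2 hm), map_one]
  obtain ⟨P, P', hP, -, hG⟩ := exists_sqrt_inv 𝔫 hN (Matrix.of fun i j => φ (v i * v j))
    (Matrix.IsSymm.ext fun i j => congrArg φ (mul_comm _ _)) fun i j => by
      rw [Matrix.sub_apply, Matrix.one_apply]
      exact hvv i j
  obtain ⟨w, s1, k1⟩ := x2_one ⟨hsp, h1, hv, hσ, hvvv, hvσ, hσσ⟩ hP hG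
  obtain ⟨u, s2, k2, k3⟩ := x2_two s1 k1 (ht 3 (by norm_num))
  obtain ⟨σ', s3, k4, k5⟩ := x2_three s2 k2
  obtain ⟨τ, s4, k6, k7, k8⟩ := x2_four s3 k4 (ht 2 (by norm_num))
  obtain ⟨C, hC, hC'⟩ := exists_sixteen 0 (fun i j l => φ (u i * u j * u l))
    (fun i j l => by rw [mul_comm (u i)]) (fun i j l => by rw [mul_right_comm]) k3
  have k9 := frob_norm φ u τ s4.sp h1 s4.hv s4.hσ k2 k6 k7 (Ideal.span (Set.range C))
    fun i j l => (hC' i j l).elim (fun h => h.symm ▸ Ideal.zero_mem _) fun h => Ideal.subset_span h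
  rw [Ideal.map_span, ← Set.range_comp] at k9
  refine ⟨u, τ, C, fun m => ?_, ?_, k9⟩
  · obtain ⟨i, j, l, e⟩ := hC m
    exact e ▸ s2.vvv i j l
  · exact sub_add_sub_cancel τ σ' σ ▸ Ideal.add_mem _ k8 k5

end Vale.Agent.P282
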